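import Mathlib

/-! Singular chains with real coefficients: a small concrete interface. -/

set_option autoImplicit false

noncomputable section

namespace Crest.Agent.R123

open CategoryTheory AlgebraicTopology Limits Opposite Simplicial

/-- The standard topological simplex. -/
abbrev Smp (n : ℕ) : Type := stdSimplex ℝ (Fin (n + 1))

/-- The continuous map of simplices induced by a map of vertex sets. -/
def smap {m n : ℕ} (g : Fin (m + 1) → Fin (n + 1)) : C(Smp m, Smp n) :=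
  ⟨stdSimplex.map g, stdSimplex.continuous_map g⟩

lemma smap_comp {l m n : ℕ} (g : Fin (m + 1) → Fin (n + 1)) (h : Fin (l + 1) → Fin (m + 1)) :
    (smap g).comp (smap h) = smap (g ∘ h) := by
  ext1 x
  exact stdSimplex.map_comp_apply h g x

lemma smap_vertex {m n : ℕ} (g : Fin (m + 1) → Fin (n + 1)) (i : Fin (m + 1)) :
    smap g (stdSimplex.vertex i) = stdSimplex.vertex (g i) :=
  stdSimplex.map_vertex g i

lemma smap_apply {m n : ℕ} (g : Fin (m + 1) → Fin (n + 1)) (x : Smp m) (j : Fin (n + 1)) :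
    smap g x j = ∑ i with g i = j, x i := by
  change (FunOnFinite.linearMap ℝ ℝ g x) j = _
  rw [FunOnFinite.linearMap_apply_apply]

/-- The coefficient module. -/
abbrev RR : ModuleCat.{0} ℝ := ModuleCat.of ℝ ℝ

/-- The singular chain complex. -/
abbrev KK (X : TopCat.{0}) : ChainComplex (ModuleCat.{0} ℝ) ℕ :=
  ((singularChainComplexFunctor (ModuleCat.{0} ℝ)).obj RR).obj X

/-- The induced chain map. -/
abbrev KM {X Y : TopCat.{0}} (f : X ⟶ Y) : KK X ⟶ KK Y :=
  ((singularChainComplexFunctor (ModuleCat.{0} ℝ)).obj RR).map f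

/-- The chain of a singular simplex. -/
def ch {X : TopCat.{0}} {n : ℕ} (σ : C(Smp n, X)) : RR ⟶ (KK X).X n :=
  (TopCat.toSSet.obj X).ιChainComplex (R := RR) ((X.toSSetObjEquiv (op ⦋n⦌)).symm σ)

lemma ch_d {X : TopCat.{0}} {n : ℕ} (σ : C(Smp (n + 1), X)) :
    ch σ ≫ (KK X).d (n + 1) n =
      ∑ i : Fin (n + 2), (-1 : ℤ) ^ i.val • ch (σ.comp (smap i.succAbove)) := by
  have := SSet.ιChainComplex_d (TopCat.toSSet.obj X) RR
    ((X.toSSetObjEquiv (op ⦋n + 1⦌)).symm σ)
  exact this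

lemma ch_map {X Y : TopCat.{0}} (f : X ⟶ Y) {n : ℕ} (σ : C(Smp n, X)) :
    ch σ ≫ (KM f).f n = ch (f.hom.comp σ) := by
  have := SSet.ι_chainComplexMap_f (TopCat.toSSet.obj X) (TopCat.toSSet.obj Y)
    (TopCat.toSSet.map f) RR ((X.toSSetObjEquiv (op ⦋n⦌)).symm σ)
  exact this

/-- A real function on singular simplices as a cochain. -/
def coch {X : TopCat.{0}} {n : ℕ} (c : C(Smp n, X) → ℝ) : (KK X).X n ⟶ RR :=
  ((TopCat.toSSet.obj X).isColimitChainComplexXCofan RR n).desc
    (Cofan.mk RR fun x => c (X.toSSetObjEquiv (op ⦋n⦌) x) • 𝟙 RR)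

lemma ch_coch {X : TopCat.{0}} {n : ℕ} (c : C(Smp n, X) → ℝ) (σ : C(Smp n, X)) :
    ch σ ≫ coch c = c σ • 𝟙 RR := by
  have := ((TopCat.toSSet.obj X).isColimitChainComplexXCofan RR n).fac
    (Cofan.mk RR fun x => c (X.toSSetObjEquiv (op ⦋n⦌) x) • 𝟙 RR)
    ⟨(X.toSSetObjEquiv (op ⦋n⦌)).symm σ⟩
  refine this.trans ?_
  simp

lemma chain_ext {X : TopCat.{0}} {n : ℕ} {T : ModuleCat.{0} ℝ} {a b : (KK X).X n ⟶ T}
    (h : ∀ σ : C(Smp n, X), ch σ ≫ a = ch σ ≫ b) : a = b := by
  apply SSet.chainComplex_hom_ext (X := TopCat.toSSet.obj X) (R := RR)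
  intro x
  have := h (X.toSSetObjEquiv (op ⦋n⦌) x)
  unfold ch at this
  rw [Equiv.symm_apply_apply] at this
  exact this

lemma d_coch {X : TopCat.{0}} {n : ℕ} (c : C(Smp n, X) → ℝ)
    (hc : ∀ ρ : C(Smp (n + 1), X),
      ∑ i : Fin (n + 2), (-1 : ℝ) ^ i.val * c (ρ.comp (smap i.succAbove)) = 0) :
    (KK X).d (n + 1) n ≫ coch c = 0 := by
  apply chain_ext
  intro ρ
  rw [← Category.assoc, ch_d, comp_zero, Preadditive.sum_comp]
  have : ∀ i : Fin (n + 2), ((-1 : ℤ) ^ i.val • ch (ρ.comp (smap i.succAbove))) ≫ coch c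
      = ((-1 : ℝ) ^ i.val * c (ρ.comp (smap i.succAbove))) • 𝟙 RR := by
    intro i
    rw [Preadditive.zsmul_comp, ch_coch, mul_smul, ← Int.cast_smul_eq_zsmul ℝ]
    simp
  simp_rw [this]
  rw [← Finset.sum_smul, hc, zero_smul]

/-- An eigenvalue of the induced map on second homology from chain-level data. -/
theorem hasEigenvalue_of_chain {X Y : TopCat.{0}} (i : X ⟶ Y) (p : Y ⟶ X) (hip : i ≫ p = 𝟙 X)
    (f : Y ⟶ Y) (ψ : X ⟶ X) (H : TopCat.Homotopy (i ≫ f) (ψ ≫ i))
    (z : RR ⟶ (KK X).X 2) (hz : z ≫ (KK X).d 2 1 = 0) (w : RR ⟶ (KK X).X 3)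
    (hw : z ≫ (KM ψ).f 2 = (2 : ℝ) • z + w ≫ (KK X).d 3 2)
    (c : (KK X).X 2 ⟶ RR) (hc : (KK X).d 3 2 ≫ c = 0) (hzc : z ≫ c ≠ 0) :
    Module.End.HasEigenvalue
      (((singularHomologyFunctor (ModuleCat.{0} ℝ) 2).obj (ModuleCat.of ℝ ℝ)).map f).hom
      (2 : ℝ) := by
  have hn : (ComplexShape.down ℕ).next 2 = 1 := by simp
  have hp : (ComplexShape.down ℕ).prev 2 = 3 := by simp
  set cl : RR ⟶ (KK X).homology 2 := (KK X).liftCycles z 1 hn hz ≫ (KK X).homologyπ 2 with hcl
  have h1 : cl ≫ HomologicalComplex.homologyMap (KM ψ) 2 = (2 : ℝ) • cl := by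
    rw [hcl, Category.assoc, HomologicalComplex.homologyπ_naturality, ← Category.assoc,
      HomologicalComplex.liftCycles_comp_cyclesMap]
    have hb := (KK X).liftCycles_homologyπ_eq_zero_of_boundary (w ≫ (KK X).d 3 2) 1 hn w rfl
    have : (KK X).liftCycles (z ≫ (KM ψ).f 2) 1 hn
        (by rw [Category.assoc, (KM ψ).comm, reassoc_of% hz, zero_comp]) =
        (2 : ℝ) • (KK X).liftCycles z 1 hn hz + (KK X).liftCycles (w ≫ (KK X).d 3 2) 1 hn
          (by rw [Category.assoc, (KK X).d_comp_d, comp_zero]) := by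
      rw [← cancel_mono ((KK X).iCycles 2)]
      simp [hw]
    rw [this, Preadditive.add_comp, hb, add_zero, Linear.smul_comp]
  have h2 : cl ≠ 0 := by
    intro h0
    apply hzc
    have : cl ≫ (KK X).homologyι 2 ≫ (KK X).descOpcycles c 3 hp hc = z ≫ c := by
      rw [hcl, Category.assoc, HomologicalComplex.homology_π_ι_assoc,
        HomologicalComplex.p_descOpcycles, HomologicalComplex.liftCycles_i_assoc]
    rw [← this, h0, zero_comp]
  set v : RR ⟶ (KK Y).homology 2 := cl ≫ HomologicalComplex.homologyMap (KM i) 2 with hv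
  have h3 : v ≫ HomologicalComplex.homologyMap (KM f) 2 = (2 : ℝ) • v := by
    have hH := H.congr_homologyMap_singularChainComplexFunctor RR 2
    rw [Functor.map_comp, Functor.map_comp, HomologicalComplex.homologyMap_comp,
      HomologicalComplex.homologyMap_comp] at hH
    rw [hv, Category.assoc, hH, ← Category.assoc, h1, Linear.smul_comp]
  have h4 : v ≠ 0 := by
    intro h0
    apply h2
    have : v ≫ HomologicalComplex.homologyMap (KM p) 2 = cl := by
      rw [hv, Category.assoc, ← HomologicalComplex.homologyMap_comp, ← Functor.map_comp, hip,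
        CategoryTheory.Functor.map_id, HomologicalComplex.homologyMap_id, Category.comp_id]
    rw [← this, h0, zero_comp]
  have h5 : v.hom 1 ≠ 0 := by
    intro h0
    apply h4
    ext
    exact h0
  refine Module.End.hasEigenvalue_of_hasEigenvector (x := v.hom 1) ⟨?_, h5⟩
  rw [Module.End.mem_eigenspace_iff]
  have := congrArg (fun φ => φ.hom 1) h3
  exact this

end Crest.Agent.R123
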