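import Crest.Agent.R123.Sph

/-! A `C¹` map from the plane onto the sphere collapsing the outside of the disc to a pole. -/

set_option autoImplicit false

noncomputable section

namespace Crest.Agent.R123

open Set Filter Topology
open Real (smoothTransition)
open scoped Manifold ContDiff

/-- Horizontal cutoff. -/
def cutA (ρ : ℝ) : ℝ := 1 - smoothTransition (2 * ρ - 1)

/-- Vertical profile. -/
def cutB (ρ : ℝ) : ℝ :=
  -√(1 - ρ) * (1 - smoothTransition (4 * ρ - 1)) + smoothTransition (4 * ρ - 1)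

lemma cutA_one {ρ : ℝ} (h : ρ ≤ 1 / 2) : cutA ρ = 1 := by
  rw [cutA, smoothTransition.zero_of_nonpos (by linarith), sub_zero]

lemma cutA_zero {ρ : ℝ} (h : 1 ≤ ρ) : cutA ρ = 0 := by
  rw [cutA, smoothTransition.one_of_one_le (by linarith), sub_self]

lemma cutA_nonneg (ρ : ℝ) : 0 ≤ cutA ρ := sub_nonneg.2 (smoothTransition.le_one _)

lemma cutA_le_one (ρ : ℝ) : cutA ρ ≤ 1 := sub_le_self _ (smoothTransition.nonneg _)

lemma contDiff_cutA : ContDiff ℝ 1 cutA :=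
  contDiff_const.sub (smoothTransition.contDiff.comp (by fun_prop))

lemma cutB_one {ρ : ℝ} (h : 1 / 2 ≤ ρ) : cutB ρ = 1 := by
  rw [cutB, smoothTransition.one_of_one_le (by linarith)]
  simp

lemma cutB_small {ρ : ℝ} (h : ρ ≤ 1 / 4) : cutB ρ = -√(1 - ρ) := by
  rw [cutB, smoothTransition.zero_of_nonpos (by linarith)]
  simp

lemma cutB_ge (ρ : ℝ) : -√(1 - ρ) ≤ cutB ρ := by
  have h0 := smoothTransition.nonneg (4 * ρ - 1)
  have h1 := Real.sqrt_nonneg (1 - ρ)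
  unfold cutB
  nlinarith

lemma contDiff_cutB : ContDiff ℝ 1 cutB := by
  rw [contDiff_iff_contDiffAt]
  intro ρ
  rcases lt_or_ge ρ 1 with h | h
  · have c1 : ContDiffAt ℝ 1 (fun ρ : ℝ => smoothTransition (4 * ρ - 1)) ρ :=
      (smoothTransition.contDiff.comp (by fun_prop)).contDiffAt
    have c2 : ContDiffAt ℝ 1 (fun ρ : ℝ => √(1 - ρ)) ρ :=
      ContDiffAt.sqrt (by fun_prop) (by linarith)
    exact (c2.neg.mul (contDiffAt_const.sub c1)).add c1
  · refine (contDiffAt_const (c := (1 : ℝ))).congr_of_eventuallyEq ?_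
    filter_upwards [Ioi_mem_nhds (show 1 / 2 < ρ by linarith)] with x hx
    exact cutB_one (le_of_lt hx)

lemma cut_pos (ρ : ℝ) (h : 0 ≤ ρ) : 0 < cutA ρ ^ 2 * ρ + cutB ρ ^ 2 := by
  rcases le_total ρ (1 / 2) with h1 | h1
  · rw [cutA_one h1]
    rcases h.eq_or_lt with h2 | h2
    · rw [← h2, cutB_small (by norm_num)]
      norm_num
    · positivity
  · rw [cutB_one h1]
    positivity

theorem exists_collapse : ∃ J : ℂ → S2, ContMDiff 𝓘(ℝ, ℂ) (𝓡 2) 1 J ∧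
    (∀ v, ‖v‖ ≤ 1 / 2 → pc (J v) = v ∧ hc (J v) < 0) ∧ (∀ v, 1 ≤ ‖v‖ → J v = north) ∧
    (∀ v, ∃ c : ℝ, 0 ≤ c ∧ pc (J v) = c * v) ∧
    (∀ v, hc (J v) < 0 → ‖pc (J v)‖ ≤ 1 / 2 → ‖v‖ ≤ 1 / 2) ∧ J 0 = south := by
  let N : ℂ → ℝ := fun v => √(cutA (‖v‖ ^ 2) ^ 2 * ‖v‖ ^ 2 + cutB (‖v‖ ^ 2) ^ 2)
  have hN : ∀ v, 0 < N v := fun v => Real.sqrt_pos.2 (cut_pos _ (sq_nonneg _))
  have hN2 : ∀ v, N v ^ 2 = cutA (‖v‖ ^ 2) ^ 2 * ‖v‖ ^ 2 + cutB (‖v‖ ^ 2) ^ 2 :=
    fun v => Real.sq_sqrt (cut_pos _ (sq_nonneg _)).le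
  have cρ : ContDiff ℝ 1 (fun v : ℂ => ‖v‖ ^ 2) := contDiff_norm_sq ℝ
  have cA := contDiff_cutA.comp cρ
  have cB := contDiff_cutB.comp cρ
  have cN : ContDiff ℝ 1 N :=
    (((cA.pow 2).mul cρ).add (cB.pow 2)).sqrt fun v => (cut_pos _ (sq_nonneg _)).ne'
  let p : ℂ → ℂ := fun v => (cutA (‖v‖ ^ 2) / N v) • v
  let h : ℂ → ℝ := fun v => cutB (‖v‖ ^ 2) / N v
  have cp : ContDiff ℝ 1 p := (cA.div cN fun v => (hN v).ne').smul contDiff_id
  have ch : ContDiff ℝ 1 h := cB.div cN fun v => (hN v).ne'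
  have np : ∀ v, ‖p v‖ = cutA (‖v‖ ^ 2) / N v * ‖v‖ := fun v => by
    simp only [p]
    rw [norm_smul, Real.norm_of_nonneg (div_nonneg (cutA_nonneg _) (hN v).le)]
  have H : ∀ v, ‖p v‖ ^ 2 + h v ^ 2 = 1 := fun v => by
    have := (hN v).ne'
    rw [np]
    simp only [h]
    field_simp
    rw [hN2]
    ring
  have small : ∀ v : ℂ, ‖v‖ ≤ 1 / 2 → p v = v ∧ h v < 0 := by
    intro v hv
    have h1 : ‖v‖ ^ 2 ≤ 1 / 4 := by nlinarith [norm_nonneg v]
    have h2 : N v = 1 := by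
      simp only [N]
      rw [cutA_one (by linarith), cutB_small h1, neg_sq, Real.sq_sqrt (by linarith)]
      simp
    constructor
    · simp only [p]
      rw [h2, cutA_one (by linarith)]
      simp
    · simp only [h]
      rw [h2, cutB_small h1, div_one, neg_lt_zero]
      exact Real.sqrt_pos.2 (by linarith)
  refine ⟨fun v => mkS (p v) (h v) (H v), ?_, small, fun v hv => ?_, fun v => ?_,
    fun v h1 h2 => ?_, ?_⟩
  · exact (WithLp.contDiff_toLp.comp (cp.prodMk ch)).contMDiff.codRestrict_sphere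
      fun v => toLp_mem_sphere (H v)
  · have h1 : 1 ≤ ‖v‖ ^ 2 := by nlinarith
    have h2 : N v = 1 := by
      simp only [N]
      rw [cutA_zero h1, cutB_one (by linarith)]
      simp
    apply S2_ext
    · simp [p, cutA_zero h1]
    · simp [h, h2, cutB_one (show 1 / 2 ≤ ‖v‖ ^ 2 by linarith)]
  · exact ⟨_, div_nonneg (cutA_nonneg _) (hN v).le, Complex.real_smul⟩
  · rw [hc_mkS] at h1
    rw [pc_mkS, np] at h2
    have h3 : cutB (‖v‖ ^ 2) < 0 := by
      by_contra hcon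
      exact absurd (div_nonneg (not_lt.1 hcon) (hN v).le) (not_le.2 h1)
    have h4 : ‖v‖ ^ 2 ≤ 1 / 2 := by
      by_contra hcon
      rw [cutB_one (not_le.1 hcon).le] at h3
      linarith
    have h5 : N v ≤ 1 := by
      have e := hN2 v
      rw [cutA_one h4] at e
      have e1 := cutB_ge (‖v‖ ^ 2)
      have e2 := Real.sq_sqrt (show 0 ≤ 1 - ‖v‖ ^ 2 by linarith)
      have e3 : cutB (‖v‖ ^ 2) ^ 2 ≤ √(1 - ‖v‖ ^ 2) ^ 2 := by nlinarith
      nlinarith [hN v]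
    rw [cutA_one h4, div_mul_eq_mul_div, one_mul, div_le_iff₀ (hN v)] at h2
    linarith
  · obtain ⟨a, b⟩ := small 0 (by simp)
    have c := H 0
    rw [a] at c
    apply S2_ext
    · exact a
    · simp only [hc_mkS, hc_south]
      simp only [norm_zero] at c
      nlinarith

lemma contMDiff_pc : ContMDiff (𝓡 2) 𝓘(ℝ, ℂ) 1 pc :=
  (contDiff_fst.comp WithLp.contDiff_ofLp).comp_contMDiff (contMDiff_coe_sphere (E := V3) (n := 2))

end Crest.Agent.R123
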