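import Mathlib

/-! Return-time cocycles over an irrational rotation. -/

set_option autoImplicit false

noncomputable section

namespace Crest.Agent.R123

open Set Filter Topology
open Real (smoothTransition)

/-- The backward rotation. -/
def bk : Circle := AddCircle.toCircle ((√2 : ℝ) : AddCircle (1 : ℝ))

/-- The forward rotation. -/
def rot : Circle := bk⁻¹

lemma rot_bk : (rot : ℂ) * bk = 1 := by
  rw [← Circle.coe_mul, rot, inv_mul_cancel, Circle.coe_one]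

lemma dense_aux : DenseRange (· • ((√2 : ℝ) : AddCircle (1 : ℝ)) : ℤ → AddCircle (1 : ℝ)) := by
  rw [AddCircle.denseRange_zsmul_coe_iff, div_one]
  exact irrational_sqrt_two

lemma dense_bk : DenseRange (bk ^ · : ℕ → Circle) := by
  rw [← denseRange_zpow_iff_pow]
  have e := AddCircle.homeomorphCircle (T := 1) one_ne_zero
  have := (AddCircle.homeomorphCircle (T := 1) one_ne_zero).surjective.denseRange.comp dense_aux
    (AddCircle.homeomorphCircle (T := 1) one_ne_zero).continuous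
  convert this using 1
  funext n
  simp [AddCircle.homeomorphCircle_apply, AddCircle.toCircle_zsmul, bk]

lemma bk_pow_ne {j : ℕ} (hj : 0 < j) : (bk : ℂ) ^ j ≠ 1 := by
  intro h
  have h1 : bk ^ j = 1 := Circle.ext (by simpa using h)
  rw [bk, ← AddCircle.toCircle_nsmul, ← AddCircle.toCircle_zero (T := 1)] at h1
  have h2 := AddCircle.injective_toCircle one_ne_zero h1
  have h3 := AddCircle.denseRange_zsmul_iff.1 dense_aux
  exact addOrderOf_eq_zero_iff'.1 h3 j hj h2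

lemma bk_hit {ρ : ℝ} (hρ : 0 < ρ) : ∃ N : ℕ, ∀ φ : ℂ, ‖φ‖ = 1 →
    ∃ j < N, ‖φ * bk ^ (j + 1) - 1‖ < ρ := by
  let U : ℕ → Set Circle := fun j => {x | ‖(x : ℂ) * bk ^ (j + 1) - 1‖ < ρ}
  have hU : ∀ j, IsOpen (U j) := fun j => isOpen_lt (by fun_prop) continuous_const
  have hc : (univ : Set Circle) ⊆ ⋃ j, U j := by
    intro x _
    obtain ⟨j, hj⟩ := dense_bk.exists_dist_lt (x * bk)⁻¹ hρ
    refine mem_iUnion.2 ⟨j, ?_⟩
    change ‖(x : ℂ) * bk ^ (j + 1) - 1‖ < ρ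
    have e : (x : ℂ) * bk ^ (j + 1) - 1 =
        ((x * bk : Circle) : ℂ) * (((bk ^ j : Circle) : ℂ) - (((x * bk)⁻¹ : Circle) : ℂ)) := by
      rw [mul_sub, ← Circle.coe_mul (x * bk) (x * bk)⁻¹, mul_inv_cancel]
      push_cast
      ring
    rw [e, norm_mul, Circle.norm_coe, one_mul, ← dist_eq_norm, dist_comm]
    exact hj
  obtain ⟨t, ht⟩ := isCompact_univ.elim_finite_subcover U hU hc
  refine ⟨t.sup id + 1, fun φ hφ => ?_⟩
  have := ht (mem_univ (⟨φ, by simpa [Submonoid.unitSphere] using hφ⟩ : Circle))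
  simp only [mem_iUnion] at this
  obtain ⟨j, hj, h⟩ := this
  exact ⟨j, Nat.lt_succ_of_le (Finset.le_sup (f := id) hj), h⟩

/-- Smoothed time since the last visit to the support of `χ`. -/
def tim (χ : ℂ → ℝ) : ℕ → ℂ → ℝ
  | 0, _ => 0
  | k + 1, φ => (1 - χ (φ * bk)) * (1 + tim χ k (φ * bk))

lemma tim_nonneg {χ : ℂ → ℝ} (h : ∀ φ, χ φ ≤ 1) (k : ℕ) (φ : ℂ) : 0 ≤ tim χ k φ := by
  induction k generalizing φ with
  | zero => exact le_rfl
  | succ k ih => exact mul_nonneg (sub_nonneg.2 (h _)) (by linarith [ih (φ * bk)])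

lemma contDiff_tim {χ : ℂ → ℝ} (h : ContDiff ℝ 1 χ) (k : ℕ) : ContDiff ℝ 1 (tim χ k) := by
  induction k with
  | zero => exact contDiff_const
  | succ k ih =>
    have hm : ContDiff ℝ 1 (fun φ : ℂ => φ * bk) := contDiff_id.mul contDiff_const
    exact (contDiff_const.sub (h.comp hm)).mul (contDiff_const.add (ih.comp hm))

lemma tim_stable {χ : ℂ → ℝ} (k : ℕ) : ∀ φ : ℂ, (∃ j < k, χ (φ * bk ^ (j + 1)) = 1) →
    tim χ (k + 1) φ = tim χ k φ := by
  induction k with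
  | zero => rintro φ ⟨j, hj, -⟩; omega
  | succ k ih =>
    rintro φ ⟨j, hj, h⟩
    rcases j with _ | j
    · rw [zero_add, pow_one] at h
      simp [tim, h]
    · rw [tim, ih (φ * bk) ⟨j, by omega, by rw [← h]; congr 1; ring⟩, tim]

lemma tim_ge {χ : ℂ → ℝ} (h1 : ∀ φ, χ φ ≤ 1) (T : ℕ) : ∀ (k : ℕ) (φ : ℂ), T ≤ k →
    (∀ j < T, χ (φ * bk ^ (j + 1)) = 0) → (T : ℝ) ≤ tim χ k φ := by
  induction T with
  | zero => intro k φ _ _; simpa using tim_nonneg h1 k φ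
  | succ T ih =>
    intro k φ hk h
    obtain ⟨k, rfl⟩ : ∃ k', k = k' + 1 := ⟨k - 1, by omega⟩
    have h0 := h 0 (by omega)
    rw [zero_add, pow_one] at h0
    have := ih k (φ * bk) (by omega) fun j hj => by
      rw [← h (j + 1) (by omega)]; congr 1; ring
    rw [tim, h0]
    push_cast
    linarith

lemma exists_debt {ρ : ℝ} (hρ : 0 < ρ) (T : ℕ) : ∃ t Δ : ℂ → ℝ, ContDiff ℝ 1 t ∧ ContDiff ℝ 1 Δ ∧
    (∀ φ, 0 ≤ t φ ∧ 0 ≤ Δ φ ∧ Δ φ ≤ 1 + t φ) ∧
    (∀ φ, ‖φ‖ = 1 → t (φ * rot) = 1 + t φ - Δ φ) ∧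
    (∀ φ, ρ ≤ ‖φ - 1‖ → Δ φ = 0) ∧ T < Δ 1 := by
  obtain ⟨r, hr, hrρ, hrT⟩ : ∃ r : ℝ, 0 < r ∧ r ≤ ρ ∧ ∀ j < T, r ≤ ‖(bk : ℂ) ^ (j + 1) - 1‖ := by
    have : ∀ᶠ r in 𝓝[>] (0 : ℝ), r ≤ ρ ∧ ∀ j ∈ Finset.range T, r ≤ ‖(bk : ℂ) ^ (j + 1) - 1‖ := by
      refine Eventually.and (nhdsWithin_le_nhds (Iic_mem_nhds hρ)) ?_
      rw [eventually_all_finset]
      intro j _
      exact nhdsWithin_le_nhds (Iic_mem_nhds (norm_pos_iff.2 (sub_ne_zero.2
        (bk_pow_ne (Nat.succ_pos j)))))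
    obtain ⟨r, h1, h2⟩ := (this.and self_mem_nhdsWithin).exists
    exact ⟨r, h2, h1.1, fun j hj => h1.2 j (Finset.mem_range.2 hj)⟩
  let χ : ContDiffBump (1 : ℂ) := ⟨r / 2, r, by linarith, by linarith⟩
  obtain ⟨N, hN⟩ := bk_hit (half_pos hr)
  have h1 : ∀ φ, χ φ ≤ 1 := fun φ => χ.le_one
  have ht := tim_nonneg h1 (N + T)
  refine ⟨tim χ (N + T), fun φ => χ φ * (1 + tim χ (N + T) φ), contDiff_tim χ.contDiff _,
    χ.contDiff.mul (contDiff_const.add (contDiff_tim χ.contDiff _)),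
    fun φ => ⟨ht φ, mul_nonneg χ.nonneg (by linarith [ht φ]), ?_⟩, fun φ hφ => ?_,
    fun φ hφ => ?_, ?_⟩
  · nlinarith [ht φ, h1 φ]
  · obtain ⟨j, hj, h⟩ := hN (φ * rot) (by simp [hφ])
    rw [← tim_stable (N + T) (φ * rot) ⟨j, by omega, χ.one_of_mem_closedBall
      (by rw [mem_closedBall_iff_norm]; exact h.le)⟩, tim, mul_assoc, rot_bk, mul_one]
    ring
  · simp only
    rw [χ.zero_of_le_dist (by rw [dist_eq_norm]; exact hrρ.trans hφ), zero_mul]
  · have := tim_ge h1 T (N + T) 1 (by omega) fun j hj =>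
      χ.zero_of_le_dist (by rw [dist_eq_norm, one_mul]; exact hrT j hj)
    simp only
    rw [χ.one_of_mem_closedBall (Metric.mem_closedBall_self (by positivity))]
    linarith

lemma tsum_eq_range {a : ℕ → ℝ} {N : ℕ} (h : ∀ m, N ≤ m → a m = 0) :
    ∑' m, a m = ∑ m ∈ Finset.range N, a m :=
  tsum_eq_sum fun m hm => h m (by simpa using hm)

lemma contDiff_stair {X : Type*} [NormedAddCommGroup X] [NormedSpace ℝ X] {s : X → ℝ}
    (hs : Continuous s) {a : ℕ → X → ℝ} (ha : ∀ m, ContDiff ℝ 1 (a m))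
    (h0 : ∀ (m : ℕ) x, s x ≤ m → a m x = 0) : ContDiff ℝ 1 (fun x => ∑' m, a m x) := by
  rw [contDiff_iff_contDiffAt]
  intro x
  have h1 : ContDiffAt ℝ 1 (fun y => ∑ m ∈ Finset.range (⌈s x⌉₊ + 1), a m y) x :=
    (ContDiff.sum fun m _ => ha m).contDiffAt
  refine h1.congr_of_eventuallyEq ?_
  have : s x < (⌈s x⌉₊ + 1 : ℕ) := by push_cast; linarith [Nat.le_ceil (s x)]
  filter_upwards [hs.continuousAt.eventually (Iio_mem_nhds this)] with y hy
  exact tsum_eq_range fun m hm => h0 m y ((le_of_lt hy).trans (by exact_mod_cast hm))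

/-- The parameter functions of the construction. -/
structure Params (T a X V : ℂ × ℝ → ℝ) : Prop where
  cT : ContDiff ℝ 1 T
  ca : ContDiff ℝ 1 a
  cX : ContDiff ℝ 1 X
  cV : ContDiff ℝ 1 V
  T0 : ∀ q, 0 ≤ T q
  a0 : ∀ q, 0 ≤ a q
  a1 : ∀ q, a q ≤ 1 + T q
  X0 : ∀ q, 0 ≤ X q
  rotT : ∀ φ s, ‖φ‖ = 1 → T (φ * rot, s) = a (φ, s)
  rotV : ∀ φ s, ‖φ‖ = 1 → V (φ * rot, s) - V (φ, s) + X (φ, s) ∈ Icc (0 : ℝ) 1
  neg : ∀ φ s, s ≤ 0 → T (φ, s) = 0 ∧ a (φ, s) = 0 ∧ X (φ, s) = 0 ∧ V (φ, s) = 0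
  away : ∀ φ₀ : ℂ, φ₀ ≠ 1 → ∃ (n : ℕ) (X₀ : ℂ → ℝ), ContDiff ℝ 1 X₀ ∧
    ∀ᶠ φ in 𝓝 φ₀, ∀ s : ℝ, n ≤ s → a (φ, s) = 1 + T (φ, s) ∧ X (φ, s) = X₀ φ
  near : ∀ n : ℕ, ∀ᶠ φ in 𝓝 (1 : ℂ), ∀ s : ℝ, n ≤ s → n ≤ X (φ, s)

/-- Step functions. -/
def stp (m : ℕ) (s : ℝ) : ℝ := smoothTransition (s - m)

/-- Partition of unity weights. -/
def wt (m : ℕ) (s : ℝ) : ℝ := stp m s - stp (m + 1) s

lemma stp_zero {m : ℕ} {s : ℝ} (h : s ≤ m) : stp m s = 0 :=
  smoothTransition.zero_of_nonpos (by linarith)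

lemma stp_one {m : ℕ} {s : ℝ} (h : m + 1 ≤ s) : stp m s = 1 :=
  smoothTransition.one_of_one_le (by linarith)

lemma stp_nonneg (m : ℕ) (s : ℝ) : 0 ≤ stp m s := smoothTransition.nonneg _

lemma stp_le_one (m : ℕ) (s : ℝ) : stp m s ≤ 1 := smoothTransition.le_one _

lemma wt_zero {m : ℕ} {s : ℝ} (h : s ≤ m) : wt m s = 0 := by
  rw [wt, stp_zero h, stp_zero (by push_cast; linarith), sub_self]

lemma wt_zero' {m : ℕ} {s : ℝ} (h : m + 2 ≤ s) : wt m s = 0 := by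
  rw [wt, stp_one (by linarith), stp_one (by push_cast; linarith), sub_self]

lemma wt_nonneg (m : ℕ) (s : ℝ) : 0 ≤ wt m s :=
  sub_nonneg.2 (smoothTransition.monotone (by push_cast; linarith))

lemma sum_wt {N : ℕ} {s : ℝ} (h : s ≤ N) : ∑ m ∈ Finset.range N, wt m s = stp 0 s := by
  unfold wt
  rw [Finset.sum_range_sub' (fun m => stp m s), stp_zero h, sub_zero]

lemma contDiff_stp (m : ℕ) : ContDiff ℝ 1 (fun q : ℂ × ℝ => stp m q.2) :=
  smoothTransition.contDiff.comp (contDiff_snd.sub contDiff_const)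

lemma contDiff_wt (m : ℕ) : ContDiff ℝ 1 (fun q : ℂ × ℝ => wt m q.2) :=
  (contDiff_stp m).sub (contDiff_stp (m + 1))

theorem exists_params : ∃ T a X V : ℂ × ℝ → ℝ, Params T a X V := by
  choose t Δ ct cΔ h1 h2 h3 h4 using
    fun m : ℕ => exists_debt (ρ := 1 / ((m : ℝ) + 1)) (by positivity) (2 ^ (m + 1))
  let l : ℕ → ℝ := fun m => (1 / 2) ^ (m + 1)
  have hl : ∀ m, 0 ≤ l m := fun m => by positivity
  have hw : ∀ (s : ℝ) (c : ℕ → ℝ), ∑' m, wt m s * c m =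
      ∑ m ∈ Finset.range ⌈s⌉₊, wt m s * c m := fun s c =>
    tsum_eq_range fun m hm => by rw [wt_zero (Nat.ceil_le.1 hm), zero_mul]
  have hs : ∀ (s : ℝ) (c : ℕ → ℝ), ∑' m, stp m s * c m =
      ∑ m ∈ Finset.range ⌈s⌉₊, stp m s * c m := fun s c =>
    tsum_eq_range fun m hm => by rw [stp_zero (Nat.ceil_le.1 hm), zero_mul]
  refine ⟨fun q => ∑' m, wt m q.2 * t m q.1, fun q => ∑' m, wt m q.2 * (1 + t m q.1 - Δ m q.1),
    fun q => ∑' m, stp m q.2 * (l m * Δ m q.1), fun q => ∑' m, stp m q.2 * (l m * t m q.1),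
    ?_, ?_, ?_, ?_, ?_, ?_, ?_, ?_, ?_, ?_, ?_, ?_, ?_⟩
  · exact contDiff_stair continuous_snd (fun m => (contDiff_wt m).mul ((ct m).comp contDiff_fst))
      fun m q hq => by rw [wt_zero hq, zero_mul]
  · exact contDiff_stair continuous_snd (fun m => (contDiff_wt m).mul
      ((contDiff_const.add ((ct m).comp contDiff_fst)).sub ((cΔ m).comp contDiff_fst)))
      fun m q hq => by rw [wt_zero hq, zero_mul]
  · exact contDiff_stair continuous_snd (fun m => (contDiff_stp m).mul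
      (contDiff_const.mul ((cΔ m).comp contDiff_fst))) fun m q hq => by rw [stp_zero hq, zero_mul]
  · exact contDiff_stair continuous_snd (fun m => (contDiff_stp m).mul
      (contDiff_const.mul ((ct m).comp contDiff_fst))) fun m q hq => by rw [stp_zero hq, zero_mul]
  · exact fun q => tsum_nonneg fun m => mul_nonneg (wt_nonneg _ _) (h1 m _).1
  · exact fun q => tsum_nonneg fun m => mul_nonneg (wt_nonneg _ _) (by linarith [(h1 m q.1).2.2])
  · intro q
    simp only [hw]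
    have := sum_wt (Nat.le_ceil q.2)
    have h5 := stp_le_one 0 q.2
    calc _ ≤ ∑ m ∈ Finset.range ⌈q.2⌉₊, (wt m q.2 + wt m q.2 * t m q.1) :=
          Finset.sum_le_sum fun m _ => by nlinarith [wt_nonneg m q.2, (h1 m q.1).2.1]
      _ ≤ _ := by rw [Finset.sum_add_distrib]; linarith
  · exact fun q => tsum_nonneg fun m => mul_nonneg (stp_nonneg _ _) (mul_nonneg (hl m) (h1 m _).2.1)
  · intro φ s hφ
    simp only [h2 _ φ hφ]
  · intro φ s hφ
    simp only [hs, h2 _ φ hφ]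
    rw [← Finset.sum_sub_distrib, ← Finset.sum_add_distrib]
    have e : ∀ m ∈ Finset.range ⌈s⌉₊, stp m s * (l m * (1 + t m φ - Δ m φ)) - stp m s * (l m * t m φ)
        + stp m s * (l m * Δ m φ) = stp m s * l m := fun m _ => by ring
    rw [Finset.sum_congr rfl e]
    refine ⟨Finset.sum_nonneg fun m _ => mul_nonneg (stp_nonneg _ _) (hl m), ?_⟩
    calc _ ≤ ∑ m ∈ Finset.range ⌈s⌉₊, (1 / 2 : ℝ) ^ m * (1 / 2) :=
          Finset.sum_le_sum fun m _ => by
            rw [← pow_succ]; exact mul_le_of_le_one_left (hl m) (stp_le_one _ _)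
      _ ≤ 1 := by rw [← Finset.sum_mul]; linarith [sum_geometric_two_le ⌈s⌉₊]
  · intro φ s h
    simp [hs, hw, Nat.ceil_eq_zero.2 h]
  · intro φ₀ hφ₀
    obtain ⟨n, hn⟩ := exists_nat_one_div_lt (norm_pos_iff.2 (sub_ne_zero.2 hφ₀))
    refine ⟨n + 1, fun φ => ∑ m ∈ Finset.range n, l m * Δ m φ,
      ContDiff.sum fun m _ => contDiff_const.mul (cΔ m), ?_⟩
    have hc : Continuous fun φ : ℂ => ‖φ - 1‖ := by fun_prop
    filter_upwards [hc.continuousAt.eventually (Ioi_mem_nhds hn)] with φ hφ s hs'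
    push_cast at hs'
    have hz : ∀ m, n ≤ m → Δ m φ = 0 := fun m hm => h3 m φ (le_trans (by
      have : (n : ℝ) ≤ m := by exact_mod_cast hm
      gcongr) (le_of_lt hφ))
    constructor
    · simp only [hw]
      have := sum_wt (Nat.le_ceil s)
      rw [stp_one (by have := Nat.cast_nonneg (α := ℝ) n; push_cast; linarith)] at this
      conv_rhs => rw [← this, ← Finset.sum_add_distrib]
      refine Finset.sum_congr rfl fun m _ => ?_
      rcases lt_or_ge m n with hm | hm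
      · have : (m : ℝ) + 1 ≤ n := by exact_mod_cast hm
        rw [wt_zero' (by linarith)]
        simp
      · rw [hz m hm]
        ring
    · rw [tsum_eq_range (N := n) fun m hm => by rw [hz m hm]; simp]
      refine Finset.sum_congr rfl fun m hm => ?_
      have : (m : ℝ) + 1 ≤ n := by exact_mod_cast Finset.mem_range.1 hm
      rw [stp_one (by linarith), one_mul]
  · intro n
    have : ∀ᶠ φ in 𝓝 (1 : ℂ), ∀ m ∈ Finset.range n, ((2 ^ (m + 1) : ℕ) : ℝ) < Δ m φ := by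
      rw [eventually_all_finset]
      exact fun m _ => (cΔ m).continuous.continuousAt.eventually (Ioi_mem_nhds (h4 m))
    filter_upwards [this] with φ hφ s hs'
    simp only [hs]
    calc (n : ℝ) = ∑ m ∈ Finset.range n, 1 := by simp
      _ ≤ ∑ m ∈ Finset.range n, stp m s * (l m * Δ m φ) := by
          refine Finset.sum_le_sum fun m hm => ?_
          have h5 : (m : ℝ) + 1 ≤ n := by exact_mod_cast Finset.mem_range.1 hm
          have h6 := hφ m hm
          rw [stp_one (by linarith), one_mul]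
          have h7 : l m * ((2 ^ (m + 1) : ℕ) : ℝ) = 1 := by
            simp only [l]; push_cast; rw [← mul_pow]; norm_num
          nlinarith [hl m]
      _ ≤ _ := Finset.sum_le_sum_of_subset_of_nonneg
          (Finset.range_mono (Nat.cast_le.1 (hs'.trans (Nat.le_ceil s))))
          fun m _ _ => mul_nonneg (stp_nonneg _ _) (mul_nonneg (hl m) (h1 m _).2.1)

end Crest.Agent.R123
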