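import Mathlib

/-! A counting criterion for zero topological entropy. -/

set_option autoImplicit false

noncomputable section

namespace Crest.Agent.R123

open Set Filter Topology

lemma exists_patch {X : Type*} [MetricSpace X] {ε : ℝ} (N : Finset X)
    (hN : ∀ x, ∃ y ∈ N, dist x y < ε) (n B : ℕ) : ∀ M : Finset (ℕ → X),
    ∃ M' : Finset (ℕ → X), M'.card ≤ M.card * (1 + n * N.card) ^ B ∧ ∀ u : ℕ → X,
      (∃ m ∈ M, ∃ K : Finset ℕ, K.card ≤ B ∧ ∀ k < n, k ∉ K → dist (u k) (m k) < ε) →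
        ∃ m ∈ M', ∀ k < n, dist (u k) (m k) < ε := by
  classical
  induction B with
  | zero =>
    intro M
    refine ⟨M, by simp, fun u ⟨m, hm, K, hK, h⟩ => ⟨m, hm, fun k hk => h k hk ?_⟩⟩
    rw [Finset.card_eq_zero.1 (Nat.le_zero.1 hK)]
    simp
  | succ B ih =>
    intro M
    obtain ⟨M', h1, h2⟩ := ih (M ∪ (M ×ˢ Finset.range n ×ˢ N).image
      fun q => Function.update q.1 q.2.1 q.2.2)
    refine ⟨M', h1.trans ?_, fun u ⟨m, hm, K, hK, h⟩ => h2 u ?_⟩
    · rw [pow_succ', ← mul_assoc]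
      refine Nat.mul_le_mul_right _ ((Finset.card_union_le _ _).trans ?_)
      rw [mul_add, mul_one]
      refine Nat.add_le_add_left (Finset.card_image_le.trans ?_) _
      simp
    · by_cases hk : ∃ k ∈ K, k < n
      · obtain ⟨k, hkK, hkn⟩ := hk
        obtain ⟨y, hy, hd⟩ := hN (u k)
        refine ⟨Function.update m k y, Finset.mem_union_right _ (Finset.mem_image.2
          ⟨(m, k, y), by simp [hm, hkn, hy], rfl⟩), K.erase k, ?_, fun j hj hjK => ?_⟩
        · rw [Finset.card_erase_of_mem hkK]; omega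
        · by_cases e : j = k
          · subst e; simpa using hd
          · rw [Function.update_of_ne e]
            exact h j hj fun hh => hjK (Finset.mem_erase.2 ⟨e, hh⟩)
      · exact ⟨m, Finset.mem_union_left _ hm, ∅, by simp,
          fun j hj _ => h j hj fun hh => hk ⟨j, hh, hj⟩⟩

lemma expGrowthSup_poly {u : ℕ → ENNReal} (C d : ℕ) (h : ∀ n, u n ≤ (C * (n + 1) ^ d : ℕ)) :
    ExpGrowth.expGrowthSup u ≤ 0 := by
  rw [ExpGrowth.expGrowthSup_le_iff]
  intro b hb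
  obtain ⟨β, h0, h1⟩ := EReal.lt_iff_exists_real_btwn.1 hb
  have hβ : 0 < β := by exact_mod_cast h0
  have h2 := (isLittleO_pow_exp_pos_mul_atTop d hβ).bound
    (c := ((C + 1) * Real.exp β)⁻¹) (by positivity)
  have h3 : Tendsto (fun n : ℕ => (n : ℝ) + 1) atTop atTop :=
    tendsto_atTop_add_const_right _ _ tendsto_natCast_atTop_atTop
  filter_upwards [h3.eventually h2] with n hn
  refine (h n).trans (le_trans ?_ (EReal.exp_monotone
    (mul_le_mul_of_nonneg_right h1.le (Nat.cast_nonneg' n))))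
  rw [show ((n : ℕ) : EReal) = ((n : ℝ) : EReal) from rfl, ← EReal.coe_mul, EReal.exp_coe,
    ← ENNReal.ofReal_natCast]
  refine ENNReal.ofReal_le_ofReal ?_
  rw [Real.norm_of_nonneg (by positivity), Real.norm_of_nonneg (by positivity), mul_add, mul_one,
    Real.exp_add, ← div_eq_inv_mul, mul_div_mul_right _ _ (Real.exp_ne_zero β),
    le_div_iff₀ (by positivity)] at hn
  push_cast
  have : (0 : ℝ) ≤ ((n : ℝ) + 1) ^ d := by positivity
  nlinarith

theorem coverEntropy_eq_zero {X : Type*} [MetricSpace X] [CompactSpace X] [Nonempty X]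
    (f : X → X) (h : ∀ ε : ℝ, 0 < ε → ∃ (O : Finset (ℕ → X)) (B : ℕ), ∀ (n : ℕ) (x : X),
      ∃ o₁ ∈ O, ∃ o₂ ∈ O, ∃ τ ≤ n, ∃ K : Finset ℕ, K.card ≤ B ∧
        ∀ k < n, k ∉ K → dist (f^[k] x) (if k < τ then o₁ k else o₂ k) < ε) :
    Dynamics.coverEntropy f univ = 0 := by
  classical
  refine le_antisymm ?_ (Dynamics.coverEntropy_nonneg f univ_nonempty)
  rw [Dynamics.coverEntropy_eq_iSup_basis Metric.uniformity_basis_dist]
  refine iSup₂_le fun ε hε => ?_
  obtain ⟨O, B, hO⟩ := h (ε / 2) (half_pos hε)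
  obtain ⟨t, -, ht, hc⟩ := finite_cover_balls_of_compact (isCompact_univ (X := X)) (half_pos hε)
  have hN : ∀ x, ∃ y ∈ ht.toFinset, dist x y < ε / 2 := fun x => by
    simpa using hc (mem_univ x)
  refine expGrowthSup_poly (O.card * O.card * (1 + ht.toFinset.card) ^ B) (B + 1) fun n => ?_
  obtain ⟨M', h1, h2⟩ := exists_patch _ hN n B ((O ×ˢ O ×ˢ Finset.range (n + 1)).image
    fun q k => if k < q.2.2 then q.1 k else q.2.1 k)
  let pt : (ℕ → X) → X := fun m =>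
    if hm : ∃ x, ∀ k < n, dist (f^[k] x) (m k) < ε / 2 then hm.choose else Classical.arbitrary X
  have hcov : Dynamics.IsDynCoverOf f univ {p : X × X | dist p.1 p.2 < ε} n
      ((M'.image pt : Finset X) : Set X) := by
    intro x _
    obtain ⟨o₁, ho₁, o₂, ho₂, τ, hτ, K, hK, hx⟩ := hO n x
    obtain ⟨m, hm, hmx⟩ := h2 (fun k => f^[k] x) ⟨_, Finset.mem_image.2
      ⟨(o₁, o₂, τ), by simp [ho₁, ho₂, hτ], rfl⟩, K, hK, hx⟩
    refine ⟨pt m, Finset.mem_coe.2 (Finset.mem_image_of_mem _ hm), ?_⟩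
    rw [Dynamics.mem_dynEntourage]
    intro k hk
    have hex : ∃ x, ∀ k < n, dist (f^[k] x) (m k) < ε / 2 := ⟨x, hmx⟩
    have e : pt m = hex.choose := dif_pos hex
    have h3 := hex.choose_spec k hk
    rw [← e] at h3
    change dist (f^[k] x) (f^[k] (pt m)) < ε
    linarith [dist_triangle_right (f^[k] x) (f^[k] (pt m)) (m k), hmx k hk]
  have h4 : (M'.image pt).card ≤ O.card * O.card * (1 + ht.toFinset.card) ^ B * (n + 1) ^ (B + 1) := by
    refine Finset.card_image_le.trans (h1.trans ?_)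
    have e1 : ((O ×ˢ O ×ˢ Finset.range (n + 1)).image
        fun q k => if k < q.2.2 then q.1 k else q.2.1 k).card ≤ O.card * O.card * (n + 1) :=
      Finset.card_image_le.trans (by simp [mul_assoc])
    have e2 : (1 + n * ht.toFinset.card) ^ B ≤ ((1 + ht.toFinset.card) * (n + 1)) ^ B :=
      Nat.pow_le_pow_left (by nlinarith) B
    refine (Nat.mul_le_mul e1 e2).trans (le_of_eq ?_)
    rw [mul_pow]
    ring
  have h5 := hcov.coverMincard_le_card
  calc _ ≤ (((M'.image pt).card : ℕ∞) : ENNReal) := ENat.toENNReal_le.2 h5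
    _ ≤ _ := by simpa only [ENat.toENNReal_coe, Nat.cast_le] using h4

lemma exists_interval (S : Set ℕ) (d : ℕ) (h : ∀ i ∈ S, ∀ j ∈ S, i ≤ j → j < i + d) :
    ∃ K : Finset ℕ, K.card ≤ d ∧ ∀ k ∈ S, k ∈ K := by
  classical
  by_cases hS : ∃ i, i ∈ S
  · refine ⟨Finset.Ico (Nat.find hS) (Nat.find hS + d), by simp, fun k hk => ?_⟩
    have := Nat.find_min' hS hk
    exact Finset.mem_Ico.2 ⟨this, h _ (Nat.find_spec hS) k hk this⟩
  · exact ⟨∅, by simp, fun k hk => (hS ⟨k, hk⟩).elim⟩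

lemma exists_exceptions {E : Type*} [NormedAddCommGroup E] (C : E → Prop) {m : ℝ} (M : ℝ)
    (hm : 0 < m) : ∃ B : ℕ, ∀ (y : ℕ → E) (τ : ℕ),
      (∀ k, k + 1 < τ → (¬ C (y (k + 1)) → ‖y (k + 1)‖ ≤ ‖y k‖ / 2) ∧
        (C (y k) → C (y (k + 1)) ∧ 2 * ‖y k‖ ≤ ‖y (k + 1)‖)) →
      ∃ K : Finset ℕ, K.card ≤ B ∧ ∀ k < τ, m ≤ ‖y k‖ → ‖y k‖ ≤ M → k ∈ K := by
  classical
  obtain ⟨d, hd⟩ := pow_unbounded_of_one_lt (M / m) (one_lt_two (α := ℝ))
  rw [div_lt_iff₀ hm] at hd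
  refine ⟨d + d, fun y τ h => ?_⟩
  have c1 : ∀ i e, i + e < τ → C (y i) → C (y (i + e)) ∧ 2 ^ e * ‖y i‖ ≤ ‖y (i + e)‖ := by
    intro i e
    induction e with
    | zero => intro _ hi; simpa using hi
    | succ e ih =>
      intro he hi
      obtain ⟨a, b⟩ := ih (by omega) hi
      obtain ⟨a', b'⟩ := (h (i + e) he).2 a
      refine ⟨a', ?_⟩
      rw [pow_succ, ← add_assoc]
      linarith
  have c2 : ∀ i e, i + e < τ → ¬ C (y (i + e)) → 2 ^ e * ‖y (i + e)‖ ≤ ‖y i‖ := by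
    intro i e
    induction e with
    | zero => intro _ _; simp
    | succ e ih =>
      intro he hi
      have a := ih (by omega) fun hc => hi ((h (i + e) he).2 hc).1
      have b := (h (i + e) he).1 hi
      rw [pow_succ, ← add_assoc]
      have : (0 : ℝ) < 2 ^ e := by positivity
      nlinarith
  have c3 : ∀ e : ℕ, 2 ^ e * m ≤ M → e < d := by
    intro e he
    have : (2 : ℝ) ^ e < 2 ^ d := lt_of_mul_lt_mul_right (he.trans_lt hd) hm.le
    exact (pow_lt_pow_iff_right₀ one_lt_two).1 this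
  obtain ⟨K1, k1, H1⟩ := exists_interval {k | k < τ ∧ m ≤ ‖y k‖ ∧ ‖y k‖ ≤ M ∧ C (y k)} d (by
    rintro i ⟨-, i1, -, i3⟩ j ⟨j0, -, j2, -⟩ hij
    obtain ⟨e, rfl⟩ := Nat.exists_eq_add_of_le hij
    have := (c1 i e j0 i3).2
    have h2 : (0 : ℝ) < 2 ^ e := by positivity
    have := c3 e (by nlinarith)
    omega)
  obtain ⟨K2, k2, H2⟩ := exists_interval {k | k < τ ∧ m ≤ ‖y k‖ ∧ ‖y k‖ ≤ M ∧ ¬ C (y k)} d (by
    rintro i ⟨-, -, i2, -⟩ j ⟨j0, j1, -, j3⟩ hij
    obtain ⟨e, rfl⟩ := Nat.exists_eq_add_of_le hij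
    have := c2 i e j0 j3
    have h2 : (0 : ℝ) < 2 ^ e := by positivity
    have := c3 e (by nlinarith)
    omega)
  refine ⟨K1 ∪ K2, (Finset.card_union_le _ _).trans (by omega), fun k hk a b => ?_⟩
  by_cases hc : C (y k)
  · exact Finset.mem_union_left _ (H1 k ⟨hk, a, b, hc⟩)
  · exact Finset.mem_union_right _ (H2 k ⟨hk, a, b, hc⟩)

end Crest.Agent.R123
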