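import Mathlib

/-! The unit two-sphere in `ℂ × ℝ`. -/

set_option autoImplicit false

noncomputable section

namespace Crest.Agent.R123

/-- The ambient Euclidean space `ℂ × ℝ`. -/
abbrev V3 : Type := WithLp 2 (ℂ × ℝ)

instance finrankV3 : Fact (Module.finrank ℝ V3 = 2 + 1) := ⟨by
  rw [(WithLp.linearEquiv 2 ℝ (ℂ × ℝ)).finrank_eq]
  simp [Module.finrank_prod]⟩

/-- The unit sphere. -/
abbrev S2 : Type := Metric.sphere (0 : V3) 1

/-- Horizontal coordinate. -/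
def pc (x : S2) : ℂ := x.1.fst

/-- Height. -/
def hc (x : S2) : ℝ := x.1.snd

lemma pc_hc (x : S2) : ‖pc x‖ ^ 2 + hc x ^ 2 = 1 := by
  have h : ‖x.1‖ = 1 := by simp
  have h2 := WithLp.prod_norm_sq_eq_of_L2 x.1
  rw [h] at h2
  simp only [pc, hc]
  rw [Real.norm_eq_abs, sq_abs] at h2
  linarith

lemma toLp_mem_sphere {p : ℂ} {h : ℝ} (H : ‖p‖ ^ 2 + h ^ 2 = 1) :
    (WithLp.toLp 2 (p, h) : V3) ∈ Metric.sphere (0 : V3) 1 := by
  have h2 := WithLp.prod_norm_sq_eq_of_L2 (WithLp.toLp 2 (p, h) : V3)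
  simp only [WithLp.toLp_fst, WithLp.toLp_snd, Real.norm_eq_abs, sq_abs] at h2
  rw [H] at h2
  rw [mem_sphere_zero_iff_norm]
  have := norm_nonneg (WithLp.toLp 2 (p, h) : V3)
  nlinarith

/-- A point of the sphere from its coordinates. -/
def mkS (p : ℂ) (h : ℝ) (H : ‖p‖ ^ 2 + h ^ 2 = 1) : S2 := ⟨WithLp.toLp 2 (p, h), toLp_mem_sphere H⟩

@[simp] lemma pc_mkS (p : ℂ) (h : ℝ) (H : ‖p‖ ^ 2 + h ^ 2 = 1) : pc (mkS p h H) = p := rfl

@[simp] lemma hc_mkS (p : ℂ) (h : ℝ) (H : ‖p‖ ^ 2 + h ^ 2 = 1) : hc (mkS p h H) = h := rfl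

lemma S2_ext {x y : S2} (h1 : pc x = pc y) (h2 : hc x = hc y) : x = y := by
  apply Subtype.ext
  apply (WithLp.equiv 2 (ℂ × ℝ)).injective
  exact Prod.ext h1 h2

@[fun_prop] lemma continuous_pc : Continuous pc :=
  (WithLp.continuous_fst 2 ℂ ℝ).comp continuous_subtype_val

@[fun_prop] lemma continuous_hc : Continuous hc :=
  (WithLp.continuous_snd 2 ℂ ℝ).comp continuous_subtype_val

lemma continuous_mkS {X : Type*} [TopologicalSpace X] {p : X → ℂ} {h : X → ℝ}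
    (hp : Continuous p) (hh : Continuous h) (H : ∀ x, ‖p x‖ ^ 2 + h x ^ 2 = 1) :
    Continuous fun x => mkS (p x) (h x) (H x) :=
  Continuous.subtype_mk ((WithLp.prod_continuous_toLp 2 ℂ ℝ).comp (hp.prodMk hh)) _

lemma norm_pc_sub_le (x y : S2) : ‖pc x - pc y‖ ≤ dist x y := by
  rw [← dist_eq_norm]
  exact WithLp.dist_fst_le x.1 y.1

lemma abs_hc_sub_le (x y : S2) : |hc x - hc y| ≤ dist x y := by
  rw [← Real.dist_eq]
  exact WithLp.dist_snd_le x.1 y.1

lemma norm_pc_le (x : S2) : ‖pc x‖ ≤ 1 := by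
  have := pc_hc x
  have := norm_nonneg (pc x)
  nlinarith [sq_nonneg (hc x)]

/-- North pole. -/
def north : S2 := mkS 0 1 (by simp)

/-- South pole. -/
def south : S2 := mkS 0 (-1) (by simp)

@[simp] lemma pc_north : pc north = 0 := rfl
@[simp] lemma hc_north : hc north = 1 := rfl
@[simp] lemma pc_south : pc south = 0 := rfl
@[simp] lemma hc_south : hc south = -1 := rfl

/-- Two maps to the sphere that are never antipodal are homotopic. -/
lemma homotopic_of_ne_neg {X : Type*} [TopologicalSpace X] (f g : C(X, S2))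
    (h : ∀ x, ¬ (pc (f x) = - pc (g x) ∧ hc (f x) = - hc (g x))) : f.Homotopic g := by
  let a : unitInterval × X → V3 := fun q => (1 - (q.1 : ℝ)) • (f q.2).1 + (q.1 : ℝ) • (g q.2).1
  have ha : Continuous a := by fun_prop
  have hne : ∀ q, a q ≠ 0 := by
    rintro ⟨t, x⟩ h0
    have hf : ‖(f x).1‖ = 1 := by simp
    have hg : ‖(g x).1‖ = 1 := by simp
    have h1 : (1 - (t : ℝ)) • (f x).1 = -((t : ℝ) • (g x).1) := eq_neg_of_add_eq_zero_left h0
    have h2 := congrArg norm h1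
    rw [norm_neg, norm_smul, norm_smul, hf, hg, Real.norm_eq_abs, Real.norm_eq_abs,
      abs_of_nonneg (by linarith [t.2.2]), abs_of_nonneg t.2.1] at h2
    have ht : (t : ℝ) = 1 / 2 := by linarith
    rw [ht, show (1 - 1 / 2 : ℝ) = 1 / 2 by norm_num, ← smul_neg] at h1
    have h3 : (f x).1 = -(g x).1 := smul_right_injective V3 (by norm_num : (1 / 2 : ℝ) ≠ 0) h1
    apply h x
    constructor
    · simp only [pc]; rw [h3]; rfl
    · simp only [hc]; rw [h3]; rfl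
  have hmem : ∀ q, (‖a q‖⁻¹ • a q) ∈ Metric.sphere (0 : V3) 1 := by
    intro q
    rw [mem_sphere_zero_iff_norm, norm_smul, norm_inv, norm_norm,
      inv_mul_cancel₀ (norm_ne_zero_iff.2 (hne q))]
  refine ⟨⟨⟨fun q => ⟨_, hmem q⟩, ?_⟩, ?_, ?_⟩⟩
  · exact Continuous.subtype_mk
      ((ha.norm.inv₀ fun q => norm_ne_zero_iff.2 (hne q)).smul ha) _
  · intro x
    apply Subtype.ext
    have hf : ‖(f x).1‖ = 1 := by simp
    simp [a, hf]
  · intro x
    apply Subtype.ext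
    have hg : ‖(g x).1‖ = 1 := by simp
    simp [a, hg]

end Crest.Agent.R123
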