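import Crest.Agent.R123.Chains
import Crest.Agent.R123.Sph

/-! A real singular 2-cocycle on the two-sphere (Euler class of the tautological line bundle). -/

set_option autoImplicit false

noncomputable section

namespace Crest.Agent.R123

open Complex ComplexConjugate

/-! ### Continuous logarithms on simplices -/

lemma exists_log {n : ℕ} (l : C(Smp n, ℂ)) (hl : ∀ x, l x ≠ 0) :
    ∃ L : C(Smp n, ℂ), ∀ x, exp (L x) = l x := by
  have hconv : Convex ℝ (stdSimplex ℝ (Fin (n + 1))) := convex_stdSimplex ℝ _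
  have : ContractibleSpace (Smp n) :=
    hconv.contractibleSpace ⟨_, (stdSimplex.vertex (S := ℝ) (0 : Fin (n + 1))).2⟩
  have : LocallyPathConnectedSpace (Smp n) := hconv.locallyPathConnectedSpace
  let l' : C(Smp n, {z : ℂ // z ≠ 0}) := ⟨fun x => ⟨l x, hl x⟩, by fun_prop⟩
  obtain ⟨F, ⟨-, hF⟩, -⟩ := Complex.isCoveringMap_exp.existsUnique_continuousMap_lifts l'
    (stdSimplex.vertex 0) (log (l (stdSimplex.vertex 0)))
    (Subtype.ext (exp_log (hl _)))
  exact ⟨F, fun x => congrArg Subtype.val (congrFun hF x)⟩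

open Classical in
/-- Increment of the argument along a path. -/
def inc (l : C(Smp 1, ℂ)) : ℝ :=
  if h : ∃ L : C(Smp 1, ℂ), ∀ x, exp (L x) = l x then
    (h.choose (stdSimplex.vertex 1) - h.choose (stdSimplex.vertex 0)).im else 0

lemma inc_eq {l : C(Smp 1, ℂ)} (L : C(Smp 1, ℂ)) (hL : ∀ x, exp (L x) = l x) :
    inc l = (L (stdSimplex.vertex 1) - L (stdSimplex.vertex 0)).im := by
  have h : ∃ L : C(Smp 1, ℂ), ∀ x, exp (L x) = l x := ⟨L, hL⟩
  rw [inc, dif_pos h]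
  set L' := h.choose
  have hL' : ∀ x, exp (L' x) = l x := h.choose_spec
  have hconv : Convex ℝ (stdSimplex ℝ (Fin 2)) := convex_stdSimplex ℝ _
  have : PreconnectedSpace (Smp 1) := isPreconnected_iff_preconnectedSpace.1 hconv.isPreconnected
  set v0 : Smp 1 := stdSimplex.vertex 0
  have key := Complex.isCoveringMap_exp.eq_of_comp_eq (g₁ := fun x => L x)
    (g₂ := fun x => L' x + (L v0 - L' v0)) L.continuous (by fun_prop) (by
      ext x
      simp only [Function.comp_apply]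
      rw [exp_add, exp_sub, hL, hL', hL, hL', div_self, mul_one]
      rw [← hL]; exact exp_ne_zero _) v0 (by ring)
  have := congrFun key (stdSimplex.vertex 1)
  rw [this]
  congr 1
  ring

/-! ### The tautological line -/

/-- `v` lies on the complex line attached to the point `x` of the sphere. -/
def OnLine (x : S2) (v : ℂ × ℂ) : Prop :=
  conj (pc x) * v.2 = (1 - hc x) * v.1 ∧ pc x * v.1 = (1 + hc x) * v.2

/-- Hermitian product. -/
def herm (u v : ℂ × ℂ) : ℂ := conj u.1 * v.1 + conj u.2 * v.2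

lemma OnLine.det {x : S2} {u v : ℂ × ℂ} (hu : OnLine x u) (hv : OnLine x v) :
    u.1 * v.2 = u.2 * v.1 := by
  obtain ⟨a, b⟩ := hu
  obtain ⟨c, d⟩ := hv
  have : (2 : ℂ) * (u.1 * v.2 - u.2 * v.1) = 0 := by
    linear_combination (-v.2) * a + u.2 * c + v.1 * b - u.1 * d
  have h2 : u.1 * v.2 - u.2 * v.1 = 0 := by simpa using this
  exact sub_eq_zero.1 h2

lemma herm_mul {x : S2} {v w : ℂ × ℂ} (u : ℂ × ℂ) (hv : OnLine x v) (hw : OnLine x w) :
    herm u v * herm v w = herm v v * herm u w := by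
  have := hv.det hw
  simp only [herm]
  linear_combination (conj u.1 * conj v.2 - conj u.2 * conj v.1) * this

lemma herm_self (v : ℂ × ℂ) : herm v v = ((‖v.1‖ ^ 2 + ‖v.2‖ ^ 2 : ℝ) : ℂ) := by
  simp only [herm]
  rw [conj_mul', conj_mul']
  push_cast
  ring

lemma sqsum_pos {v : ℂ × ℂ} (hv : v ≠ 0) : 0 < ‖v.1‖ ^ 2 + ‖v.2‖ ^ 2 := by
  by_contra h
  apply hv
  have h1 : ‖v.1‖ = 0 := by nlinarith [sq_nonneg ‖v.1‖, sq_nonneg ‖v.2‖, norm_nonneg v.1]
  have h2 : ‖v.2‖ = 0 := by nlinarith [sq_nonneg ‖v.1‖, sq_nonneg ‖v.2‖, norm_nonneg v.2]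
  exact Prod.ext (norm_eq_zero.1 h1) (norm_eq_zero.1 h2)

lemma herm_self_ne {v : ℂ × ℂ} (hv : v ≠ 0) : herm v v ≠ 0 := by
  rw [herm_self]
  exact_mod_cast (sqsum_pos hv).ne'

lemma herm_ne {x : S2} {u v : ℂ × ℂ} (hu : OnLine x u) (hv : OnLine x v) (hu0 : u ≠ 0)
    (hv0 : v ≠ 0) : herm u v ≠ 0 := by
  intro h
  have := herm_mul u hv hu
  rw [h, zero_mul] at this
  exact mul_ne_zero (herm_self_ne hv0) (herm_self_ne hu0) this.symm

/-- Orthogonal projection onto the line of `x`. -/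
def proj (x : S2) (v : ℂ × ℂ) : ℂ × ℂ :=
  (((1 + hc x) * v.1 + conj (pc x) * v.2) / 2, (pc x * v.1 + (1 - hc x) * v.2) / 2)

lemma pc_mul_conj (x : S2) : pc x * conj (pc x) = (1 - hc x) * (1 + hc x) := by
  rw [mul_conj']
  have := pc_hc x
  have h : ‖pc x‖ ^ 2 = (1 - hc x) * (1 + hc x) := by linarith
  exact_mod_cast h

lemma onLine_proj (x : S2) (v : ℂ × ℂ) : OnLine x (proj x v) := by
  have := pc_mul_conj x
  constructor
  · simp only [proj]
    linear_combination (v.1 / 2) * this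
  · simp only [proj]
    linear_combination (v.2 / 2) * this

lemma proj_ne {x y : S2} {v : ℂ × ℂ} (hv : OnLine x v) (hv0 : v ≠ 0) (hd : dist x y < 1) :
    proj y v ≠ 0 := by
  intro h
  have h1 : ((1 + hc y) * v.1 + conj (pc y) * v.2) / 2 = 0 := congrArg Prod.fst h
  have h2 : (pc y * v.1 + (1 - hc y) * v.2) / 2 = 0 := congrArg Prod.snd h
  obtain ⟨a, b⟩ := hv
  have e1 : 2 * v.1 = ((hc x - hc y : ℝ) : ℂ) * v.1 + conj (pc x - pc y) * v.2 := by
    rw [map_sub]; push_cast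
    linear_combination 2 * h1 - a
  have e2 : 2 * v.2 = (pc x - pc y) * v.1 - ((hc x - hc y : ℝ) : ℂ) * v.2 := by
    push_cast
    linear_combination 2 * h2 - b
  have hp := norm_pc_sub_le x y
  have hh := abs_hc_sub_le x y
  have n1 : 2 * ‖v.1‖ ≤ dist x y * ‖v.1‖ + dist x y * ‖v.2‖ := by
    have : ‖2 * v.1‖ ≤ dist x y * ‖v.1‖ + dist x y * ‖v.2‖ := by
      rw [e1]
      refine (norm_add_le _ _).trans (add_le_add ?_ ?_)
      · rw [norm_mul, norm_real, Real.norm_eq_abs]; gcongr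
      · rw [norm_mul, RCLike.norm_conj]; gcongr
    simpa using this
  have n2 : 2 * ‖v.2‖ ≤ dist x y * ‖v.1‖ + dist x y * ‖v.2‖ := by
    have : ‖2 * v.2‖ ≤ dist x y * ‖v.1‖ + dist x y * ‖v.2‖ := by
      rw [e2]
      refine (norm_sub_le _ _).trans (add_le_add ?_ ?_)
      · rw [norm_mul]; gcongr
      · rw [norm_mul, norm_real, Real.norm_eq_abs]; gcongr
    simpa using this
  have hpos := sqsum_pos hv0
  have : 0 < ‖v.1‖ + ‖v.2‖ := by
    nlinarith [norm_nonneg v.1, norm_nonneg v.2]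
  nlinarith

/-- `v` is a nowhere vanishing section of the line bundle along `σ`. -/
def IsSec {K : Type} [TopologicalSpace K] (σ : C(K, S2)) (v : C(K, ℂ × ℂ)) : Prop :=
  ∀ x, v x ≠ 0 ∧ OnLine (σ x) (v x)

lemma IsSec.comp {K K' : Type} [TopologicalSpace K] [TopologicalSpace K'] {σ : C(K, S2)}
    {v : C(K, ℂ × ℂ)} (h : IsSec σ v) (g : C(K', K)) : IsSec (σ.comp g) (v.comp g) :=
  fun x => h (g x)

lemma exists_sec_of_close {K : Type} [TopologicalSpace K] [CompactSpace K] {σ τ : C(K, S2)}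
    (hd : dist σ τ < 1) (h : ∃ v, IsSec σ v) : ∃ v, IsSec τ v := by
  obtain ⟨v, hv⟩ := h
  refine ⟨⟨fun x => proj (τ x) (v x), ?_⟩, fun x => ⟨?_, onLine_proj _ _⟩⟩
  · unfold proj
    fun_prop
  · exact proj_ne (hv x).2 (hv x).1 ((ContinuousMap.dist_apply_le_dist x).trans_lt hd)

lemma exists_line_vec (x : S2) : ∃ v : ℂ × ℂ, v ≠ 0 ∧ OnLine x v := by
  by_contra h
  push Not at h
  have h1 : proj x (1, 0) = 0 := by
    by_contra h1; exact h _ h1 (onLine_proj _ _)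
  have h2 : proj x (0, 1) = 0 := by
    by_contra h2; exact h _ h2 (onLine_proj _ _)
  have a : ((1 + hc x) * 1 + conj (pc x) * 0 : ℂ) / 2 = 0 := congrArg Prod.fst h1
  have b : (pc x * 0 + (1 - hc x) * 1 : ℂ) / 2 = 0 := congrArg Prod.snd h2
  have : (1 : ℂ) = 0 := by linear_combination a + b
  exact one_ne_zero this

lemma exists_sec {n : ℕ} (σ : C(Smp n, S2)) : ∃ v, IsSec σ v := by
  have hconv : Convex ℝ (stdSimplex ℝ (Fin (n + 1))) := convex_stdSimplex ℝ _
  set x0 : Smp n := stdSimplex.vertex 0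
  let q : C(unitInterval × Smp n, Smp n) :=
    ⟨fun a => ⟨(1 - (a.1 : ℝ)) • x0.1 + (a.1 : ℝ) • a.2.1,
      hconv x0.2 a.2.2 (by linarith [a.1.2.2]) a.1.2.1 (by ring)⟩, by fun_prop⟩
  let Q : C(unitInterval, C(Smp n, S2)) := (σ.comp q).curry
  have hlc : IsLocallyConstant fun τ : C(Smp n, S2) => ∃ v, IsSec τ v := by
    rw [IsLocallyConstant.iff_eventually_eq]
    intro τ
    filter_upwards [Metric.ball_mem_nhds τ one_pos] with τ' h'
    apply propext
    constructor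
    · exact exists_sec_of_close h'
    · exact exists_sec_of_close (by rwa [dist_comm])
  have h01 := (hlc.comp_continuous Q.continuous).apply_eq_of_preconnectedSpace 0 1
  simp only [Function.comp_apply] at h01
  have e1 : Q 1 = σ := by
    ext1 x
    change σ (q (1, x)) = σ x
    congr 1
    apply Subtype.ext
    simp [q]
  rw [← e1, ← h01]
  obtain ⟨v, hv0, hv⟩ := exists_line_vec (σ x0)
  refine ⟨ContinuousMap.const _ v, fun x => ⟨hv0, ?_⟩⟩
  have : Q 0 x = σ x0 := by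
    change σ (q (0, x)) = σ x0
    congr 1
    apply Subtype.ext
    simp [q]
  rw [this]
  exact hv

/-- A chosen section. -/
def sec {n : ℕ} (σ : C(Smp n, S2)) : C(Smp n, ℂ × ℂ) := (exists_sec σ).choose

lemma isSec_sec {n : ℕ} (σ : C(Smp n, S2)) : IsSec σ (sec σ) := (exists_sec σ).choose_spec

/-- The Hermitian product of two sections. -/
def hermC {K : Type} [TopologicalSpace K] (u v : C(K, ℂ × ℂ)) : C(K, ℂ) :=
  ⟨fun x => herm (u x) (v x), by unfold herm; fun_prop⟩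

lemma hermC_ne {K : Type} [TopologicalSpace K] {σ : C(K, S2)} {u v : C(K, ℂ × ℂ)}
    (hu : IsSec σ u) (hv : IsSec σ v) (x : K) : hermC u v x ≠ 0 :=
  herm_ne (hu x).2 (hv x).2 (hu x).1 (hv x).1

lemma inc_herm_add {e : C(Smp 1, S2)} {u v w : C(Smp 1, ℂ × ℂ)} (hu : IsSec e u) (hv : IsSec e v)
    (hw : IsSec e w) : inc (hermC u w) = inc (hermC u v) + inc (hermC v w) := by
  obtain ⟨L1, h1⟩ := exists_log _ (hermC_ne hu hv)
  obtain ⟨L2, h2⟩ := exists_log _ (hermC_ne hv hw)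
  have hpos : ∀ x, 0 < ‖(v x).1‖ ^ 2 + ‖(v x).2‖ ^ 2 := fun x => sqsum_pos (hv x).1
  let L3 : C(Smp 1, ℝ) := ⟨fun x => Real.log (‖(v x).1‖ ^ 2 + ‖(v x).2‖ ^ 2),
    Continuous.log (by fun_prop) fun x => (hpos x).ne'⟩
  let L : C(Smp 1, ℂ) := ⟨fun x => L1 x + L2 x - (L3 x : ℂ), by fun_prop⟩
  have hL : ∀ x, exp (L x) = hermC u w x := by
    intro x
    have e3 : exp (L3 x : ℂ) = herm (v x) (v x) := by
      rw [herm_self, ← ofReal_exp]
      congr 1
      exact Real.exp_log (hpos x)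
    change exp (L1 x + L2 x - (L3 x : ℂ)) = herm (u x) (w x)
    rw [exp_sub, exp_add, h1, h2, e3, div_eq_iff (herm_self_ne (hv x).1)]
    change herm (u x) (v x) * herm (v x) (w x) = _
    rw [herm_mul (u x) (hv x).2 (hw x).2, mul_comm]
  rw [inc_eq L hL, inc_eq L1 h1, inc_eq L2 h2]
  simp [L]
  ring

/-- The comparison of a section with the chosen section along an edge. -/
def edgeG {n : ℕ} (ρ : C(Smp n, S2)) (v : C(Smp n, ℂ × ℂ)) (g : Fin 2 → Fin (n + 1)) : ℝ :=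
  inc (hermC (sec (ρ.comp (smap g))) (v.comp (smap g)))

lemma edgeG_comp {m n : ℕ} (ρ : C(Smp n, S2)) (v : C(Smp n, ℂ × ℂ))
    (a : Fin (m + 1) → Fin (n + 1)) (g : Fin 2 → Fin (m + 1)) :
    edgeG (ρ.comp (smap a)) (v.comp (smap a)) g = edgeG ρ v (a ∘ g) := by
  unfold edgeG
  rw [ContinuousMap.comp_assoc, ContinuousMap.comp_assoc, smap_comp]

lemma edgeG_change {n : ℕ} {ρ : C(Smp n, S2)} {v v' : C(Smp n, ℂ × ℂ)} (hv : IsSec ρ v)
    (hv' : IsSec ρ v') (g : Fin 2 → Fin (n + 1)) :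
    edgeG ρ v' g = edgeG ρ v g + inc (hermC (v.comp (smap g)) (v'.comp (smap g))) :=
  inc_herm_add (isSec_sec _) (hv.comp _) (hv'.comp _)

/-- The value of the cocycle computed with a given section. -/
def eulV (σ : C(Smp 2, S2)) (v : C(Smp 2, ℂ × ℂ)) : ℝ :=
  edgeG σ v ![1, 2] - edgeG σ v ![0, 2] + edgeG σ v ![0, 1]

lemma eulV_indep {σ : C(Smp 2, S2)} {v v' : C(Smp 2, ℂ × ℂ)} (hv : IsSec σ v)
    (hv' : IsSec σ v') : eulV σ v' = eulV σ v := by
  obtain ⟨L, hL⟩ := exists_log _ (hermC_ne hv hv')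
  have key : ∀ g : Fin 2 → Fin 3, inc (hermC (v.comp (smap g)) (v'.comp (smap g))) =
      (L (stdSimplex.vertex (g 1)) - L (stdSimplex.vertex (g 0))).im := by
    intro g
    rw [inc_eq (L.comp (smap g)) (fun x => hL _)]
    simp only [ContinuousMap.comp_apply, smap_vertex]
  unfold eulV
  rw [edgeG_change hv hv', edgeG_change hv hv' ![0, 2], edgeG_change hv hv' ![0, 1], key, key, key]
  simp
  ring

/-- The Euler cocycle. -/
def eul (σ : C(Smp 2, S2)) : ℝ := eulV σ (sec σ)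

lemma eul_eq {σ : C(Smp 2, S2)} {v : C(Smp 2, ℂ × ℂ)} (hv : IsSec σ v) : eul σ = eulV σ v :=
  eulV_indep hv (isSec_sec σ)

lemma eul_cocycle (ρ : C(Smp 3, S2)) :
    ∑ i : Fin 4, (-1 : ℝ) ^ i.val * eul (ρ.comp (smap i.succAbove)) = 0 := by
  have hv := isSec_sec ρ
  have key : ∀ i : Fin 4, eul (ρ.comp (smap i.succAbove)) =
      edgeG ρ (sec ρ) (i.succAbove ∘ ![1, 2]) - edgeG ρ (sec ρ) (i.succAbove ∘ ![0, 2]) +
        edgeG ρ (sec ρ) (i.succAbove ∘ ![0, 1]) := by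
    intro i
    rw [eul_eq (hv.comp _), eulV, edgeG_comp, edgeG_comp, edgeG_comp]
  simp only [key, Fin.sum_univ_four]
  have a1 : (0 : Fin 4).succAbove ∘ ![1, 2] = ![2, 3] := by decide
  have a2 : (0 : Fin 4).succAbove ∘ ![0, 2] = ![1, 3] := by decide
  have a3 : (0 : Fin 4).succAbove ∘ ![0, 1] = ![1, 2] := by decide
  have b1 : (1 : Fin 4).succAbove ∘ ![1, 2] = ![2, 3] := by decide
  have b2 : (1 : Fin 4).succAbove ∘ ![0, 2] = ![0, 3] := by decide
  have b3 : (1 : Fin 4).succAbove ∘ ![0, 1] = ![0, 2] := by decide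
  have c1 : (2 : Fin 4).succAbove ∘ ![1, 2] = ![1, 3] := by decide
  have c2 : (2 : Fin 4).succAbove ∘ ![0, 2] = ![0, 3] := by decide
  have c3 : (2 : Fin 4).succAbove ∘ ![0, 1] = ![0, 1] := by decide
  have d1 : (3 : Fin 4).succAbove ∘ ![1, 2] = ![1, 2] := by decide
  have d2 : (3 : Fin 4).succAbove ∘ ![0, 2] = ![0, 2] := by decide
  have d3 : (3 : Fin 4).succAbove ∘ ![0, 1] = ![0, 1] := by decide
  rw [a1, a2, a3, b1, b2, b3, c1, c2, c3, d1, d2, d3]
  norm_num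
  ring

end Crest.Agent.R123
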