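import Crest.Agent.R123.Debt

/-! An arbitrarily slowly growing `C¹` function. -/

set_option autoImplicit false

noncomputable section

namespace Crest.Agent.R123

open Set Filter Topology
open Real (smoothTransition)

/-- A smooth ramp. -/
def ramp (x : ℝ) : ℝ := x * smoothTransition x

lemma ramp_zero {x : ℝ} (h : x ≤ 0) : ramp x = 0 := by
  rw [ramp, smoothTransition.zero_of_nonpos h, mul_zero]

lemma ramp_eq {x : ℝ} (h : 1 ≤ x) : ramp x = x := by
  rw [ramp, smoothTransition.one_of_one_le h, mul_one]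

lemma ramp_nonneg (x : ℝ) : 0 ≤ ramp x := by
  rcases le_total x 0 with h | h
  · rw [ramp_zero h]
  · exact mul_nonneg h (smoothTransition.nonneg x)

lemma ramp_mono : Monotone ramp := by
  intro x y h
  rcases le_total x 0 with hx | hx
  · rw [ramp_zero hx]; exact ramp_nonneg y
  · exact mul_le_mul h (smoothTransition.monotone h) (smoothTransition.nonneg x) (hx.trans h)

lemma ramp_sub {x y : ℝ} (_h : x ≤ y) (hy : 2 ≤ y) : min 1 (y - x) ≤ ramp y - ramp x := by
  rw [ramp_eq (by linarith : 1 ≤ y)]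
  rcases le_total 1 x with hx | hx
  · rw [ramp_eq hx]; exact min_le_right _ _
  · have := ramp_mono hx
    rw [ramp_eq le_rfl] at this
    exact (min_le_left _ _).trans (by linarith)

lemma contDiff_ramp : ContDiff ℝ 1 ramp := contDiff_id.mul smoothTransition.contDiff

theorem exists_slow (B : ℕ → ℝ) (hB : ∀ n, 0 ≤ B n) : ∃ s : ℝ → ℝ, ContDiff ℝ 1 s ∧
    Monotone s ∧ Tendsto s atTop atTop ∧ (∀ (n : ℕ) r, n ≤ s r → B n ≤ r) ∧
    ∀ (n : ℕ) r r', n ≤ s r → B n * min 1 |s r' - s r| ≤ |r' - r| := by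
  let u : ℝ → ℝ := fun x => ∑' j : ℕ, B j * ramp (x + 2 - j)
  have hz : ∀ (j : ℕ) (x : ℝ), x + 2 ≤ j → B j * ramp (x + 2 - j) = 0 := fun j x h => by
    rw [ramp_zero (by linarith), mul_zero]
  have cu : ContDiff ℝ 1 u := contDiff_stair (s := fun x => x + 2) (by fun_prop)
    (fun j => contDiff_const.mul (contDiff_ramp.comp (by fun_prop))) hz
  have hu : ∀ (n : ℕ) x y, x ≤ y →
      B n * (ramp (y + 2 - n) - ramp (x + 2 - n)) ≤ u y - u x := by
    intro n x y hxy
    have hN : y + 2 ≤ (⌈y + 2⌉₊ + n + 1 : ℕ) := by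
      push_cast
      linarith [Nat.le_ceil (y + 2), Nat.cast_nonneg (α := ℝ) n]
    simp only [u]
    rw [tsum_eq_range (N := ⌈y + 2⌉₊ + n + 1) fun j hj => hz j y (hN.trans (by exact_mod_cast hj)),
      tsum_eq_range (N := ⌈y + 2⌉₊ + n + 1) fun j hj => hz j x (by
        have : ((⌈y + 2⌉₊ + n + 1 : ℕ) : ℝ) ≤ j := by exact_mod_cast hj
        linarith), ← Finset.sum_sub_distrib, mul_sub]
    refine Finset.single_le_sum (f := fun j : ℕ => B j * ramp (y + 2 - j) - B j * ramp (x + 2 - j))
      (fun j _ => ?_) (Finset.mem_range.2 (by omega))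
    exact sub_nonneg.2 (mul_le_mul_of_nonneg_left (ramp_mono (by linarith)) (hB j))
  have um : Monotone u := fun x y h => by
    have := hu 0 x y h
    have h2 : ramp (x + 2 - (0 : ℕ)) ≤ ramp (y + 2 - (0 : ℕ)) := ramp_mono (by linarith)
    nlinarith [hB 0]
  have u0 : ∀ x, x ≤ -2 → u x = 0 := fun x hx => by
    simp only [u]
    rw [tsum_eq_range (N := 0) fun j _ => hz j x (by linarith [Nat.cast_nonneg (α := ℝ) j])]
    simp
  have un : ∀ x, 0 ≤ u x := fun x => tsum_nonneg fun j => mul_nonneg (hB j) (ramp_nonneg _)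
  let ψ : ℝ → ℝ := fun x => x + u x
  have ψm : StrictMono ψ := strictMono_id.add_monotone um
  have cψ : ContDiff ℝ 1 ψ := contDiff_id.add cu
  have ψs : Function.Surjective ψ := by
    refine cψ.continuous.surjective (tendsto_atTop_mono (fun x => ?_) tendsto_id) ?_
    · simp only [ψ, id]; linarith [un x]
    · refine tendsto_id.congr' ?_
      filter_upwards [eventually_le_atBot (-2 : ℝ)] with x hx
      simp [ψ, u0 x hx]
  let e : ℝ ≃o ℝ := ψm.orderIsoOfSurjective ψ ψs
  have he : ∀ r, ψ (e.symm r) = r := fun r => e.apply_symm_apply r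
  refine ⟨e.symm, ?_, e.symm.monotone, e.symm.tendsto_atTop, fun n r h => ?_,
    fun n r r' h => ?_⟩
  · refine Homeomorph.contDiff_symm_deriv e.toHomeomorph (f' := fun x => 1 + deriv u x)
      (fun x => ?_) (fun x => ?_) cψ
    · have := um.deriv_nonneg (x := x)
      linarith
    · exact (hasDerivAt_id x).add (cu.differentiable one_ne_zero x).hasDerivAt
  · have hn : (0 : ℝ) ≤ n := Nat.cast_nonneg n
    have h1 := hu n (-2) (e.symm r) (by linarith)
    rw [u0 _ le_rfl, ramp_zero (x := -2 + 2 - n) (by linarith), ramp_eq (by linarith)] at h1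
    have h2 := he r
    simp only [ψ] at h2
    nlinarith [hB n]
  · have h2 := he r
    have h3 := he r'
    simp only [ψ] at h2 h3
    rcases le_total (e.symm r) (e.symm r') with hle | hle
    · have h1 := hu n _ _ hle
      have h4 := ramp_sub (x := e.symm r + 2 - n) (y := e.symm r' + 2 - n) (by linarith)
        (by linarith)
      rw [abs_of_nonneg (sub_nonneg.2 hle)]
      rw [show e.symm r' + 2 - n - (e.symm r + 2 - n) = e.symm r' - e.symm r by ring] at h4
      have := mul_le_mul_of_nonneg_left h4 (hB n)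
      exact le_trans (by linarith) (le_abs_self _)
    · have h1 := hu n _ _ hle
      have h4 := ramp_sub (x := e.symm r' + 2 - n) (y := e.symm r + 2 - n) (by linarith)
        (by linarith)
      rw [abs_sub_comm, abs_of_nonneg (sub_nonneg.2 hle), abs_sub_comm]
      rw [show e.symm r + 2 - n - (e.symm r' + 2 - n) = e.symm r - e.symm r' by ring] at h4
      have := mul_le_mul_of_nonneg_left h4 (hB n)
      exact le_trans (by linarith) (le_abs_self _)

end Crest.Agent.R123
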