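import Crest.Agent.R123.Homog
import Crest.Agent.R123.Slow

/-! The `C¹` fibre map over the rotation. -/

set_option autoImplicit false
set_option linter.unusedSectionVars false

noncomputable section

namespace Crest.Agent.R123

open Set Filter Topology

variable {E : Type*} [NormedAddCommGroup E] [InnerProductSpace ℝ E] [ProperSpace E]

/-- The frozen-scale fibre map. -/
def HH (γ γ' : ℝ → E → E) (c : ℝ) (T a X : ℂ × ℝ → ℝ) (q : ℂ × ℝ) (z : E) : E :=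
  Real.exp (c * (a q - T q) - X q) • cat' γ' (a q) (cat γ (T q + 1) z)

/-- The frozen-scale conjugacy. -/
def YY (γ : ℝ → E → E) (c : ℝ) (T V : ℂ × ℝ → ℝ) (q : ℂ × ℝ) (z : E) : E :=
  Real.exp (-(c * T q + V q)) • cat γ (T q) z

variable {γ γ' : ℝ → E → E} {c : ℝ} {T a X V : ℂ × ℝ → ℝ}

lemma hom_HH (h : Iso γ γ') (P : Params T a X V) : Hom (HH γ γ' c T a X) :=
  ((h.hom_cat'.reparam P.ca).comp (h.hom_cat.reparam (P.cT.add contDiff_const))).expSmul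
    ((contDiff_const.mul (P.ca.sub P.cT)).sub P.cX)

lemma hom_YY (h : Iso γ γ') (P : Params T a X V) : Hom (YY γ c T V) :=
  (h.hom_cat.reparam P.cT).expSmul ((contDiff_const.mul P.cT).add P.cV).neg

lemma good_HH (P : Params T a X V) (hc : ∀ a b : ℝ, 0 ≤ a → a ≤ b →
      Good (Real.exp (c * (b - a + 3))) (fun z => cat' γ' a (cat γ b z))) (q : ℂ × ℝ) :
    Good (Real.exp (4 * c - X q)) (HH γ γ' c T a X q) := by
  have := (hc (a q) (T q + 1) (P.a0 q) (by linarith [P.a1 q])).expSmul (c * (a q - T q) - X q)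
  rw [← Real.exp_add] at this
  refine Good.mono this (le_of_eq ?_)
  congr 1
  ring

lemma YY_HH (h : Iso γ γ') (P : Params T a X V) {φ : ℂ} (hφ : ‖φ‖ = 1) (s : ℝ) (z : E) :
    YY γ c T V (φ * rot, s) (HH γ γ' c T a X (φ, s) z) =
      Real.exp (-(V (φ * rot, s) - V (φ, s) + X (φ, s))) • γ 1 (YY γ c T V (φ, s) z) := by
  unfold YY HH
  rw [P.rotT φ s hφ, h.hom_cat.smul _ _ _ (Real.exp_pos _), h.cat_cat',
    cat_add_one γ (P.T0 _), h.hom.smul _ _ _ (Real.exp_pos _), smul_smul, smul_smul,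
    ← Real.exp_add, ← Real.exp_add]
  congr 2
  ring

lemma HH_max (P : Params T a X V) (φ : ℂ) (s : ℝ) :
    HH γ γ' c T a X (φ, max s 0) = HH γ γ' c T a X (φ, s) := by
  rcases le_total s 0 with hs | hs
  · obtain ⟨a1, a2, a3, -⟩ := P.neg φ s hs
    obtain ⟨b1, b2, b3, -⟩ := P.neg φ 0 le_rfl
    funext z
    simp only [HH, max_eq_right hs, a1, a2, a3, b1, b2, b3]
  · rw [max_eq_left hs]

lemma YY_max (P : Params T a X V) (φ : ℂ) (s : ℝ) :
    YY γ c T V (φ, max s 0) = YY γ c T V (φ, s) := by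
  rcases le_total s 0 with hs | hs
  · obtain ⟨a1, -, -, a3⟩ := P.neg φ s hs
    obtain ⟨b1, -, -, b3⟩ := P.neg φ 0 le_rfl
    funext z
    simp only [YY, max_eq_right hs, a1, a3, b1, b3]
  · rw [max_eq_left hs]

lemma HH_neg (P : Params T a X V) (φ : ℂ) {s : ℝ} (hs : s ≤ 0) (z : E) :
    HH γ γ' c T a X (φ, s) z = γ 1 z := by
  obtain ⟨a1, a2, a3, -⟩ := P.neg φ s hs
  simp only [HH, a1, a2, a3, cat'_zero, cat_add_one γ le_rfl, cat_zero]
  simp

/-- Compact parameter sets. -/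
def KK' (n : ℕ) : Set (ℂ × ℝ) := Metric.closedBall (0 : ℂ) 2 ×ˢ Icc (0 : ℝ) (n + 2)

lemma isCompact_KK' (n : ℕ) : IsCompact (KK' n) := (isCompact_closedBall _ _).prod isCompact_Icc

lemma abs_log_sub_le {x y L : ℝ} (hx : 0 < x) (hy : 0 < y) (hL : 1 ≤ L) (h1 : y ≤ L * x)
    (h2 : x ≤ L * y) : |-Real.log y - -Real.log x| ≤ L := by
  have e1 := Real.log_le_log hy h1
  have e2 := Real.log_le_log hx h2
  rw [Real.log_mul (by linarith) hx.ne'] at e1
  rw [Real.log_mul (by linarith) hy.ne'] at e2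
  have e3 := Real.log_le_self (by linarith : 0 ≤ L)
  rw [abs_le]
  constructor <;> linarith

lemma norm_le_of_le_neg_log {z : E} (hz : z ≠ 0) {B : ℝ} (h : B ≤ -Real.log ‖z‖) :
    ‖z‖ ≤ Real.exp (-B) := by
  rw [← Real.log_le_iff_le_exp (norm_pos_iff.2 hz)]
  linarith

lemma eventually_level {s : ℝ → ℝ} (hs : Tendsto s atTop atTop) (n : ℝ) :
    ∀ᶠ z in 𝓝 (0 : E), z ≠ 0 → n ≤ s (-Real.log ‖z‖) := by
  obtain ⟨R, hR⟩ := eventually_atTop.1 (hs.eventually (eventually_ge_atTop n))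
  filter_upwards [Metric.ball_mem_nhds 0 (Real.exp_pos (-R))] with z hz h0
  rw [mem_ball_zero_iff, ← Real.log_lt_iff_lt_exp (norm_pos_iff.2 h0)] at hz
  exact hR _ (by linarith)

lemma fderiv_level {s : ℝ → ℝ} (cs : ContDiff ℝ 1 s) {B : ℝ} (hB : 0 < B) {z : E} (hz : z ≠ 0)
    (h : ∀ r', B * min 1 |s r' - s (-Real.log ‖z‖)| ≤ |r' - -Real.log ‖z‖|) :
    ∃ D : E →L[ℝ] ℝ, HasFDerivAt (fun w : E => s (-Real.log ‖w‖)) D z ∧ ‖D‖ ≤ B⁻¹ * ‖z‖⁻¹ := by
  have hn : ‖z‖ ≠ 0 := norm_ne_zero_iff.2 hz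
  have d1 := (cs.differentiable one_ne_zero (-Real.log ‖z‖)).hasDerivAt
  have b1 : ‖deriv s (-Real.log ‖z‖)‖ ≤ B⁻¹ := by
    refine d1.le_of_lip' (by positivity) ?_
    filter_upwards [Metric.ball_mem_nhds _ hB] with r' hr'
    rw [Metric.mem_ball, Real.dist_eq] at hr'
    have h1 := h r'
    rw [Real.norm_eq_abs, Real.norm_eq_abs, ← div_eq_inv_mul, le_div_iff₀' hB]
    rcases le_total 1 |s r' - s (-Real.log ‖z‖)| with h2 | h2
    · rw [min_eq_left h2] at h1; linarith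
    · rwa [min_eq_right h2] at h1
  have d2 := ((contDiffAt_norm ℝ (n := 1) hz).differentiableAt one_ne_zero).hasFDerivAt
  have b2 : ‖fderiv ℝ (fun w : E => ‖w‖) z‖ ≤ 1 := by
    simpa using norm_fderiv_le_of_lipschitz ℝ (x₀ := z) lipschitzWith_one_norm
  refine ⟨_, d1.comp_hasFDerivAt z (d2.log hn).neg, ?_⟩
  rw [norm_smul, norm_neg, norm_smul, norm_inv, norm_norm]
  exact mul_le_mul b1 (mul_le_of_le_one_right (by positivity) b2) (by positivity) (by positivity)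

lemma contDiffAt_fiber {Φ : ℂ × ℝ → E → E} (hΦ : Hom Φ) {s : ℝ → ℝ} (cs : ContDiff ℝ 1 s)
    (φ : ℂ) {z : E} (hz : z ≠ 0) :
    ContDiffAt ℝ 1 (fun q : ℂ × E => Φ (q.1, s (-Real.log ‖q.2‖)) q.2) (φ, z) := by
  have h1 : ContDiffAt ℝ 1 (fun q : ℂ × E => ((q.1, s (-Real.log ‖q.2‖)), q.2)) (φ, z) :=
    (contDiffAt_fst.prodMk (cs.contDiffAt.comp _
      ((contDiffAt_snd.norm ℝ hz).log (norm_ne_zero_iff.2 hz)).neg)).prodMk contDiffAt_snd
  exact ContDiffAt.comp (g := fun q : (ℂ × ℝ) × E => Φ q.1 q.2) (φ, z) (hΦ.cd _ _ hz) h1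

lemma fderiv_fiber {Φ : ℂ × ℝ → E → E} (hΦ : Hom Φ) {σ : E → ℝ} {φ : ℂ} {z : E} (hz : z ≠ 0)
    {D : E →L[ℝ] ℝ} (hD : HasFDerivAt σ D z) {L C ε : ℝ} (hL : 0 ≤ L) (hε : 0 ≤ ε)
    (h1 : ∀ v w, ‖fderiv ℝ (fun q : (ℂ × ℝ) × E => Φ q.1 q.2) ((φ, σ z), z) (v, w)‖ ≤
      L * (‖z‖ * ‖v‖ + ‖w‖))
    (h2 : Good C (Φ (φ, σ z))) (h3 : L * ‖z‖ ≤ ε) (h4 : L * ‖z‖ * ‖D‖ ≤ ε) (h5 : C ≤ ε) :
    ‖fderiv ℝ (fun q : ℂ × E => Φ (q.1, σ q.2) q.2) (φ, z)‖ ≤ 3 * ε := by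
  have d0 := ((hΦ.cd (φ, σ z) z hz).differentiableAt one_ne_zero).hasFDerivAt
  have d1 : HasFDerivAt (fun q : ℂ × E => ((q.1, σ q.2), q.2))
      (((ContinuousLinearMap.fst ℝ ℂ E).prod (D.comp (ContinuousLinearMap.snd ℝ ℂ E))).prod
        (ContinuousLinearMap.snd ℝ ℂ E)) (φ, z) :=
    (hasFDerivAt_fst.prodMk (HasFDerivAt.comp (g := σ) (φ, z) hD hasFDerivAt_snd)).prodMk
      hasFDerivAt_snd
  have d2 := HasFDerivAt.comp (g := fun q : (ℂ × ℝ) × E => Φ q.1 q.2) (φ, z) d0 d1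
  have d3 := h2.der z hz
  rw [(hΦ.fderiv_snd (φ, σ z) hz).fderiv] at d3
  erw [d2.fderiv]
  set A := fderiv ℝ (fun q : (ℂ × ℝ) × E => Φ q.1 q.2) ((φ, σ z), z) with hA
  refine ContinuousLinearMap.opNorm_le_bound _ (by positivity) ?_
  rintro ⟨v, w⟩
  change ‖A ((v, D w), w)‖ ≤ _
  have e : A ((v, D w), w) = A ((v, D w), 0) + (A.comp (ContinuousLinearMap.inr ℝ _ E)) w := by
    rw [ContinuousLinearMap.comp_apply, ← map_add]
    simp
  have n1 : ‖v‖ ≤ ‖(v, w)‖ := norm_fst_le (v, w)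
  have n2 : ‖w‖ ≤ ‖(v, w)‖ := norm_snd_le (v, w)
  have n3 : ‖(v, D w)‖ ≤ ‖v‖ + ‖D‖ * ‖w‖ := by
    rw [Prod.norm_def]
    have := D.le_opNorm w
    have : 0 ≤ ‖D‖ * ‖w‖ := by positivity
    exact max_le (by linarith) (by linarith [norm_nonneg v])
  have n4 := h1 (v, D w) 0
  rw [norm_zero, add_zero] at n4
  have n5 : ‖(A.comp (ContinuousLinearMap.inr ℝ _ E)) w‖ ≤ ε * ‖w‖ :=
    (ContinuousLinearMap.le_opNorm _ w).trans (by gcongr; exact d3.trans h5)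
  have n6 : L * (‖z‖ * ‖(v, D w)‖) ≤ ε * ‖v‖ + ε * ‖w‖ := by
    calc L * (‖z‖ * ‖(v, D w)‖) ≤ L * (‖z‖ * (‖v‖ + ‖D‖ * ‖w‖)) := by gcongr
      _ = L * ‖z‖ * ‖v‖ + L * ‖z‖ * ‖D‖ * ‖w‖ := by ring
      _ ≤ _ := by gcongr
  rw [e]
  refine (norm_add_le _ _).trans ?_
  nlinarith

theorem contDiff_fiber (h : Iso γ γ') (P : Params T a X V) (hc : ∀ a b : ℝ, 0 ≤ a → a ≤ b →
      Good (Real.exp (c * (b - a + 3))) (fun z => cat' γ' a (cat γ b z)))
    {L B : ℕ → ℝ} (hL : ∀ n, 1 ≤ L n) (hLB : ∀ n : ℕ, (n + 1) * L n ≤ B n)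
    (HL : ∀ n, ∀ p ∈ KK' n, ∀ z, z ≠ 0 → ∀ v w,
      ‖fderiv ℝ (fun q : (ℂ × ℝ) × E => HH γ γ' c T a X q.1 q.2) (p, z) (v, w)‖ ≤
        L n * (‖z‖ * ‖v‖ + ‖w‖))
    {s : ℝ → ℝ} (cs : ContDiff ℝ 1 s) (ts : Tendsto s atTop atTop)
    (s1 : ∀ (n : ℕ) r, n ≤ s r → B n ≤ r)
    (s2 : ∀ (n : ℕ) r r', n ≤ s r → B n * min 1 |s r' - s r| ≤ |r' - r|) :
    ContDiff ℝ 1 (fun q : ℂ × E => HH γ γ' c T a X (q.1, s (-Real.log ‖q.2‖)) q.2) := by
  set F := fun q : ℂ × E => HH γ γ' c T a X (q.1, s (-Real.log ‖q.2‖)) q.2 with hF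
  have hH := hom_HH (c := c) h P
  have F0 : ∀ φ, F (φ, 0) = 0 := fun φ => hH.zero _
  have hB : ∀ n, 0 < B n := fun n => by
    have := hL n
    exact lt_of_lt_of_le (by positivity) (hLB n)
  have key1 : ∀ q : ℂ × E, q ≠ (1, 0) → ContDiffAt ℝ 1 F q := by
    rintro ⟨φ, z⟩ hq
    by_cases hz : z = 0
    swap
    · exact contDiffAt_fiber hH cs φ hz
    subst hz
    obtain ⟨n, X₀, cX, hev⟩ := P.away φ (by simpa using hq)
    have c1 : ContDiffAt ℝ 1 (fun q : ℂ × E => Real.exp (c - X₀ q.1) • q.2) (φ, 0) :=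
      ((contDiff_const.sub (cX.comp contDiff_fst)).exp.smul contDiff_snd).contDiffAt
    refine c1.congr_of_eventuallyEq ?_
    filter_upwards [(continuous_fst.tendsto (φ, (0 : E))).eventually hev,
      (continuous_snd.tendsto (φ, (0 : E))).eventually (eventually_level ts n)] with q h1 h2
    obtain ⟨ψ, w⟩ := q
    by_cases hw : w = 0
    · subst hw; rw [F0]; simp
    obtain ⟨e1, e2⟩ := h1 _ (h2 hw)
    simp only [hF, HH]
    simp only at e1 e2
    rw [e1, e2, add_comm 1, h.cat'_cat]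
    congr 2
    ring
  have key2 : ∀ ε : ℝ, 0 < ε → ∀ᶠ q : ℂ × E in 𝓝 (1, 0),
      ‖F q‖ ≤ ε * ‖q.2‖ ∧ (q.2 ≠ 0 → ‖fderiv ℝ F q‖ ≤ 3 * ε) := by
    intro ε hε
    obtain ⟨n₀, hn₀⟩ := exists_nat_ge (max ε⁻¹ (4 * c - Real.log ε))
    have m1 : ε⁻¹ ≤ n₀ := (le_max_left _ _).trans hn₀
    have m2 : 4 * c - Real.log ε ≤ n₀ := (le_max_right _ _).trans hn₀
    filter_upwards [(continuous_fst.tendsto ((1 : ℂ), (0 : E))).eventually (P.near n₀),
      (continuous_fst.tendsto ((1 : ℂ), (0 : E))).eventually (Metric.ball_mem_nhds 1 one_pos),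
      (continuous_snd.tendsto ((1 : ℂ), (0 : E))).eventually (eventually_level ts n₀)]
      with q h1 h2 h3
    obtain ⟨φ, z⟩ := q
    by_cases hz : z = 0
    · subst hz; rw [F0]; simp
    have l1 := h3 hz
    simp only at h1 h2 l1
    have G := good_HH P hc (φ, s (-Real.log ‖z‖))
    have hC : Real.exp (4 * c - X (φ, s (-Real.log ‖z‖))) ≤ ε := by
      rw [← Real.le_log_iff_exp_le hε]
      linarith [h1 _ l1]
    refine ⟨(G.mono hC).val z, fun _ => ?_⟩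
    set n := ⌊s (-Real.log ‖z‖)⌋₊ with hn
    have p0 : 0 ≤ s (-Real.log ‖z‖) := (Nat.cast_nonneg _).trans l1
    have l2 : (n : ℝ) ≤ s (-Real.log ‖z‖) := Nat.floor_le p0
    have l3 : s (-Real.log ‖z‖) < n + 1 := Nat.lt_floor_add_one _
    obtain ⟨D, hD, bD⟩ := fderiv_level cs (hB n) hz fun r' => s2 n _ r' l2
    have hK : (φ, s (-Real.log ‖z‖)) ∈ KK' n := by
      refine ⟨?_, p0, by linarith⟩
      rw [mem_closedBall_zero_iff]
      rw [dist_eq_norm] at h2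
      have := norm_sub_norm_le φ 1
      rw [norm_one] at this
      change ‖φ‖ ≤ 2
      linarith
    have hLε : L n * (B n)⁻¹ ≤ ε := by
      rw [← div_eq_mul_inv, div_le_iff₀ (hB n)]
      have e1 : 1 ≤ ε * (n + 1) := by
        rw [inv_le_iff_one_le_mul₀' hε] at m1
        nlinarith
      nlinarith [hLB n, hL n]
    have hzn : 0 < ‖z‖ := norm_pos_iff.2 hz
    have hL0 : 0 ≤ L n := zero_le_one.trans (hL n)
    refine fderiv_fiber hH (σ := fun w : E => s (-Real.log ‖w‖)) hz hD hL0 hε.le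
      (HL n _ hK z hz) G ?_ ?_ hC
    · refine le_trans (mul_le_mul_of_nonneg_left ?_ hL0) hLε
      refine (norm_le_of_le_neg_log hz (s1 n _ l2)).trans ?_
      rw [Real.exp_neg]
      exact inv_anti₀ (hB n) (by linarith [Real.add_one_le_exp (B n)])
    · calc L n * ‖z‖ * ‖D‖ ≤ L n * ‖z‖ * ((B n)⁻¹ * ‖z‖⁻¹) := by gcongr
        _ = L n * (B n)⁻¹ := by field_simp
        _ ≤ ε := hLε
  have key3 : ∀ ε : ℝ, 0 < ε → ∀ᶠ q : ℂ × E in 𝓝 (1, 0), ‖fderiv ℝ F q‖ ≤ 3 * ε := by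
    intro ε hε
    filter_upwards [key2 ε hε, (key2 ε hε).eventually_nhds] with q h1 h2
    obtain ⟨φ, z⟩ := q
    by_cases hz : z = 0
    swap
    · exact h1.2 hz
    subst hz
    refine le_trans (norm_fderiv_le_of_lip' ℝ hε.le ?_) (by linarith)
    filter_upwards [h2] with q hq
    rw [F0, sub_zero]
    refine hq.1.trans (mul_le_mul_of_nonneg_left ?_ hε.le)
    have := norm_snd_le (q - (φ, 0))
    rwa [Prod.snd_sub, sub_zero] at this
  have key4 : HasFDerivAt F (0 : ℂ × E →L[ℝ] E) (1, 0) := by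
    rw [hasFDerivAt_iff_isLittleO, Asymptotics.isLittleO_iff]
    intro ε hε
    filter_upwards [key2 ε hε] with q hq
    rw [F0, sub_zero, zero_apply, sub_zero]
    refine hq.1.trans (mul_le_mul_of_nonneg_left ?_ hε.le)
    have := norm_snd_le (q - (1, 0))
    rwa [Prod.snd_sub, sub_zero] at this
  rw [contDiff_one_iff_fderiv]
  constructor
  · intro q
    by_cases hq : q = (1, 0)
    · rw [hq]; exact key4.differentiableAt
    · exact (key1 q hq).differentiableAt one_ne_zero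
  · rw [continuous_iff_continuousAt]
    intro q
    by_cases hq : q = (1, 0)
    · rw [hq, ContinuousAt, key4.fderiv, NormedAddGroup.tendsto_nhds_zero]
      intro ε hε
      filter_upwards [key3 (ε / 4) (by linarith)] with q hq
      linarith
    · exact (key1 q hq).continuousAt_fderiv one_ne_zero

theorem exists_fiber (h : Iso γ γ') {δ r₀ : ℝ} (hδ : 0 < δ) (hr₀ : 0 < r₀) :
    ∃ F y : ℂ × E → E, ContDiff ℝ 1 F ∧
      (∀ q, F q = γ 1 q.2 ∨ (‖F q‖ ≤ r₀ ∧ ‖q.2‖ ≤ r₀)) ∧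
      (∀ φ z, ‖φ‖ = 1 → ∃ ρ : ℝ, 1 / 3 ≤ ρ ∧ ρ ≤ 1 ∧
        ‖y (φ * rot, F (φ, z)) - ρ • γ 1 (y (φ, z))‖ ≤ δ * ‖ρ • γ 1 (y (φ, z))‖) ∧
      ∀ r : ℝ, 0 < r → ∃ m M : ℝ, 0 < m ∧ ∀ φ z, ‖φ‖ = 1 → r ≤ ‖z‖ → ‖z‖ ≤ 1 →
        m ≤ ‖y (φ, z)‖ ∧ ‖y (φ, z)‖ ≤ M := by
  obtain ⟨c, hc0, hc⟩ := h.exists_good
  obtain ⟨T, a, X, V, P⟩ := exists_params
  have hH := hom_HH (c := c) h P
  have hY := hom_YY (c := c) h P
  choose L1 l1 H1 using fun n => hH.exists_fderiv_bound (isCompact_KK' n)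
  choose L2 l2 H2 using fun n => hH.exists_bound (isCompact_KK' n)
  choose L3 l3 H3 using fun n => hY.exists_bound (isCompact_KK' n)
  choose η hη H4 using fun n => hY.unif (isCompact_KK' n) (δ := δ / L3 n)
    (div_pos hδ (one_pos.trans_le (l3 n)))
  let B : ℕ → ℝ := fun n => (n + 1) * L1 n + L2 n / min 1 (η n) + (4 * c + |Real.log r₀|)
  have hη' : ∀ n, 0 < min 1 (η n) := fun n => lt_min one_pos (hη n)
  have b1 : ∀ n : ℕ, 0 < (n + 1) * L1 n := fun n => by have := l1 n; positivity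
  have b2 : ∀ n : ℕ, 0 ≤ L2 n / min 1 (η n) := fun n => by
    have := l2 n; have := hη' n; positivity
  have b3 : 0 ≤ 4 * c + |Real.log r₀| := by positivity
  have b4 : ∀ n, 4 * c + |Real.log r₀| ≤ B n := fun n => by simp only [B]; linarith [b1 n, b2 n]
  obtain ⟨s, cs, ms, ts, s1, s2⟩ := exists_slow B fun n => by
    simp only [B]; linarith [b1 n, b2 n]
  have hKK : ∀ (φ : ℂ) (n : ℕ) (x : ℝ), ‖φ‖ = 1 → max x 0 ≤ n + 2 → (φ, max x 0) ∈ KK' n :=
    fun φ n x hφ hx => ⟨by rw [mem_closedBall_zero_iff]; linarith, le_max_right _ _, hx⟩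
  refine ⟨fun q => HH γ γ' c T a X (q.1, s (-Real.log ‖q.2‖)) q.2,
    fun q => YY γ c T V (q.1, s (-Real.log ‖q.2‖)) q.2,
    contDiff_fiber h P hc l1 (fun n => by simp only [B]; linarith [b2 n]) H1 cs ts s1 s2,
    ?_, ?_, ?_⟩
  · rintro ⟨φ, z⟩
    rcases le_total (s (-Real.log ‖z‖)) 0 with hs | hs
    · exact Or.inl (HH_neg P φ hs z)
    by_cases hz : z = 0
    · left
      subst hz
      simp only [hH.zero, h.hom.zero]
    right
    have e1 := norm_le_of_le_neg_log hz (s1 0 _ (by simpa using hs))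
    have e2 := (good_HH P hc (φ, s (-Real.log ‖z‖))).val z
    have e3 : Real.exp (4 * c) * Real.exp (-B 0) ≤ r₀ := by
      rw [← Real.exp_add, ← Real.le_log_iff_exp_le hr₀]
      linarith [b4 0, neg_abs_le (Real.log r₀)]
    have e4 : Real.exp (4 * c - X (φ, s (-Real.log ‖z‖))) ≤ Real.exp (4 * c) :=
      Real.exp_le_exp.2 (by linarith [P.X0 (φ, s (-Real.log ‖z‖))])
    have e5 : 1 ≤ Real.exp (4 * c) := Real.one_le_exp (by linarith)
    have e6 := Real.exp_pos (-B 0)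
    refine ⟨e2.trans (le_trans (mul_le_mul e4 e1 (norm_nonneg _) (by linarith)) e3), ?_⟩
    simp only
    nlinarith
  · intro φ z hφ
    have hφ' : ‖φ * rot‖ = 1 := by simp [hφ]
    obtain ⟨v0, v1⟩ := P.rotV φ (s (-Real.log ‖z‖)) hφ
    refine ⟨_, ?_, Real.exp_le_one_iff.2 (neg_nonpos.2 v0), ?_⟩
    · refine le_trans ?_ (Real.exp_le_exp.2 (neg_le_neg v1))
      rw [Real.exp_neg, one_div]
      exact inv_anti₀ (Real.exp_pos 1) (by linarith [Real.exp_one_lt_d9])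
    simp only
    rw [← YY_HH h P hφ]
    by_cases hz : z = 0
    · subst hz
      simp [hH.zero, hY.zero]
    set z' := HH γ γ' c T a X (φ, s (-Real.log ‖z‖)) z with hz'
    have hz'0 : z' ≠ 0 := hH.ne _ _ hz
    set s₀ := s (-Real.log ‖z‖) with hs₀
    set s₁ := s (-Real.log ‖z'‖) with hs₁
    set n := ⌊s₀⌋₊ with hn
    have hn0 : (0 : ℝ) ≤ n := Nat.cast_nonneg n
    have k0 : max s₀ 0 ≤ n + 1 := max_le (Nat.lt_floor_add_one s₀).le (by linarith)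
    obtain ⟨u1, u2⟩ := H2 n _ (hKK φ n s₀ hφ (by linarith)) z
    rw [HH_max P] at u1 u2
    have u3 := abs_log_sub_le (norm_pos_iff.2 hz) (norm_pos_iff.2 hz'0) (l2 n) u1 u2
    have u4 : ∀ x : ℝ, B n * min 1 x ≤ L2 n → x < min 1 (η n) := by
      intro x hx
      by_contra hcon
      rw [not_lt] at hcon
      have w1 : min 1 (η n) ≤ min 1 x := le_min (min_le_left _ _) hcon
      have w2 : L2 n / min 1 (η n) < B n := by simp only [B]; linarith [b1 n]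
      rw [div_lt_iff₀ (hη' n)] at w2
      have w3 : 0 ≤ B n := by simp only [B]; linarith [b1 n, b2 n]
      nlinarith
    have u5 : |max s₁ 0 - max s₀ 0| < min 1 (η n) := by
      rcases le_total 0 s₀ with hs | hs
      · exact (abs_max_sub_max_le_abs _ _ _).trans_lt
          (u4 _ ((s2 n _ _ (Nat.floor_le hs)).trans u3))
      rcases le_total s₁ 0 with hs' | hs'
      · rw [max_eq_right hs, max_eq_right hs', sub_self, abs_zero]
        exact hη' n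
      have hn' : n = 0 := Nat.floor_of_nonpos hs
      refine (abs_max_sub_max_le_abs _ _ _).trans_lt (u4 _ ?_)
      rw [abs_sub_comm] at u3 ⊢
      exact (s2 n _ _ (by rw [hn']; simpa using hs')).trans u3
    have k1 : max s₁ 0 ≤ n + 2 := by
      have := (abs_lt.1 (u5.trans_le (min_le_left _ _))).2
      linarith
    have u6 := H4 n _ (hKK _ n s₀ hφ' (by linarith)) _ (hKK _ n s₁ hφ' k1) (by
      rw [Prod.dist_eq, dist_self, max_eq_right dist_nonneg, Real.dist_eq, abs_sub_comm]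
      exact u5.trans_le (min_le_right _ _)) z'
    have u7 := (H3 n _ (hKK _ n s₀ hφ' (by linarith)) z').2
    rw [YY_max P, YY_max P] at u6
    rw [YY_max P] at u7
    refine u6.trans ?_
    have := l3 n
    calc δ / L3 n * ‖z'‖ ≤ δ / L3 n * (L3 n * ‖YY γ c T V (φ * rot, s₀) z'‖) := by gcongr
      _ = _ := by field_simp
  · intro r hr
    set n := ⌈s (-Real.log r)⌉₊ with hn
    have := l3 n
    refine ⟨r / L3 n, L3 n, by positivity, fun φ z hφ h1 h2 => ?_⟩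
    have k0 : s (-Real.log ‖z‖) ≤ n :=
      (ms (neg_le_neg (Real.log_le_log hr h1))).trans (Nat.le_ceil _)
    have hn0 : (0 : ℝ) ≤ n := Nat.cast_nonneg n
    obtain ⟨u1, u2⟩ := H3 n _ (hKK φ n _ hφ (max_le (by linarith) (by linarith))) z
    rw [YY_max P] at u1 u2
    constructor
    · rw [div_le_iff₀' (by linarith)]
      exact h1.trans u2
    · exact u1.trans (mul_le_of_le_one_right (by linarith) h2)

end Crest.Agent.R123
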