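import Crest.Agent.R123.Homog

/-! An explicit homogeneous Hénon-like homeomorphism of `ℂ³`, isotopic to the identity. -/

set_option autoImplicit false

noncomputable section

namespace Crest.Agent.R123

open Set Filter Topology ComplexConjugate

/-- The fibre `ℂ³` with its Euclidean norm. -/
abbrev E3 : Type := EuclideanSpace ℂ (Fin 3)

/-- A vector from its three coordinates. -/
def mk3 (a b c : ℂ) : E3 := !₂[a, b, c]

@[simp] lemma mk3_0 (a b c : ℂ) : mk3 a b c 0 = a := rfl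
@[simp] lemma mk3_1 (a b c : ℂ) : mk3 a b c 1 = b := rfl
@[simp] lemma mk3_2 (a b c : ℂ) : mk3 a b c 2 = c := rfl

lemma E3_ext {x y : E3} (h0 : x 0 = y 0) (h1 : x 1 = y 1) (h2 : x 2 = y 2) : x = y := by
  ext i
  fin_cases i
  · exact h0
  · exact h1
  · exact h2

lemma norm_sq_E3 (x : E3) : ‖x‖ ^ 2 = ‖x 0‖ ^ 2 + ‖x 1‖ ^ 2 + ‖x 2‖ ^ 2 := by
  rw [EuclideanSpace.norm_sq_eq, Fin.sum_univ_three]

lemma norm_coord_le (x : E3) (i : Fin 3) : ‖x i‖ ≤ ‖x‖ := PiLp.norm_apply_le x i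

lemma norm_le_sum (x : E3) : ‖x‖ ≤ ‖x 0‖ + ‖x 1‖ + ‖x 2‖ := by
  have h := norm_sq_E3 x
  have h0 := norm_nonneg (x 0)
  have h1 := norm_nonneg (x 1)
  have h2 := norm_nonneg (x 2)
  refine abs_le_of_sq_le_sq' ?_ (by positivity) |>.2
  rw [h]
  nlinarith [mul_nonneg h0 h1, mul_nonneg h0 h2, mul_nonneg h1 h2]

section smooth

variable {X : Type*} [NormedAddCommGroup X] [NormedSpace ℝ X]

lemma contDiffAt_mk3 {n : WithTop ℕ∞} {a b c : X → ℂ} {x : X} (ha : ContDiffAt ℝ n a x)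
    (hb : ContDiffAt ℝ n b x) (hc : ContDiffAt ℝ n c x) :
    ContDiffAt ℝ n (fun y => mk3 (a y) (b y) (c y)) x := by
  rw [contDiffAt_piLp 2]
  intro i
  fin_cases i
  · exact ha
  · exact hb
  · exact hc

lemma contDiffAt_coord {n : WithTop ℕ∞} {f : X → E3} {x : X} (hf : ContDiffAt ℝ n f x)
    (i : Fin 3) : ContDiffAt ℝ n (fun y => f y i) x :=
  (contDiffAt_piLp 2).1 hf i

lemma contDiffAt_conj {n : WithTop ℕ∞} {f : X → ℂ} {x : X} (hf : ContDiffAt ℝ n f x) :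
    ContDiffAt ℝ n (fun y => conj (f y)) x :=
  Complex.conjCLE.contDiff.contDiffAt.comp x hf

lemma contDiffAt_ofReal {n : WithTop ℕ∞} {f : X → ℝ} {x : X} (hf : ContDiffAt ℝ n f x) :
    ContDiffAt ℝ n (fun y => (f y : ℂ)) x :=
  Complex.ofRealCLM.contDiff.contDiffAt.comp x hf

end smooth

/-- A unitary map of the first two coordinates. -/
def cay (η : ℂ) (x : E3) : E3 :=
  mk3 (((1 - η * conj η) * x 0 + 2 * η * x 1) / (1 + η * conj η))
    (((1 - η * conj η) * x 1 - 2 * conj η * x 0) / (1 + η * conj η)) (x 2)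

lemma one_add_ne (η : ℂ) : 1 + η * conj η ≠ 0 := by
  rw [Complex.mul_conj]
  have := Complex.normSq_nonneg η
  have h : (1 + Complex.normSq η : ℝ) ≠ 0 := by linarith
  exact_mod_cast h

lemma cay_neg (η : ℂ) (x : E3) : cay (-η) (cay η x) = x := by
  have h := one_add_ne η
  apply E3_ext
  · simp only [cay, mk3_0, mk3_1, map_neg, mul_neg, neg_mul, neg_neg]
    field_simp
    ring
  · simp only [cay, mk3_0, mk3_1, map_neg, mul_neg, neg_mul, neg_neg]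
    field_simp
    ring
  · rfl

lemma cay_zero (x : E3) : cay 0 x = x := by
  apply E3_ext <;> simp [cay]

lemma cay_smul (η : ℂ) (c : ℝ) (x : E3) : cay η (c • x) = c • cay η x := by
  apply E3_ext <;> simp [cay] <;> ring

lemma cay_two (η : ℂ) (x : E3) : cay η x 2 = x 2 := rfl

lemma cay_sq (η : ℂ) (x : E3) :
    ‖cay η x 0‖ ^ 2 + ‖cay η x 1‖ ^ 2 = ‖x 0‖ ^ 2 + ‖x 1‖ ^ 2 := by
  have h := one_add_ne η
  have h' : 1 + conj η * η ≠ 0 := by rwa [mul_comm]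
  apply Complex.ofReal_injective
  push_cast
  rw [← Complex.mul_conj', ← Complex.mul_conj', ← Complex.mul_conj', ← Complex.mul_conj']
  simp only [cay, mk3_0, mk3_1, map_div₀, map_add, map_sub, map_mul, map_one, map_ofNat,
    Complex.conj_conj]
  field_simp
  ring

lemma norm_cay (η : ℂ) (x : E3) : ‖cay η x‖ = ‖x‖ := by
  rw [← sq_eq_sq₀ (norm_nonneg _) (norm_nonneg _), norm_sq_E3, norm_sq_E3, cay_sq, cay_two]

lemma contDiffAt_cay {X : Type*} [NormedAddCommGroup X] [NormedSpace ℝ X] {η : X → ℂ}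
    {f : X → E3} {x : X} (hη : ContDiffAt ℝ 1 η x) (hf : ContDiffAt ℝ 1 f x) :
    ContDiffAt ℝ 1 (fun y => cay (η y) (f y)) x := by
  have h0 := contDiffAt_coord hf 0
  have h1 := contDiffAt_coord hf 1
  have h2 := contDiffAt_coord hf 2
  have hc := contDiffAt_conj hη
  have hd := ((contDiffAt_const (c := (1 : ℂ))).add (hη.mul hc)).inv (one_add_ne (η x))
  have hm := (contDiffAt_const (c := (1 : ℂ))).sub (hη.mul hc)
  unfold cay
  simp only [div_eq_mul_inv]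
  exact contDiffAt_mk3 (((hm.mul h0).add ((contDiffAt_const.mul hη).mul h1)).mul hd)
    (((hm.mul h1).sub ((contDiffAt_const.mul hc).mul h0)).mul hd) h2

/-- Building an isotopy from a formula and its inverse. -/
lemma Iso.of {E : Type*} [NormedAddCommGroup E] [NormedSpace ℝ E] {γ γ' : ℝ → E → E}
    (hz : ∀ t, γ t 0 = 0) (hs : ∀ t (c : ℝ) z, 0 < c → γ t (c • z) = c • γ t z)
    (hc : ∀ t z, z ≠ 0 → ContDiffAt ℝ 1 (fun q : ℝ × E => γ q.1 q.2) (t, z))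
    (hc' : ∀ t z, z ≠ 0 → ContDiffAt ℝ 1 (fun q : ℝ × E => γ' q.1 q.2) (t, z))
    (h0 : ∀ z, γ 0 z = z) (hl : ∀ t z, γ' t (γ t z) = z) (hr : ∀ t z, γ t (γ' t z) = z) :
    Iso γ γ' := by
  have hz' : ∀ t, γ' t 0 = 0 := fun t => by
    conv_lhs => rw [← hz t]
    exact hl t 0
  refine ⟨⟨hz, fun t z h e => h ?_, hs, hc⟩, ⟨hz', fun t z h e => h ?_, fun t c z h => ?_, hc'⟩,
    h0, hl, hr⟩
  · rw [← hl t z, e, hz']
  · rw [← hr t z, e, hz]
  · conv_lhs => rw [← hr t z, ← hs t c _ h, hl]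

lemma Iso.comp {E : Type*} [NormedAddCommGroup E] [NormedSpace ℝ E] {γ γ' δ δ' : ℝ → E → E}
    (h : Iso γ γ') (k : Iso δ δ') :
    Iso (fun t z => γ t (δ t z)) (fun t z => δ' t (γ' t z)) :=
  ⟨h.hom.comp k.hom, k.hom'.comp h.hom', fun z => by rw [k.zero, h.zero],
    fun t z => by rw [h.left, k.left], fun t z => by rw [k.right, h.right]⟩

/-- The shear. -/
def shear (t : ℝ) (x : E3) : E3 := mk3 (x 0) (x 1) (x 2 - t * x 0)

/-- The twist. -/
def twist (t : ℝ) (x : E3) : E3 := cay (t * x 2 * ((‖x‖⁻¹ : ℝ) : ℂ)) x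

/-- The diagonal stretching. -/
def dia (m : ℝ) (x : E3) : E3 := mk3 (m * x 0) ((m⁻¹ : ℝ) * x 1) ((m⁻¹ : ℝ) * x 2)

lemma cd_t {t : ℝ} {z : E3} : ContDiffAt ℝ 1 (fun q : ℝ × E3 => (q.1 : ℂ)) (t, z) :=
  contDiffAt_ofReal contDiffAt_fst

lemma cd_c {t : ℝ} {z : E3} (i : Fin 3) : ContDiffAt ℝ 1 (fun q : ℝ × E3 => q.2 i) (t, z) :=
  contDiffAt_coord contDiffAt_snd i

lemma iso_shear : Iso shear (fun t => shear (-t)) := by
  refine Iso.of (fun t => ?_) (fun t c z _ => ?_) (fun t z _ => ?_) (fun t z _ => ?_)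
    (fun z => ?_) (fun t z => ?_) (fun t z => ?_)
  · apply E3_ext <;> simp [shear]
  · apply E3_ext <;> simp [shear]
    ring
  · exact contDiffAt_mk3 (cd_c 0) (cd_c 1) ((cd_c 2).sub (cd_t.mul (cd_c 0)))
  · exact contDiffAt_mk3 (cd_c 0) (cd_c 1)
      ((cd_c 2).sub ((contDiffAt_ofReal contDiffAt_fst.neg).mul (cd_c 0)))
  · apply E3_ext <;> simp [shear]
  · apply E3_ext <;> simp [shear]
  · apply E3_ext <;> simp [shear]

lemma iso_rot : Iso (fun t : ℝ => cay (t : ℂ)) (fun t : ℝ => cay (-(t : ℂ))) := by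
  refine Iso.of (fun t => ?_) (fun t c z _ => cay_smul _ _ _) (fun t z _ => ?_) (fun t z _ => ?_)
    (fun z => ?_) (fun t z => cay_neg _ _) (fun t z => ?_)
  · simpa using cay_smul t 0 0
  · exact contDiffAt_cay cd_t contDiffAt_snd
  · exact contDiffAt_cay cd_t.neg contDiffAt_snd
  · simpa using cay_zero z
  · simpa using cay_neg (-(t : ℂ)) z

lemma twist_neg (t : ℝ) (x : E3) : twist (-t) (twist t x) = x := by
  conv_rhs => rw [← cay_neg (t * x 2 * ((‖x‖⁻¹ : ℝ) : ℂ)) x]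
  unfold twist
  rw [norm_cay, cay_two]
  congr 1
  push_cast
  ring

lemma iso_twist : Iso twist (fun t => twist (-t)) := by
  have hn : ∀ (t : ℝ) (z : E3), z ≠ 0 →
      ContDiffAt ℝ 1 (fun q : ℝ × E3 => ((‖q.2‖⁻¹ : ℝ) : ℂ)) (t, z) := fun t z hz =>
    contDiffAt_ofReal ((contDiffAt_snd.norm ℝ hz).inv (norm_ne_zero_iff.2 hz))
  refine Iso.of (fun t => ?_) (fun t c z hc => ?_) (fun t z hz => ?_) (fun t z hz => ?_)
    (fun z => ?_) (fun t z => twist_neg _ _) (fun t z => ?_)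
  · simpa [twist] using cay_zero 0
  · unfold twist
    rw [cay_smul]
    congr 2
    have : (c : ℂ) ≠ 0 := by exact_mod_cast hc.ne'
    rw [norm_smul, Real.norm_of_nonneg hc.le]
    simp only [PiLp.smul_apply, Complex.real_smul]
    push_cast
    field_simp
  · exact contDiffAt_cay ((cd_t.mul (cd_c 2)).mul (hn t z hz)) contDiffAt_snd
  · exact contDiffAt_cay (((contDiffAt_ofReal contDiffAt_fst.neg).mul (cd_c 2)).mul (hn t z hz))
      contDiffAt_snd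
  · simpa [twist] using cay_zero z
  · simpa using twist_neg (-t) z

lemma dia_inv {m : ℝ} (hm : m ≠ 0) (x : E3) : dia m⁻¹ (dia m x) = x := by
  have : (m : ℂ) ≠ 0 := by exact_mod_cast hm
  apply E3_ext <;> simp [dia] <;> field_simp

lemma iso_dia : Iso (fun t : ℝ => dia (1 + 999 * t ^ 2)) (fun t : ℝ => dia (1 + 999 * t ^ 2)⁻¹) := by
  have hm : ∀ t : ℝ, 1 + 999 * t ^ 2 ≠ 0 := fun t => by positivity
  have c1 : ∀ (t : ℝ) (z : E3), ContDiffAt ℝ 1 (fun q : ℝ × E3 => 1 + 999 * q.1 ^ 2) (t, z) :=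
    fun t z => by fun_prop
  refine Iso.of (fun t => ?_) (fun t c z _ => ?_) (fun t z _ => ?_) (fun t z _ => ?_)
    (fun z => ?_) (fun t z => dia_inv (hm t) z) (fun t z => ?_)
  · apply E3_ext <;> simp [dia]
  · apply E3_ext <;> simp [dia] <;> ring
  · have c2 := (c1 t z).inv (hm t)
    exact contDiffAt_mk3 ((contDiffAt_ofReal (c1 t z)).mul (cd_c 0))
      ((contDiffAt_ofReal c2).mul (cd_c 1)) ((contDiffAt_ofReal c2).mul (cd_c 2))
  · have c2 := (c1 t z).inv (hm t)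
    have c3 := c2.inv (inv_ne_zero (hm t))
    exact contDiffAt_mk3 ((contDiffAt_ofReal c2).mul (cd_c 0))
      ((contDiffAt_ofReal c3).mul (cd_c 1)) ((contDiffAt_ofReal c3).mul (cd_c 2))
  · apply E3_ext <;> simp [dia]
  · simpa using dia_inv (inv_ne_zero (hm t)) z

/-- The isotopy from the identity to the Hénon-like map. -/
def hen (t : ℝ) (x : E3) : E3 := dia (1 + 999 * t ^ 2) (twist t (cay t (shear t x)))

/-- The inverse isotopy. -/
def hen' (t : ℝ) (x : E3) : E3 := shear (-t) (cay (-t) (twist (-t) (dia (1 + 999 * t ^ 2)⁻¹ x)))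

lemma iso_hen : Iso hen hen' := iso_dia.comp (iso_twist.comp (iso_rot.comp iso_shear))

/-- The vector before the twist. -/
def pre (x : E3) : E3 := mk3 (x 1) (-x 0) (x 2 - x 0)

lemma hen_one (x : E3) : hen 1 x = dia 1000 (cay (pre x 2 * ((‖pre x‖⁻¹ : ℝ) : ℂ)) (pre x)) := by
  have : cay ((1 : ℝ) : ℂ) (shear 1 x) = pre x := by
    apply E3_ext <;> simp [cay, shear, pre] <;> ring
  unfold hen twist
  rw [this]
  norm_num

/-- The unstable cone. -/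
def Cone (x : E3) : Prop := ‖x 1‖ ≤ ‖x 0‖ / 4 ∧ ‖x 2‖ ≤ ‖x 0‖ / 4

lemma hen_small (x : E3) : ‖hen 1 x 1‖ ≤ ‖x‖ / 500 ∧ ‖hen 1 x 2‖ ≤ ‖x‖ / 500 := by
  rw [hen_one]
  have h0 := norm_coord_le x 0
  have h2 := norm_coord_le x 2
  constructor
  · have h := cay_sq (pre x 2 * ((‖pre x‖⁻¹ : ℝ) : ℂ)) (pre x)
    set y := cay (pre x 2 * ((‖pre x‖⁻¹ : ℝ) : ℂ)) (pre x)
    simp only [pre, mk3_0, mk3_1, norm_neg] at h
    have h3 := norm_sq_E3 x
    have : ‖y 1‖ ≤ ‖x‖ := by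
      refine abs_le_of_sq_le_sq' ?_ (norm_nonneg _) |>.2
      nlinarith [sq_nonneg ‖y 0‖, sq_nonneg ‖x 2‖]
    simp only [dia, mk3_1, norm_mul, Complex.norm_real, norm_inv, Real.norm_ofNat]
    linarith [norm_nonneg x]
  · simp only [dia, mk3_2, norm_mul, Complex.norm_real, norm_inv, Real.norm_ofNat, cay_two, pre]
    linarith [norm_sub_le (x 2) (x 0)]

lemma hen_big (x : E3) (hx : Cone x) : 200 * ‖x‖ ≤ ‖hen 1 x 0‖ := by
  obtain ⟨h1, h2⟩ := hx
  have hs := norm_le_sum x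
  by_cases h0 : x 0 = 0
  · rw [h0, norm_zero] at h1 h2 hs
    linarith [norm_nonneg (hen 1 x 0)]
  have hu : 0 < ‖x 0‖ := norm_pos_iff.2 h0
  rw [hen_one]
  have q1 : 3 / 4 * ‖x 0‖ ≤ ‖pre x 2‖ := by
    have := norm_sub_norm_le (x 0) (x 2)
    rw [norm_sub_rev] at this
    simp only [pre, mk3_2]
    linarith
  have hp := norm_sq_E3 (pre x)
  have hp0 : 0 < ‖pre x‖ := by linarith [norm_coord_le (pre x) 2]
  have q2 : ‖pre x‖ ≤ 2 * ‖pre x 2‖ := by
    refine abs_le_of_sq_le_sq' ?_ (by positivity) |>.2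
    rw [hp]
    have e0 : ‖pre x 0‖ = ‖x 1‖ := rfl
    have e1 : ‖pre x 1‖ = ‖x 0‖ := by simp [pre]
    rw [e0, e1]
    nlinarith [norm_nonneg (x 1)]
  set η := pre x 2 * ((‖pre x‖⁻¹ : ℝ) : ℂ) with hη
  have n1 : ‖η‖ = ‖pre x 2‖ / ‖pre x‖ := by
    rw [hη, norm_mul, Complex.norm_real, norm_inv, norm_norm, div_eq_mul_inv]
  have n2 : 1 / 2 ≤ ‖η‖ := by rw [n1, le_div_iff₀ hp0]; linarith
  have n3 : ‖η‖ ≤ 1 := by rw [n1, div_le_one hp0]; exact norm_coord_le _ _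
  clear_value η
  have e1 : η * conj η = ((‖η‖ ^ 2 : ℝ) : ℂ) := by rw [Complex.mul_conj']; push_cast; ring
  have n4 : ‖1 + η * conj η‖ = 1 + ‖η‖ ^ 2 := by
    rw [e1, ← Complex.ofReal_one, ← Complex.ofReal_add, Complex.norm_real,
      Real.norm_of_nonneg (by positivity)]
  have n5 : ‖1 - η * conj η‖ = 1 - ‖η‖ ^ 2 := by
    rw [e1, ← Complex.ofReal_one, ← Complex.ofReal_sub, Complex.norm_real,
      Real.norm_of_nonneg (by nlinarith)]
  have n6 : 3 / 4 * ‖x 0‖ ≤ ‖(1 - η * conj η) * pre x 0 + 2 * η * pre x 1‖ := by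
    have := norm_sub_norm_le (2 * η * pre x 1) (-((1 - η * conj η) * pre x 0))
    rw [sub_neg_eq_add, add_comm, norm_neg, norm_mul, norm_mul, norm_mul, n5] at this
    have e0 : ‖pre x 0‖ = ‖x 1‖ := rfl
    have e1 : ‖pre x 1‖ = ‖x 0‖ := by simp [pre]
    rw [e0, e1, Complex.norm_two] at this
    nlinarith [norm_nonneg (x 1), mul_nonneg (sq_nonneg ‖η‖) (norm_nonneg (x 1))]
  simp only [dia, mk3_0, cay, norm_mul, norm_div, Complex.norm_real, Real.norm_ofNat, n4]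
  have : 3 / 8 * ‖x 0‖ ≤ ‖(1 - η * conj η) * pre x 0 + 2 * η * pre x 1‖ / (1 + ‖η‖ ^ 2) := by
    rw [le_div_iff₀ (by positivity)]
    nlinarith [mul_le_mul n3 n3 (norm_nonneg _) zero_le_one]
  linarith

/-- On the first axis the map doubles the angle. -/
lemma hen_axis (u : ℂ) (hu : u ≠ 0) : ∃ c : ℝ, 0 < c ∧ hen 1 (mk3 u 0 0) 0 = c * u ^ 2 := by
  rw [hen_one]
  have hp : 0 < ‖pre (mk3 u 0 0)‖ := by
    have := norm_coord_le (pre (mk3 u 0 0)) 1
    have h1 : 0 < ‖u‖ := norm_pos_iff.2 hu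
    simp only [pre, mk3_0, mk3_1, norm_neg] at this ⊢
    linarith
  set N := ‖pre (mk3 u 0 0)‖
  refine ⟨1000 * (2 * N⁻¹ / (1 + (‖u‖ * N⁻¹) ^ 2)), by positivity, ?_⟩
  simp only [dia, cay, pre, mk3_0, mk3_1, mk3_2, map_mul, map_sub, map_zero, Complex.conj_ofReal]
  push_cast
  rw [mul_pow, ← Complex.mul_conj' u]
  ring

/-- Robust trapping property of the cone. -/
lemma hen_robust (x x' : E3) {ρ : ℝ} (h1 : 1 / 3 ≤ ρ) (h2 : ρ ≤ 1)
    (h : ‖x' - ρ • hen 1 x‖ ≤ 1 / 20 * ‖ρ • hen 1 x‖) :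
    (¬ Cone x' → ‖x'‖ ≤ ‖x‖ / 2) ∧ (Cone x → Cone x' ∧ 2 * ‖x‖ ≤ ‖x'‖) := by
  obtain ⟨s1, s2⟩ := hen_small x
  set y := ρ • hen 1 x with hy
  have hρ : 0 ≤ ρ := by linarith
  have hyi : ∀ i, ‖y i‖ = ρ * ‖hen 1 x i‖ := fun i => by
    rw [hy, PiLp.smul_apply, norm_smul, Real.norm_of_nonneg hρ]
  have y1 : ‖y 1‖ ≤ ρ * ‖x‖ / 500 := by rw [hyi]; nlinarith
  have y2 : ‖y 2‖ ≤ ρ * ‖x‖ / 500 := by rw [hyi]; nlinarith
  have ys := norm_le_sum y
  have he : ∀ i, ‖x' i - y i‖ ≤ 1 / 20 * ‖y‖ := fun i => (norm_coord_le (x' - y) i).trans h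
  have a0 := abs_le.1 ((abs_norm_sub_norm_le _ _).trans (he 0))
  have a1 := abs_le.1 ((abs_norm_sub_norm_le _ _).trans (he 1))
  have a2 := abs_le.1 ((abs_norm_sub_norm_le _ _).trans (he 2))
  have a3 := abs_le.1 ((abs_norm_sub_norm_le _ _).trans h)
  have hx := norm_nonneg x
  have hρx : ρ * ‖x‖ ≤ ‖x‖ := by nlinarith
  constructor
  · intro hc
    rw [Cone, not_and_or, not_le, not_le] at hc
    rcases hc with hc | hc <;> linarith
  · intro hc
    have b := hen_big x hc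
    have y0 : 200 * (ρ * ‖x‖) ≤ ‖y 0‖ := by rw [hyi]; nlinarith
    have hρx' : ‖x‖ / 3 ≤ ρ * ‖x‖ := by nlinarith
    have := norm_coord_le x' 0
    refine ⟨⟨?_, ?_⟩, ?_⟩ <;> linarith

end Crest.Agent.R123
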