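import Crest.Agent.R123.SphDeg
import Crest.Agent.R123.Henon
import Crest.Agent.R123.Fiber
import Crest.Agent.R123.Entropy
import Crest.Agent.R123.Collapse

/-! The global map on `S¹ × S² × S² × S²`. -/

set_option autoImplicit false

noncomputable section

namespace Crest.Agent.R123

open Set Filter Topology
open scoped Manifold ContDiff

attribute [local instance] finrank_real_complex_fact'

/-- The manifold. -/
abbrev MM : Type := Circle × S2 × S2 × S2

/-- Its model with corners. -/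
abbrev IM := (𝓡 1).prod ((𝓡 2).prod ((𝓡 2).prod (𝓡 2)))

/-- Fibre coordinates. -/
def zc (x : MM) : E3 := mk3 (pc x.2.1) (pc x.2.2.1 / 8) (pc x.2.2.2 / 8)

/-- The data of the construction. -/
structure Data (F : ℂ × E3 → E3) (J : ℂ → S2) : Prop where
  cF : ContDiff ℝ 1 F
  hF : ∀ q, F q = hen 1 q.2 ∨ (‖F q‖ ≤ 1 / 16 ∧ ‖q.2‖ ≤ 1 / 16)
  cJ : ContMDiff 𝓘(ℝ, ℂ) (𝓡 2) 1 J
  J1 : ∀ v, ‖v‖ ≤ 1 / 2 → pc (J v) = v ∧ hc (J v) < 0
  J2 : ∀ v, 1 ≤ ‖v‖ → J v = north
  J3 : ∀ v, ∃ c : ℝ, 0 ≤ c ∧ pc (J v) = c * v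
  J4 : ∀ v, hc (J v) < 0 → ‖pc (J v)‖ ≤ 1 / 2 → ‖v‖ ≤ 1 / 2
  J0 : J 0 = south

/-- Cutoff of the second and third coordinates. -/
def cut (w : E3) (i : Fin 3) : ℂ := (8 * cutA (‖w 0‖ ^ 2)) • w i

/-- From fibre coordinates to the manifold. -/
def emb (J : ℂ → S2) (φ : Circle) (w : E3) : MM := (φ, J (w 0), J (cut w 1), J (cut w 2))

/-- The attracting circle. -/
def sink (φ : Circle) : MM := (φ, north, south, south)

/-- The saddle circle. -/
def sad (φ : Circle) : MM := (φ, south, south, south)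

/-- The global map. -/
def ff (F : ℂ × E3 → E3) (J : ℂ → S2) (x : MM) : MM :=
  if hc x.2.1 ≤ 0 then emb J (x.1 * rot) (F (x.1, zc x)) else sink (x.1 * rot)

variable {F : ℂ × E3 → E3} {J : ℂ → S2}

lemma norm_zc_1 (x : MM) : ‖zc x 1‖ ≤ 1 / 8 := by
  have := norm_pc_le x.2.2.1
  simp only [zc, mk3_1, norm_div, Complex.norm_ofNat]
  linarith

lemma norm_zc_2 (x : MM) : ‖zc x 2‖ ≤ 1 / 8 := by
  have := norm_pc_le x.2.2.2
  simp only [zc, mk3_2, norm_div, Complex.norm_ofNat]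
  linarith

lemma norm_zc_le (x : MM) : ‖zc x‖ ≤ ‖pc x.2.1‖ + 1 / 4 := by
  have := norm_le_sum (zc x)
  have e : zc x 0 = pc x.2.1 := rfl
  rw [e] at this
  linarith [norm_zc_1 x, norm_zc_2 x]

lemma Data.emb_eq_sink (D : Data F J) (x : MM) (hx : 1 / 2 ≤ ‖pc x.2.1‖) (φ : Circle) :
    emb J φ (F (x.1, zc x)) = sink φ := by
  have e : ‖zc x 0‖ = ‖pc x.2.1‖ := rfl
  have h0 := norm_coord_le (zc x) 0
  rcases D.hF (x.1, zc x) with h | h
  swap
  · have := h.2
    simp only at this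
    linarith
  have h1 := hen_big (zc x) ⟨by linarith [norm_zc_1 x], by linarith [norm_zc_2 x]⟩
  have h2 : 1 ≤ ‖F (x.1, zc x) 0‖ := by rw [h]; linarith
  have h3 : cutA (‖F (x.1, zc x) 0‖ ^ 2) = 0 := cutA_zero (by nlinarith)
  simp only [emb, sink, cut, h3, D.J2 _ h2, mul_zero, zero_smul, D.J0]

lemma Data.ff_eq_sink (D : Data F J) (x : MM) (hx : 0 < hc x.2.1 ∨ 1 / 2 ≤ ‖pc x.2.1‖) :
    ff F J x = sink (x.1 * rot) := by
  unfold ff
  split_ifs with h
  · exact D.emb_eq_sink x (hx.resolve_left (not_lt.2 h)) _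
  · rfl

lemma contMDiff_zc : ContMDiff IM 𝓘(ℝ, E3) 1 zc := by
  have c : ContDiff ℝ 1 (fun t : ℂ × ℂ × ℂ => mk3 t.1 (t.2.1 / 8) (t.2.2 / 8)) :=
    contDiff_iff_contDiffAt.2 fun t => contDiffAt_mk3 (by fun_prop) (by fun_prop) (by fun_prop)
  exact c.comp_contMDiff ((contMDiff_pc.comp contMDiff_snd.fst).prodMk_space
    ((contMDiff_pc.comp contMDiff_snd.snd.fst).prodMk_space
      (contMDiff_pc.comp contMDiff_snd.snd.snd)))

lemma contDiff_cut (i : Fin 3) : ContDiff ℝ 1 (fun w => cut w i) := by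
  have c : ∀ j : Fin 3, ContDiff ℝ 1 (fun w : E3 => w j) := fun j =>
    contDiff_iff_contDiffAt.2 fun w => contDiffAt_coord contDiffAt_id j
  exact (contDiff_const.mul (contDiff_cutA.comp ((c 0).norm_sq ℝ))).smul (c i)

lemma Data.contMDiff (D : Data F J) : ContMDiff IM IM 1 (ff F J) := by
  have c1 : ContMDiff IM (𝓡 1) 1 (fun x : MM => x.1 * rot) := contMDiff_fst.mul contMDiff_const
  have c2 : ContMDiff IM IM 1 (fun x : MM => sink (x.1 * rot)) := c1.prodMk contMDiff_const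
  have c0 : ContMDiff (𝓡 1) 𝓘(ℝ, ℂ) 1 (fun φ : Circle => (φ : ℂ)) :=
    contMDiff_coe_sphere (E := ℂ) (n := 1)
  have c3 : ContMDiff IM 𝓘(ℝ, E3) 1 (fun x : MM => F (x.1, zc x)) :=
    D.cF.comp_contMDiff ((c0.comp contMDiff_fst).prodMk_space contMDiff_zc)
  have c : ContDiff ℝ 1 (fun w : E3 => w 0) :=
    contDiff_iff_contDiffAt.2 fun w => contDiffAt_coord contDiffAt_id 0
  have c4 : ContMDiff IM IM 1 (fun x : MM => emb J (x.1 * rot) (F (x.1, zc x))) :=
    c1.prodMk ((D.cJ.comp (c.comp_contMDiff c3)).prodMk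
      ((D.cJ.comp ((contDiff_cut 1).comp_contMDiff c3)).prodMk
        (D.cJ.comp ((contDiff_cut 2).comp_contMDiff c3))))
  have ch : Continuous fun x : MM => hc x.2.1 := by fun_prop
  intro x
  rcases lt_or_ge (hc x.2.1) 0 with h | h
  · refine (c4 x).congr_of_eventuallyEq ?_
    filter_upwards [ch.continuousAt.eventually (Iio_mem_nhds h)] with y hy
    exact if_pos (le_of_lt hy)
  · refine (c2 x).congr_of_eventuallyEq ?_
    filter_upwards [ch.continuousAt.eventually (Ioi_mem_nhds (show -1 / 2 < hc x.2.1 by linarith))]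
      with y hy
    refine D.ff_eq_sink y ?_
    by_contra hcon
    rw [not_or, not_lt, not_le] at hcon
    have h1 := pc_hc y.2.1
    have h2 : -1 / 2 < hc y.2.1 := hy
    nlinarith [norm_nonneg (pc y.2.1), hcon.1, hcon.2]

lemma Data.small (D : Data F J) (x : MM) (φ : ℂ) :
    ‖F (φ, zc x) 1‖ ≤ 1 / 16 ∧ ‖F (φ, zc x) 2‖ ≤ 1 / 16 := by
  rcases D.hF (φ, zc x) with h | h
  · rw [h]
    obtain ⟨a, b⟩ := hen_small (zc x)
    have := norm_zc_le x
    have := norm_pc_le x.2.1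
    constructor <;> linarith
  · exact ⟨(norm_coord_le _ _).trans h.1, (norm_coord_le _ _).trans h.1⟩

lemma norm_cut_le {w : E3} {i : Fin 3} (h : ‖w i‖ ≤ 1 / 16) : ‖cut w i‖ ≤ 1 / 2 := by
  have h0 := cutA_nonneg (‖w 0‖ ^ 2)
  have h1 := cutA_le_one (‖w 0‖ ^ 2)
  rw [cut, norm_smul, Real.norm_of_nonneg (by linarith)]
  nlinarith [norm_nonneg (w i)]

lemma ff_fst (x : MM) : (ff F J x).1 = x.1 * rot := by
  unfold ff
  split_ifs <;> rfl

theorem Data.homotopic (D : Data F J) :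
    let i : C(S2, MM) := ⟨fun x => (1, x, south, south), by fun_prop⟩
    ((⟨ff F J, D.contMDiff.continuous⟩ : C(MM, MM)).comp i).Homotopic (i.comp dblS) := by
  intro i
  set g := (⟨ff F J, D.contMDiff.continuous⟩ : C(MM, MM)).comp i with hg
  have hz : ∀ x, zc (i x) = mk3 (pc x) 0 0 := fun x => by simp [zc, i]
  let g1 : C(S2, S2) := ⟨fun x => (g x).2.1, by fun_prop⟩
  let g2 : C(S2, S2) := ⟨fun x => (g x).2.2.1, by fun_prop⟩
  let g3 : C(S2, S2) := ⟨fun x => (g x).2.2.2, by fun_prop⟩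
  obtain ⟨H0⟩ : (ContinuousMap.const S2 (1 * rot)).Homotopic (ContinuousMap.const S2 1) :=
    ⟨(PathConnectedSpace.somePath _ _).toHomotopyConst⟩
  obtain ⟨H1⟩ : g1.Homotopic dblS := by
    refine homotopic_of_ne_neg _ _ fun x ⟨h1, h2⟩ => ?_
    change pc (ff F J (i x)).2.1 = -dbl (pc x) at h1
    change hc (ff F J (i x)).2.1 = -hc x at h2
    unfold ff at h1 h2
    have e : (i x).2.1 = x := rfl
    rw [e] at h1 h2
    split_ifs at h1 h2 with h
    swap
    · simp only [sink, hc_north] at h2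
      linarith
    simp only [emb] at h1 h2
    have key : ¬ ‖F ((i x).1, zc (i x)) 0‖ ≤ 1 / 2 := fun hh => by linarith [(D.J1 _ hh).2]
    rcases D.hF ((i x).1, zc (i x)) with h3 | h3
    swap
    · exact key (by linarith [norm_coord_le (F ((i x).1, zc (i x))) 0, h3.1])
    rw [h3, hz] at key h1
    simp only at key h1
    by_cases hp : pc x = 0
    · apply key
      have : mk3 (pc x) 0 0 = 0 := by rw [hp]; apply E3_ext <;> simp
      rw [this, iso_hen.hom.zero]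
      simp
    obtain ⟨c, hc, e1⟩ := hen_axis (pc x) hp
    obtain ⟨c', hc', e2⟩ := D.J3 (hen 1 (mk3 (pc x) 0 0) 0)
    rw [e2, e1, dbl] at h1
    have hn : 0 < ‖pc x‖ := norm_pos_iff.2 hp
    have e3 : ((c' * c + ‖pc x‖⁻¹ : ℝ) : ℂ) * pc x ^ 2 = 0 := by
      push_cast
      rw [add_mul, mul_assoc, h1]
      ring
    rcases mul_eq_zero.1 e3 with e4 | e4
    · have : 0 < c' * c + ‖pc x‖⁻¹ := by positivity
      exact this.ne' (by exact_mod_cast e4)
    · exact hp (pow_eq_zero_iff two_ne_zero |>.1 e4)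
  obtain ⟨H2⟩ : g2.Homotopic (ContinuousMap.const S2 south) := by
    refine homotopic_of_ne_neg _ _ fun x ⟨_, h2⟩ => ?_
    change hc (ff F J (i x)).2.2.1 = -hc south at h2
    unfold ff at h2
    split_ifs at h2 with h
    · have := (D.J1 _ (norm_cut_le (D.small (i x) (i x).1).1)).2
      simp only [emb, hc_south] at h2
      linarith
    · simp only [sink, hc_south] at h2
      linarith
  obtain ⟨H3⟩ : g3.Homotopic (ContinuousMap.const S2 south) := by
    refine homotopic_of_ne_neg _ _ fun x ⟨_, h2⟩ => ?_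
    change hc (ff F J (i x)).2.2.2 = -hc south at h2
    unfold ff at h2
    split_ifs at h2 with h
    · have := (D.J1 _ (norm_cut_le (D.small (i x) (i x).1).2)).2
      simp only [emb, hc_south] at h2
      linarith
    · simp only [sink, hc_south] at h2
      linarith
  refine ⟨(H0.prod (H1.prod (H2.prod H3))).cast ?_ ?_⟩
  · ext1 x
    exact Prod.ext (ff_fst (F := F) (J := J) (i x)).symm rfl
  · rfl

/-- The inner region. -/
def Inn (x : MM) : Prop := hc x.2.1 < 0 ∧ ‖pc x.2.1‖ ≤ 1 / 2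

lemma Data.ff_of_not_inn (D : Data F J) {x : MM} (hx : ¬ Inn x) :
    ff F J x = sink (x.1 * rot) := by
  refine D.ff_eq_sink x ?_
  by_contra hcon
  rw [not_or, not_lt, not_le] at hcon
  refine hx ⟨lt_of_le_of_ne hcon.1 fun h => ?_, hcon.2.le⟩
  have h1 := pc_hc x.2.1
  rw [h] at h1
  nlinarith [norm_nonneg (pc x.2.1), hcon.2]

lemma not_inn_sink (φ : Circle) : ¬ Inn (sink φ) := fun h => by
  have := h.1
  simp only [sink, hc_north] at this
  linarith

lemma Data.of_inn_ff (D : Data F J) {x : MM} (hx : Inn (ff F J x)) :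
    zc (ff F J x) = F (x.1, zc x) ∧ ff F J x = emb J (x.1 * rot) (F (x.1, zc x)) := by
  have e : ff F J x = emb J (x.1 * rot) (F (x.1, zc x)) := by
    by_cases h : hc x.2.1 ≤ 0
    · exact if_pos h
    · exact absurd (by rwa [ff, if_neg h] at hx) (not_inn_sink _)
  refine ⟨?_, e⟩
  rw [e] at hx ⊢
  have h1 := D.J4 _ hx.1 hx.2
  obtain ⟨s1, s2⟩ := D.small x x.1
  set w := F (x.1, zc x)
  have h2 : cutA (‖w 0‖ ^ 2) = 1 := cutA_one (by nlinarith [norm_nonneg (w 0)])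
  apply E3_ext
  · exact (D.J1 _ h1).1
  · simp only [zc, emb, mk3_1, (D.J1 _ (norm_cut_le s1)).1]
    simp [cut, h2]
  · simp only [zc, emb, mk3_2, (D.J1 _ (norm_cut_le s2)).1]
    simp [cut, h2]

lemma dist_mul_circle (a b c : Circle) : dist (a * c) (b * c) = dist a b := by
  change dist ((a * c : Circle) : ℂ) ((b * c : Circle) : ℂ) = dist (a : ℂ) (b : ℂ)
  rw [dist_eq_norm, dist_eq_norm, Circle.coe_mul, Circle.coe_mul, ← sub_mul, norm_mul,
    Circle.norm_coe, mul_one]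

lemma Data.exists_radius (D : Data F J) {ε : ℝ} (hε : 0 < ε) : ∃ r : ℝ, 0 < r ∧
    ∀ (φ ψ : Circle) (w : E3), ‖w‖ < r → dist φ ψ < ε → dist (emb J φ w) (sad ψ) < ε := by
  have cJ := D.cJ.continuous
  have c0 : Continuous fun w : E3 => w 0 := by fun_prop
  have c : Continuous fun w : E3 => (J (w 0), J (cut w 1), J (cut w 2)) :=
    (cJ.comp c0).prodMk ((cJ.comp (contDiff_cut 1).continuous).prodMk
      (cJ.comp (contDiff_cut 2).continuous))
  obtain ⟨r, hr, h⟩ := Metric.continuousAt_iff.1 (c.continuousAt (x := 0)) ε hε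
  refine ⟨r, hr, fun φ ψ w hw hd => ?_⟩
  have := h (x := w) (by simpa using hw)
  simp only [cut, PiLp.zero_apply, smul_zero, D.J0] at this
  rw [Prod.dist_eq]
  exact max_lt hd this

theorem Data.entropy (D : Data F J) {y : ℂ × E3 → E3}
    (h1 : ∀ φ z, ‖φ‖ = 1 → ∃ ρ : ℝ, 1 / 3 ≤ ρ ∧ ρ ≤ 1 ∧
      ‖y (φ * rot, F (φ, z)) - ρ • hen 1 (y (φ, z))‖ ≤ 1 / 20 * ‖ρ • hen 1 (y (φ, z))‖)
    (h2 : ∀ r : ℝ, 0 < r → ∃ m M : ℝ, 0 < m ∧ ∀ φ z, ‖φ‖ = 1 → r ≤ ‖z‖ → ‖z‖ ≤ 1 →
      m ≤ ‖y (φ, z)‖ ∧ ‖y (φ, z)‖ ≤ M) :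
    Dynamics.coverEntropy (ff F J) univ = 0 := by
  classical
  have : Nonempty MM := ⟨sink 1⟩
  refine coverEntropy_eq_zero _ fun ε hε => ?_
  obtain ⟨r, hr, hr'⟩ := D.exists_radius hε
  obtain ⟨m, M, hm, hmM⟩ := h2 r hr
  obtain ⟨B, hB⟩ := exists_exceptions Cone M hm
  obtain ⟨t, -, ht, hc⟩ := finite_cover_balls_of_compact (isCompact_univ (X := Circle)) hε
  refine ⟨ht.toFinset.image (fun c k => sad (c * rot ^ k)) ∪
    ht.toFinset.image (fun c k => sink (c * rot ^ k)), B + 2, fun n x => ?_⟩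
  obtain ⟨c, hct, hcx⟩ : ∃ c ∈ t, dist x.1 c < ε := by simpa using hc (mem_univ x.1)
  set f := ff F J with hf
  have p1 : ∀ k, (f^[k] x).1 = x.1 * rot ^ k := by
    intro k
    induction k with
    | zero => simp
    | succ k ih => rw [Function.iterate_succ_apply', hf, ff_fst, ← hf, ih, pow_succ, mul_assoc]
  have hex : ∃ k, k = n ∨ ¬ Inn (f^[k] x) := ⟨n, Or.inl rfl⟩
  set τ := Nat.find hex with hτ
  have p2 : ∀ k < τ, Inn (f^[k] x) := fun k hk => by
    have := Nat.find_min hex hk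
    rw [not_or, not_not] at this
    exact this.2
  obtain ⟨K, hK, hK'⟩ := hB (fun k => y ((f^[k] x).1, zc (f^[k] x))) τ (by
    intro k hk
    have a := p2 _ hk
    rw [Function.iterate_succ_apply'] at a ⊢
    obtain ⟨ρ, r1, r2, r3⟩ := h1 (f^[k] x).1 (zc (f^[k] x)) (Circle.norm_coe _)
    rw [(D.of_inn_ff a).1, hf, ff_fst, ← hf, Circle.coe_mul]
    exact hen_robust _ _ r1 r2 r3)
  refine ⟨_, Finset.mem_union_left _ (Finset.mem_image_of_mem _ (ht.mem_toFinset.2 hct)),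
    _, Finset.mem_union_right _ (Finset.mem_image_of_mem _ (ht.mem_toFinset.2 hct)),
    τ, Nat.find_min' hex (Or.inl rfl), insert 0 (insert τ K), ?_, fun k hk hkK => ?_⟩
  · exact (Finset.card_insert_le _ _).trans (Nat.succ_le_succ
      ((Finset.card_insert_le _ _).trans (Nat.succ_le_succ hK)))
  simp only [Finset.mem_insert, not_or] at hkK
  obtain ⟨k0, k1, k2⟩ := hkK
  obtain ⟨j, rfl⟩ := Nat.exists_eq_succ_of_ne_zero k0
  have hd : dist ((f^[j] x).1 * rot) (c * rot ^ j.succ) < ε := by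
    rwa [p1, mul_assoc, ← pow_succ, dist_mul_circle]
  split_ifs with hlt
  · have a := p2 _ hlt
    have b : ‖zc (f^[j.succ] x)‖ < r := by
      by_contra hcon
      obtain ⟨u, v⟩ := hmM (f^[j.succ] x).1 _ (Circle.norm_coe _) (not_lt.1 hcon)
        (by linarith [norm_zc_le (f^[j.succ] x), a.2])
      exact k2 (hK' _ hlt u v)
    rw [Function.iterate_succ_apply'] at a b ⊢
    obtain ⟨e1, e2⟩ := D.of_inn_ff a
    rw [e1] at b
    have e3 : f (f^[j] x) = _ := e2
    rw [e3]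
    exact hr' _ _ _ b hd
  · have hτj : τ ≤ j := by omega
    have a : ∀ i, τ ≤ i → i ≤ j → ¬ Inn (f^[i] x) := by
      intro i hi
      induction i, hi using Nat.le_induction with
      | base => exact fun _ => (Nat.find_spec hex).resolve_left (by omega)
      | succ i _ ih =>
        intro hij
        rw [Function.iterate_succ_apply', hf, D.ff_of_not_inn (ih (by omega))]
        exact not_inn_sink _
    rw [Function.iterate_succ_apply', hf, D.ff_of_not_inn (a j hτj le_rfl), Prod.dist_eq]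
    exact max_lt hd (by simpa [sink] using hε)

theorem exists_map : ∃ f : C(MM, MM), ContMDiff IM IM 1 f ∧
    Dynamics.coverEntropy f univ = 0 ∧
    Module.End.HasEigenvalue
      (((AlgebraicTopology.singularHomologyFunctor (ModuleCat.{0} ℝ) 2).obj
        (ModuleCat.of ℝ ℝ)).map (TopCat.ofHom f)).hom (2 : ℝ) := by
  obtain ⟨F, y, cF, hF, h1, h2⟩ := exists_fiber iso_hen (δ := 1 / 20) (r₀ := 1 / 16)
    (by norm_num) (by norm_num)
  obtain ⟨J, cJ, J1, J2, J3, J4, J0⟩ := exists_collapse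
  have D : Data F J := ⟨cF, hF, cJ, J1, J2, J3, J4, J0⟩
  refine ⟨⟨ff F J, D.contMDiff.continuous⟩, D.contMDiff, D.entropy h1 h2, ?_⟩
  exact hasEigenvalue_two _ ⟨fun x => x.2.1, by fun_prop⟩ (fun _ => rfl) _ D.homotopic

end Crest.Agent.R123
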