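import Mathlib

/-! Families of positively homogeneous maps that are `C¹` away from the origin. -/

set_option autoImplicit false
set_option linter.unusedSectionVars false

noncomputable section

namespace Crest.Agent.R123

open Set Filter Topology

variable {P Q E : Type*} [NormedAddCommGroup P] [NormedSpace ℝ P] [NormedAddCommGroup Q]
  [NormedSpace ℝ Q] [NormedAddCommGroup E] [NormedSpace ℝ E]

/-- A family of positively homogeneous self-maps, jointly `C¹` away from the origin. -/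
structure Hom (Φ : P → E → E) : Prop where
  zero : ∀ p, Φ p 0 = 0
  ne : ∀ p z, z ≠ 0 → Φ p z ≠ 0
  smul : ∀ p (c : ℝ) z, 0 < c → Φ p (c • z) = c • Φ p z
  cd : ∀ p z, z ≠ 0 → ContDiffAt ℝ 1 (fun q : P × E => Φ q.1 q.2) (p, z)

lemma Hom.id : Hom (fun (_ : P) (z : E) => z) :=
  ⟨fun _ => rfl, fun _ _ h => h, fun _ _ _ _ => rfl, fun _ _ _ => contDiffAt_snd⟩

lemma Hom.comp {Φ Ψ : P → E → E} (hΦ : Hom Φ) (hΨ : Hom Ψ) :
    Hom (fun p z => Φ p (Ψ p z)) where
  zero p := by rw [hΨ.zero, hΦ.zero]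
  ne p z hz := hΦ.ne p _ (hΨ.ne p z hz)
  smul p c z hc := by rw [hΨ.smul p c z hc, hΦ.smul p c _ hc]
  cd p z hz := by
    have h1 : ContDiffAt ℝ 1 (fun q : P × E => (q.1, Ψ q.1 q.2)) (p, z) :=
      contDiffAt_fst.prodMk (hΨ.cd p z hz)
    exact ContDiffAt.comp (g := fun q : P × E => Φ q.1 q.2) (p, z) (hΦ.cd p _ (hΨ.ne p z hz)) h1

lemma Hom.reparam {Φ : P → E → E} (hΦ : Hom Φ) {u : Q → P} (hu : ContDiff ℝ 1 u) :
    Hom (fun q => Φ (u q)) where
  zero _ := hΦ.zero _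
  ne _ := hΦ.ne _
  smul _ := hΦ.smul _
  cd p z hz := by
    have h1 : ContDiffAt ℝ 1 (fun q : Q × E => (u q.1, q.2)) (p, z) :=
      (hu.contDiffAt.comp (p, z) contDiffAt_fst).prodMk contDiffAt_snd
    exact ContDiffAt.comp (g := fun q : P × E => Φ q.1 q.2) (p, z) (hΦ.cd _ _ hz) h1

lemma Hom.expSmul {Φ : P → E → E} (hΦ : Hom Φ) {b : P → ℝ} (hb : ContDiff ℝ 1 b) :
    Hom (fun p z => Real.exp (b p) • Φ p z) where
  zero p := by rw [hΦ.zero, smul_zero]
  ne p z hz := smul_ne_zero (Real.exp_ne_zero _) (hΦ.ne p z hz)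
  smul p c z hc := by rw [hΦ.smul p c z hc, smul_comm]
  cd p z hz := by
    refine ContDiffAt.smul ?_ (hΦ.cd p z hz)
    exact (hb.contDiffAt.comp (p, z) contDiffAt_fst).exp

lemma Hom.of_locally {Φ : P → E → E}
    (h : ∀ p₀, ∃ Ψ : P → E → E, Hom Ψ ∧ ∀ᶠ p in 𝓝 p₀, Φ p = Ψ p) : Hom Φ where
  zero p := by
    obtain ⟨Ψ, hΨ, e⟩ := h p
    rw [e.self_of_nhds, hΨ.zero]
  ne p z hz := by
    obtain ⟨Ψ, hΨ, e⟩ := h p
    rw [e.self_of_nhds]
    exact hΨ.ne p z hz
  smul p c z hc := by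
    obtain ⟨Ψ, hΨ, e⟩ := h p
    rw [e.self_of_nhds]
    exact hΨ.smul p c z hc
  cd p z hz := by
    obtain ⟨Ψ, hΨ, e⟩ := h p
    refine (hΨ.cd p z hz).congr_of_eventuallyEq ?_
    have : ∀ᶠ q : P × E in 𝓝 (p, z), Φ q.1 = Ψ q.1 :=
      (continuous_fst.tendsto (p, z)).eventually e
    filter_upwards [this] with q hq
    rw [hq]

lemma Hom.eq_norm_smul {Φ : P → E → E} (hΦ : Hom Φ) (p : P) {z : E} (hz : z ≠ 0) :
    Φ p z = ‖z‖ • Φ p (‖z‖⁻¹ • z) := by
  rw [← hΦ.smul p _ _ (norm_pos_iff.2 hz), smul_smul, mul_inv_cancel₀ (norm_ne_zero_iff.2 hz),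
    one_smul]

lemma inv_smul_mem_sphere {z : E} (hz : z ≠ 0) : ‖z‖⁻¹ • z ∈ Metric.sphere (0 : E) 1 := by
  rw [mem_sphere_zero_iff_norm, norm_smul, norm_inv, norm_norm,
    inv_mul_cancel₀ (norm_ne_zero_iff.2 hz)]

lemma ne_of_mem_sphere {z : E} (hz : z ∈ Metric.sphere (0 : E) 1) : z ≠ 0 := by
  rintro rfl
  simp at hz

lemma Hom.continuousOn {Φ : P → E → E} (hΦ : Hom Φ) (K : Set P) :
    ContinuousOn (fun q : P × E => Φ q.1 q.2) (K ×ˢ Metric.sphere 0 1) :=
  fun q hq => (hΦ.cd q.1 q.2 (ne_of_mem_sphere hq.2)).continuousAt.continuousWithinAt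

variable [ProperSpace E]

lemma Hom.exists_bound {Φ : P → E → E} (hΦ : Hom Φ) {K : Set P} (hK : IsCompact K) :
    ∃ L : ℝ, 1 ≤ L ∧ ∀ p ∈ K, ∀ z, ‖Φ p z‖ ≤ L * ‖z‖ ∧ ‖z‖ ≤ L * ‖Φ p z‖ := by
  have hc := hK.prod (isCompact_sphere (0 : E) 1)
  obtain ⟨L1, h1⟩ := hc.exists_bound_of_continuousOn (hΦ.continuousOn K)
  have hc2 : ContinuousOn (fun q : P × E => ‖Φ q.1 q.2‖⁻¹) (K ×ˢ Metric.sphere 0 1) :=
    (hΦ.continuousOn K).norm.inv₀ fun q hq =>
      norm_ne_zero_iff.2 (hΦ.ne _ _ (ne_of_mem_sphere hq.2))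
  obtain ⟨L2, h2⟩ := hc.exists_bound_of_continuousOn hc2
  refine ⟨max 1 (max L1 L2), le_max_left _ _, fun p hp z => ?_⟩
  by_cases hz : z = 0
  · simp [hz, hΦ.zero]
  have a1 := h1 (p, _) ⟨hp, inv_smul_mem_sphere hz⟩
  have a2 := h2 (p, _) ⟨hp, inv_smul_mem_sphere hz⟩
  have a3 : 0 < ‖Φ p (‖z‖⁻¹ • z)‖ :=
    norm_pos_iff.2 (hΦ.ne _ _ (ne_of_mem_sphere (inv_smul_mem_sphere hz)))
  simp only [norm_inv, norm_norm] at a1 a2
  rw [hΦ.eq_norm_smul p hz, norm_smul, norm_norm]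
  have b1 : L1 ≤ max 1 (max L1 L2) := (le_max_left _ _).trans (le_max_right _ _)
  have b2 : L2 ≤ max 1 (max L1 L2) := (le_max_right _ _).trans (le_max_right _ _)
  have hn := norm_nonneg z
  constructor
  · nlinarith
  · have : 1 ≤ max 1 (max L1 L2) * ‖Φ p (‖z‖⁻¹ • z)‖ := by
      rw [← div_le_iff₀ a3, one_div]
      exact a2.trans b2
    nlinarith

lemma Hom.unif {Φ : P → E → E} (hΦ : Hom Φ) {K : Set P} (hK : IsCompact K) {δ : ℝ}
    (hδ : 0 < δ) : ∃ η : ℝ, 0 < η ∧ ∀ p ∈ K, ∀ p' ∈ K, dist p p' < η → ∀ z,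
      ‖Φ p' z - Φ p z‖ ≤ δ * ‖z‖ := by
  have hc := hK.prod (isCompact_sphere (0 : E) 1)
  have hu := hc.uniformContinuousOn_of_continuous (hΦ.continuousOn K)
  rw [Metric.uniformContinuousOn_iff] at hu
  obtain ⟨η, hη, h⟩ := hu δ hδ
  refine ⟨η, hη, fun p hp p' hp' hd z => ?_⟩
  by_cases hz : z = 0
  · simp [hz, hΦ.zero]
  have := h (p', _) ⟨hp', inv_smul_mem_sphere hz⟩ (p, _) ⟨hp, inv_smul_mem_sphere hz⟩
    (by rwa [Prod.dist_eq, dist_self, max_eq_left dist_nonneg, dist_comm])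
  rw [dist_eq_norm] at this
  rw [hΦ.eq_norm_smul p hz, hΦ.eq_norm_smul p' hz, ← smul_sub, norm_smul, norm_norm, mul_comm]
  exact mul_le_mul_of_nonneg_right this.le (norm_nonneg _)

lemma Hom.exists_fderiv_bound {Φ : P → E → E} (hΦ : Hom Φ) {K : Set P} (hK : IsCompact K) :
    ∃ L : ℝ, 1 ≤ L ∧ ∀ p ∈ K, ∀ z, z ≠ 0 → ∀ v w,
      ‖fderiv ℝ (fun q : P × E => Φ q.1 q.2) (p, z) (v, w)‖ ≤ L * (‖z‖ * ‖v‖ + ‖w‖) := by
  have hc := hK.prod (isCompact_sphere (0 : E) 1)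
  have hcont : ContinuousOn (fderiv ℝ (fun q : P × E => Φ q.1 q.2)) (K ×ˢ Metric.sphere 0 1) :=
    fun q hq => ((hΦ.cd q.1 q.2 (ne_of_mem_sphere hq.2)).continuousAt_fderiv
      one_ne_zero).continuousWithinAt
  obtain ⟨L, h1⟩ := hc.exists_bound_of_continuousOn hcont
  refine ⟨max 1 L, le_max_left _ _, fun p hp z hz v w => ?_⟩
  have hn : 0 < ‖z‖ := norm_pos_iff.2 hz
  have a1 := h1 (p, _) ⟨hp, inv_smul_mem_sphere hz⟩
  set c := ‖z‖ with hcdef
  have hd := ((hΦ.cd p _ (ne_of_mem_sphere (inv_smul_mem_sphere hz))).differentiableAt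
    one_ne_zero).hasFDerivAt
  set D := fderiv ℝ (fun q : P × E => Φ q.1 q.2) (p, c⁻¹ • z) with hD
  let A : P × E →L[ℝ] P × E :=
    (ContinuousLinearMap.fst ℝ P E).prod (c⁻¹ • ContinuousLinearMap.snd ℝ P E)
  have hA : HasFDerivAt (fun q : P × E => c • Φ (A q).1 (A q).2) (c • D.comp A) (p, z) :=
    (HasFDerivAt.comp (g := fun q : P × E => Φ q.1 q.2) (p, z) hd A.hasFDerivAt).const_smul c
  have he : (fun q : P × E => Φ q.1 q.2) = fun q : P × E => c • Φ (A q).1 (A q).2 := by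
    funext q
    change _ = c • Φ q.1 (c⁻¹ • q.2)
    rw [← hΦ.smul _ _ _ hn, smul_smul, mul_inv_cancel₀ hn.ne', one_smul]
  rw [he, hA.fderiv]
  change ‖c • D (v, c⁻¹ • w)‖ ≤ _
  rw [norm_smul, Real.norm_of_nonneg hn.le]
  have b1 : ‖D (v, c⁻¹ • w)‖ ≤ max 1 L * (‖v‖ + c⁻¹ * ‖w‖) := by
    refine (D.le_opNorm _).trans (mul_le_mul (a1.trans (le_max_right _ _)) ?_ (norm_nonneg _)
      (zero_le_one.trans (le_max_left _ _)))
    rw [Prod.norm_def, norm_smul, norm_inv, Real.norm_of_nonneg hn.le]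
    have : 0 ≤ c⁻¹ * ‖w‖ := by positivity
    exact max_le (by linarith) (by linarith [norm_nonneg v])
  calc c * ‖D (v, c⁻¹ • w)‖ ≤ c * (max 1 L * (‖v‖ + c⁻¹ * ‖w‖)) := by gcongr
    _ = _ := by field_simp

omit [ProperSpace E]

/-- Value and derivative of `f` are bounded by `C`. -/
structure Good (C : ℝ) (f : E → E) : Prop where
  ne : ∀ z, z ≠ 0 → f z ≠ 0
  val : ∀ z, ‖f z‖ ≤ C * ‖z‖
  diff : ∀ z, z ≠ 0 → DifferentiableAt ℝ f z
  der : ∀ z, z ≠ 0 → ‖fderiv ℝ f z‖ ≤ C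

lemma Good.id : Good 1 (fun z : E => z) :=
  ⟨fun _ h => h, fun _ => by simp, fun _ _ => differentiableAt_id, fun _ _ => by
    rw [fderiv_fun_id]; exact ContinuousLinearMap.norm_id_le⟩

lemma Good.mono {C C' : ℝ} {f : E → E} (h : Good C f) (hC : C ≤ C') : Good C' f :=
  ⟨h.ne, fun z => (h.val z).trans (by gcongr), h.diff, fun z hz => (h.der z hz).trans hC⟩

lemma Good.comp {C C' : ℝ} {f g : E → E} (hf : Good C f) (hg : Good C' g) (hC : 0 ≤ C) :
    Good (C * C') (fun z => f (g z)) where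
  ne z hz := hf.ne _ (hg.ne z hz)
  val z := (hf.val _).trans (by rw [mul_assoc]; exact mul_le_mul_of_nonneg_left (hg.val z) hC)
  diff z hz := (hf.diff _ (hg.ne z hz)).comp z (hg.diff z hz)
  der z hz := by
    rw [fderiv_fun_comp z (hf.diff _ (hg.ne z hz)) (hg.diff z hz)]
    exact (ContinuousLinearMap.opNorm_comp_le _ _).trans
      (mul_le_mul (hf.der _ (hg.ne z hz)) (hg.der z hz) (norm_nonneg _) hC)

lemma Good.expSmul {C : ℝ} {f : E → E} (hf : Good C f) (b : ℝ) :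
    Good (Real.exp b * C) (fun z => Real.exp b • f z) where
  ne z hz := smul_ne_zero (Real.exp_ne_zero _) (hf.ne z hz)
  val z := by
    rw [norm_smul, Real.norm_of_nonneg (Real.exp_pos b).le, mul_assoc]
    exact mul_le_mul_of_nonneg_left (hf.val z) (Real.exp_pos b).le
  diff z hz := (hf.diff z hz).const_smul _
  der z hz := by
    rw [fderiv_fun_const_smul (hf.diff z hz), norm_smul, Real.norm_of_nonneg (Real.exp_pos b).le]
    exact mul_le_mul_of_nonneg_left (hf.der z hz) (Real.exp_pos b).le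

lemma Hom.fderiv_snd {Φ : P → E → E} (hΦ : Hom Φ) (p : P) {z : E} (hz : z ≠ 0) :
    HasFDerivAt (Φ p) ((fderiv ℝ (fun q : P × E => Φ q.1 q.2) (p, z)).comp
      (ContinuousLinearMap.inr ℝ P E)) z :=
  HasFDerivAt.comp (g := fun q : P × E => Φ q.1 q.2) (f := fun z => (p, z)) z
    ((hΦ.cd p z hz).differentiableAt one_ne_zero).hasFDerivAt (hasFDerivAt_prodMk_right p z)

lemma Hom.exists_good [ProperSpace E] {Φ : P → E → E} (hΦ : Hom Φ) {K : Set P}
    (hK : IsCompact K) : ∃ C : ℝ, 1 ≤ C ∧ ∀ p ∈ K, Good C (Φ p) := by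
  obtain ⟨L1, h1, H1⟩ := hΦ.exists_bound hK
  obtain ⟨L2, h2, H2⟩ := hΦ.exists_fderiv_bound hK
  refine ⟨max L1 L2, h1.trans (le_max_left _ _), fun p hp => ⟨hΦ.ne p, fun z => ?_,
    fun z hz => (hΦ.fderiv_snd p hz).differentiableAt, fun z hz => ?_⟩⟩
  · exact (H1 p hp z).1.trans (by gcongr; exact le_max_left _ _)
  · rw [(hΦ.fderiv_snd p hz).fderiv]
    refine ContinuousLinearMap.opNorm_le_bound _ (by positivity) fun w => ?_
    have := H2 p hp z hz 0 w
    simp only [norm_zero, mul_zero, zero_add] at this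
    exact this.trans (by gcongr; exact le_max_right _ _)

/-- An isotopy from the identity through homogeneous homeomorphisms, with its inverse. -/
structure Iso (γ γ' : ℝ → E → E) : Prop where
  hom : Hom γ
  hom' : Hom γ'
  zero : ∀ z, γ 0 z = z
  left : ∀ t z, γ' t (γ t z) = z
  right : ∀ t z, γ t (γ' t z) = z

lemma Iso.zero' {γ γ' : ℝ → E → E} (h : Iso γ γ') (z : E) : γ' 0 z = z := by
  conv_lhs => rw [← h.zero z]
  exact h.left 0 z

/-- Concatenated isotopy, finitely many steps. -/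
def catN (γ : ℝ → E → E) : ℕ → ℝ → E → E
  | 0, _, z => z
  | N + 1, t, z => γ (Real.smoothTransition t) (catN γ N (t - 1) z)

/-- Inverse of the concatenated isotopy. -/
def catN' (γ' : ℝ → E → E) : ℕ → ℝ → E → E
  | 0, _, z => z
  | N + 1, t, z => catN' γ' N (t - 1) (γ' (Real.smoothTransition t) z)

/-- Concatenated isotopy. -/
def cat (γ : ℝ → E → E) (t : ℝ) : E → E := catN γ ⌈t⌉₊ t

/-- Inverse of the concatenated isotopy. -/
def cat' (γ' : ℝ → E → E) (t : ℝ) : E → E := catN' γ' ⌈t⌉₊ t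

lemma catN_succ {γ : ℝ → E → E} (h0 : ∀ z, γ 0 z = z) (N : ℕ) :
    ∀ t : ℝ, t ≤ N → catN γ (N + 1) t = catN γ N t := by
  induction N with
  | zero =>
    intro t ht
    funext z
    simp only [catN]
    rw [Real.smoothTransition.zero_of_nonpos (by simpa using ht), h0]
  | succ N ih =>
    intro t ht
    funext z
    rw [catN, ih (t - 1) (by push_cast at ht; linarith), catN]

lemma catN'_succ {γ : ℝ → E → E} (h0 : ∀ z, γ 0 z = z) (N : ℕ) :
    ∀ t : ℝ, t ≤ N → catN' γ (N + 1) t = catN' γ N t := by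
  induction N with
  | zero =>
    intro t ht
    funext z
    simp only [catN']
    rw [Real.smoothTransition.zero_of_nonpos (by simpa using ht), h0]
  | succ N ih =>
    intro t ht
    funext z
    rw [catN', ih (t - 1) (by push_cast at ht; linarith), catN']

lemma cat_eq {γ : ℝ → E → E} (h0 : ∀ z, γ 0 z = z) {N : ℕ} {t : ℝ} (ht : t ≤ N) :
    cat γ t = catN γ N t := by
  have h : ⌈t⌉₊ ≤ N := Nat.ceil_le.2 ht
  induction N, h using Nat.le_induction with
  | base => rfl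
  | succ N hN ih =>
    have : t ≤ N := Nat.ceil_le.1 hN
    rw [catN_succ h0 N t this, ih this]

lemma cat'_eq {γ : ℝ → E → E} (h0 : ∀ z, γ 0 z = z) {N : ℕ} {t : ℝ} (ht : t ≤ N) :
    cat' γ t = catN' γ N t := by
  have h : ⌈t⌉₊ ≤ N := Nat.ceil_le.2 ht
  induction N, h using Nat.le_induction with
  | base => rfl
  | succ N hN ih =>
    have : t ≤ N := Nat.ceil_le.1 hN
    rw [catN'_succ h0 N t this, ih this]

lemma Hom.catN {γ : ℝ → E → E} (h : Hom γ) (N : ℕ) : Hom (catN γ N) := by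
  induction N with
  | zero => exact Hom.id
  | succ N ih =>
    exact (h.reparam Real.smoothTransition.contDiff).comp
      (ih.reparam (u := fun t : ℝ => t - 1) (by fun_prop))

lemma Hom.catN' {γ : ℝ → E → E} (h : Hom γ) (N : ℕ) : Hom (catN' γ N) := by
  induction N with
  | zero => exact Hom.id
  | succ N ih =>
    exact (ih.reparam (u := fun t : ℝ => t - 1) (by fun_prop)).comp
      (h.reparam Real.smoothTransition.contDiff)

lemma Iso.hom_cat {γ γ' : ℝ → E → E} (h : Iso γ γ') : Hom (cat γ) := by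
  refine Hom.of_locally fun t => ⟨_, h.hom.catN (⌈t⌉₊ + 1), ?_⟩
  have : t < (⌈t⌉₊ + 1 : ℕ) := by push_cast; linarith [Nat.le_ceil t]
  filter_upwards [Iio_mem_nhds this] with s hs
  exact cat_eq h.zero (le_of_lt hs)

lemma Iso.hom_cat' {γ γ' : ℝ → E → E} (h : Iso γ γ') : Hom (cat' γ') := by
  refine Hom.of_locally fun t => ⟨_, h.hom'.catN' (⌈t⌉₊ + 1), ?_⟩
  have : t < (⌈t⌉₊ + 1 : ℕ) := by push_cast; linarith [Nat.le_ceil t]
  filter_upwards [Iio_mem_nhds this] with s hs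
  exact cat'_eq h.zero' (le_of_lt hs)

lemma Iso.cat_cat' {γ γ' : ℝ → E → E} (h : Iso γ γ') (t : ℝ) (z : E) :
    cat γ t (cat' γ' t z) = z := by
  unfold cat cat'
  generalize ⌈t⌉₊ = N
  induction N generalizing t z with
  | zero => rfl
  | succ N ih => rw [catN, catN', ih, h.right]

lemma Iso.cat'_cat {γ γ' : ℝ → E → E} (h : Iso γ γ') (t : ℝ) (z : E) :
    cat' γ' t (cat γ t z) = z := by
  unfold cat cat'
  generalize ⌈t⌉₊ = N
  induction N generalizing t z with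
  | zero => rfl
  | succ N ih => rw [catN, catN', h.left, ih]

lemma cat_zero (γ : ℝ → E → E) (z : E) : cat γ 0 z = z := by simp [cat, catN]

lemma cat'_zero (γ : ℝ → E → E) (z : E) : cat' γ 0 z = z := by simp [cat', catN']

lemma cat_add_one (γ : ℝ → E → E) {t : ℝ} (ht : 0 ≤ t) (z : E) :
    cat γ (t + 1) z = γ 1 (cat γ t z) := by
  rw [cat, Nat.ceil_add_one ht, catN, Real.smoothTransition.one_of_one_le (by linarith),
    add_sub_cancel_right, cat]

lemma cat'_add_one (γ : ℝ → E → E) {t : ℝ} (ht : 0 ≤ t) (z : E) :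
    cat' γ (t + 1) z = cat' γ t (γ 1 z) := by
  rw [cat', Nat.ceil_add_one ht, catN', Real.smoothTransition.one_of_one_le (by linarith),
    add_sub_cancel_right, cat']

lemma good_catN {γ : ℝ → E → E} {c : ℝ} (h : ∀ t ∈ Icc (0 : ℝ) 1, Good (Real.exp c) (γ t))
    (N : ℕ) (t : ℝ) : Good (Real.exp (c * N)) (catN γ N t) := by
  induction N generalizing t with
  | zero =>
    simp only [Nat.cast_zero, mul_zero, Real.exp_zero]
    exact Good.id
  | succ N ih =>
    have := (h _ ⟨Real.smoothTransition.nonneg t, Real.smoothTransition.le_one t⟩).comp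
      (ih (t - 1)) (Real.exp_pos c).le
    rw [← Real.exp_add] at this
    refine Good.mono this (le_of_eq ?_)
    push_cast
    ring_nf

/-- The key bound: `γ_a⁻¹ ∘ γ_b` distorts at most exponentially in `b - a`. -/
lemma Iso.exists_good [ProperSpace E] {γ γ' : ℝ → E → E} (h : Iso γ γ') :
    ∃ c : ℝ, 0 ≤ c ∧ ∀ a b : ℝ, 0 ≤ a → a ≤ b →
      Good (Real.exp (c * (b - a + 3))) (fun z => cat' γ' a (cat γ b z)) := by
  obtain ⟨C, hC, H⟩ := h.hom.exists_good (isCompact_Icc (a := (0 : ℝ)) (b := 1))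
  obtain ⟨C', hC', H'⟩ := h.hom'.exists_good (isCompact_Icc (a := (0 : ℝ)) (b := 1))
  set c := max C C' with hc
  have hc0 : 0 ≤ c := zero_le_one.trans (hC.trans (le_max_left _ _))
  have e1 : c ≤ Real.exp c := by linarith [Real.add_one_le_exp c]
  have G : ∀ t ∈ Icc (0 : ℝ) 1, Good (Real.exp c) (γ t) :=
    fun t ht => (H t ht).mono ((le_max_left _ _).trans e1)
  have G' : ∀ t ∈ Icc (0 : ℝ) 1, Good (Real.exp c) (γ' t) :=
    fun t ht => (H' t ht).mono ((le_max_right _ _).trans e1)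
  refine ⟨c, hc0, ?_⟩
  have key : ∀ N : ℕ, ∀ a b : ℝ, 0 ≤ a → a ≤ b → a ≤ N + 1 →
      Good (Real.exp (c * (b - a + 3))) (fun z => cat' γ' a (cat γ b z)) := by
    intro N
    induction N with
    | zero =>
      intro a b ha hab ha1
      rw [cat'_eq h.zero' (N := 1) (by simpa using ha1)]
      have := (G' _ ⟨Real.smoothTransition.nonneg a, Real.smoothTransition.le_one a⟩).comp
        (good_catN G ⌈b⌉₊ b) (Real.exp_pos c).le
      rw [← Real.exp_add] at this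
      refine Good.mono this (Real.exp_le_exp.2 ?_)
      have h1 : (⌈b⌉₊ : ℝ) < b + 1 := Nat.ceil_lt_add_one (ha.trans hab)
      simp only [Nat.cast_zero, zero_add] at ha1
      nlinarith
    | succ N ih =>
      intro a b ha hab ha1
      by_cases h1 : a ≤ N + 1
      · exact ih a b ha hab h1
      have hN : (0 : ℝ) ≤ N := Nat.cast_nonneg N
      have := ih (a - 1) (b - 1) (by linarith) (by linarith) (by push_cast at ha1; linarith)
      rw [show b - 1 - (a - 1) = b - a by ring] at this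
      convert this using 2 with z
      have ea := cat'_add_one γ' (t := a - 1) (by linarith)
      have eb := cat_add_one γ (t := b - 1) (by linarith)
      rw [sub_add_cancel] at ea eb
      rw [ea, eb, h.left]
  intro a b ha hab
  exact key ⌈a⌉₊ a b ha hab (by linarith [Nat.le_ceil a])

end Crest.Agent.R123
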