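import Crest.Agent.R123.Euler

/-! The angle-doubling map of the two-sphere acts by `2` on a nonzero homology class. -/

set_option autoImplicit false

noncomputable section

namespace Crest.Agent.R123

open Complex ComplexConjugate CategoryTheory AlgebraicTopology Limits

/-- Clamp to `[0, 1]`. -/
def clamp (t : ℝ) : ℝ := max 0 (min 1 t)

lemma clamp_mem (t : ℝ) : 0 ≤ clamp t ∧ clamp t ≤ 1 :=
  ⟨le_max_left _ _, max_le zero_le_one (min_le_left _ _)⟩

lemma clamp_eq {t : ℝ} (h0 : 0 ≤ t) (h1 : t ≤ 1) : clamp t = t := by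
  rw [clamp, min_eq_right h1, max_eq_right h0]

@[fun_prop] lemma continuous_clamp : Continuous clamp := by unfold clamp; fun_prop

/-- Horizontal part of a cone point. -/
def cpp (t a : ℝ) : ℂ := (√(1 - t ^ 2) : ℝ) * exp (2 * Real.pi * I * ((a / (1 - t) : ℝ) : ℂ))

lemma norm_exp_aux (x : ℝ) : ‖exp (2 * Real.pi * I * (x : ℂ))‖ = 1 := by
  rw [show (2 * Real.pi * I * (x : ℂ)) = ((2 * Real.pi * x : ℝ) : ℂ) * I by push_cast; ring]
  exact norm_exp_ofReal_mul_I _

lemma norm_cpp (t a : ℝ) : ‖cpp t a‖ = √(1 - t ^ 2) := by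
  rw [cpp, norm_mul, norm_exp_aux, mul_one, norm_real, Real.norm_eq_abs,
    abs_of_nonneg (Real.sqrt_nonneg _)]

lemma continuous_cpp : Continuous fun q : ℝ × ℝ => cpp q.1 q.2 := by
  rw [continuous_iff_continuousAt]
  rintro ⟨t, a⟩
  by_cases ht : t = 1
  · subst ht
    have h0 : cpp 1 a = 0 := by simp [cpp]
    rw [ContinuousAt, h0, tendsto_zero_iff_norm_tendsto_zero]
    simp only [norm_cpp]
    have : Continuous fun q : ℝ × ℝ => √(1 - q.1 ^ 2) := by fun_prop
    simpa using this.tendsto (1, a)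
  · unfold cpp
    have h1 : (1 - t) ≠ 0 := sub_ne_zero.2 (Ne.symm ht)
    have : ContinuousAt (fun q : ℝ × ℝ => q.2 / (1 - q.1)) (t, a) :=
      ContinuousAt.div (by fun_prop) (by fun_prop) h1
    fun_prop

lemma cpp_add_nat (t a : ℝ) (m : ℕ) : cpp t (a + m * (1 - t)) = cpp t a := by
  by_cases ht : t = 1
  · subst ht; simp [cpp]
  · have h1 : (1 - t) ≠ 0 := sub_ne_zero.2 (Ne.symm ht)
    unfold cpp
    congr 1
    rw [add_div, mul_div_assoc, div_self h1, mul_one]
    push_cast
    rw [mul_add, exp_add, show 2 * (Real.pi : ℂ) * I * (m : ℂ) = m * (2 * Real.pi * I) by ring,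
      exp_nat_mul_two_pi_mul_I, mul_one]

/-- Sign of a hemisphere. -/
def sgn (b : Bool) : ℝ := if b then 1 else -1

lemma sgn_sq (b : Bool) : sgn b ^ 2 = 1 := by cases b <;> simp [sgn]

/-- A point of the cone over the equator. -/
def cp (b : Bool) (t a : ℝ) : S2 :=
  mkS (cpp (clamp t) a) (sgn b * clamp t) (by
    rw [norm_cpp, Real.sq_sqrt (by nlinarith [(clamp_mem t).1, (clamp_mem t).2]), mul_pow, sgn_sq]
    ring)

/-- Linear functional on a simplex. -/
def lin {n : ℕ} (c : Fin (n + 1) → ℝ) (x : Smp n) : ℝ := ∑ j, c j * x j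

lemma continuous_lin {n : ℕ} (c : Fin (n + 1) → ℝ) : Continuous (lin c) := by
  unfold lin
  refine continuous_finsetSum _ fun j _ => continuous_const.mul ?_
  exact (continuous_apply j).comp continuous_subtype_val

lemma lin_smap {m n : ℕ} (c : Fin (n + 1) → ℝ) (g : Fin (m + 1) → Fin (n + 1)) (x : Smp m) :
    lin c (smap g x) = lin (c ∘ g) x := by
  unfold lin
  simp only [smap_apply, Finset.mul_sum, Function.comp_apply]
  rw [← Finset.sum_fiberwise Finset.univ g]
  refine Finset.sum_congr rfl fun j _ => Finset.sum_congr rfl fun i hi => ?_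
  rw [(Finset.mem_filter.1 hi).2]

/-- Singular simplices in cone coordinates. -/
def gen (b : Bool) {n : ℕ} (τ θ : Fin (n + 1) → ℝ) : C(Smp n, S2) :=
  ⟨fun x => cp b (lin τ x) (lin θ x), by
    unfold cp
    refine continuous_mkS ?_ ?_ _
    · exact continuous_cpp.comp
        ((continuous_clamp.comp (continuous_lin τ)).prodMk (continuous_lin θ))
    · exact continuous_const.mul (continuous_clamp.comp (continuous_lin τ))⟩

lemma gen_smap (b : Bool) {m n : ℕ} (τ θ : Fin (n + 1) → ℝ) (g : Fin (m + 1) → Fin (n + 1)) :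
    (gen b τ θ).comp (smap g) = gen b (τ ∘ g) (θ ∘ g) := by
  ext1 x
  change cp b (lin τ (smap g x)) (lin θ (smap g x)) = cp b (lin (τ ∘ g) x) (lin (θ ∘ g) x)
  rw [lin_smap, lin_smap]

lemma gen_equator (b b' : Bool) {n : ℕ} (θ : Fin (n + 1) → ℝ) :
    gen b (fun _ => 0) θ = gen b' (fun _ => 0) θ := by
  ext1 x
  change cp b (lin (fun _ => 0) x) (lin θ x) = cp b' (lin (fun _ => 0) x) (lin θ x)
  have : lin (fun _ => 0) x = 0 := by simp [lin]
  rw [this]
  apply S2_ext
  · rfl
  · simp [cp, clamp]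

lemma gen_shift (b : Bool) {n : ℕ} (τ θ θ' : Fin (n + 1) → ℝ) (hτ : ∀ j, 0 ≤ τ j ∧ τ j ≤ 1)
    (h : ∀ j, θ' j = θ j + (1 - τ j)) : gen b τ θ' = gen b τ θ := by
  ext1 x
  change cp b (lin τ x) (lin θ' x) = cp b (lin τ x) (lin θ x)
  have h0 : 0 ≤ lin τ x := Finset.sum_nonneg fun j _ => mul_nonneg (hτ j).1 (stdSimplex.zero_le x j)
  have h1 : lin τ x ≤ 1 := by
    rw [← stdSimplex.sum_eq_one x]
    exact Finset.sum_le_sum fun j _ => mul_le_of_le_one_left (stdSimplex.zero_le x j) (hτ j).2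
  have h2 : lin θ' x = lin θ x + (1 : ℕ) * (1 - lin τ x) := by
    conv_rhs => rw [← stdSimplex.sum_eq_one x]
    simp only [lin, h, Nat.cast_one, one_mul, ← Finset.sum_sub_distrib, ← Finset.sum_add_distrib]
    exact Finset.sum_congr rfl fun j _ => by ring
  apply S2_ext
  · simp only [cp, pc_mkS, clamp_eq h0 h1]
    rw [h2, cpp_add_nat]
  · rfl

/-- The angle-doubling map in the plane. -/
def dbl (p : ℂ) : ℂ := p ^ 2 / ‖p‖

lemma norm_dbl (p : ℂ) : ‖dbl p‖ = ‖p‖ := by
  by_cases hp : p = 0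
  · simp [dbl, hp]
  · rw [dbl, norm_div, norm_pow, norm_real, norm_norm, pow_two, mul_div_assoc,
      div_self (norm_ne_zero_iff.2 hp), mul_one]

lemma continuous_dbl : Continuous dbl := by
  rw [continuous_iff_continuousAt]
  intro p
  by_cases hp : p = 0
  · subst hp
    have h0 : dbl 0 = 0 := by simp [dbl]
    rw [ContinuousAt, h0, tendsto_zero_iff_norm_tendsto_zero]
    simp only [norm_dbl]
    simpa using (continuous_norm (E := ℂ)).tendsto 0
  · unfold dbl
    exact ContinuousAt.div (by fun_prop) (by fun_prop) (by simpa using hp)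

/-- The angle-doubling map of the sphere. -/
def dblS : C(S2, S2) :=
  ⟨fun x => mkS (dbl (pc x)) (hc x) (by rw [norm_dbl]; exact pc_hc x),
    continuous_mkS (p := fun x => dbl (pc x)) (h := hc) (continuous_dbl.comp continuous_pc)
      continuous_hc (fun x => by rw [norm_dbl]; exact pc_hc x)⟩

lemma dbl_cpp (t a : ℝ) : dbl (cpp t a) = cpp t (2 * a) := by
  rw [dbl, norm_cpp]
  unfold cpp
  by_cases h : √(1 - t ^ 2) = 0
  · simp [h]
  · have h' : ((√(1 - t ^ 2) : ℝ) : ℂ) ≠ 0 := by exact_mod_cast h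
    rw [div_eq_iff h', mul_pow, ← exp_nat_mul]
    push_cast
    ring_nf

lemma dblS_gen (b : Bool) {n : ℕ} (τ θ : Fin (n + 1) → ℝ) :
    dblS.comp (gen b τ θ) = gen b τ (fun j => 2 * θ j) := by
  ext1 x
  apply S2_ext
  · change dbl (cpp (clamp (lin τ x)) (lin θ x)) = cpp (clamp (lin τ x)) (lin (fun j => 2 * θ j) x)
    rw [dbl_cpp]
    congr 1
    simp [lin, Finset.mul_sum, mul_assoc]
  · rfl

/-- The sphere as an object of `TopCat`. -/
abbrev TS2 : TopCat.{0} := TopCat.of S2

/-- The cone over the equator. -/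
def coneC (b : Bool) : C(Smp 2, S2) := gen b ![1, 0, 0] ![0, 0, 1]

/-- The cone over the doubled equator. -/
def coneD (b : Bool) : C(Smp 2, S2) := gen b ![1, 0, 0] ![0, 0, 2]

/-- The cone over the triangle. -/
def coneW (b : Bool) : C(Smp 3, S2) := gen b ![1, 0, 0, 0] ![0, 0, 1, 2]

/-- The equator loop. -/
def eqtr : C(Smp 1, S2) := gen true (fun _ => 0) ![0, 1]

lemma coneC_face0 (b : Bool) : (coneC b).comp (smap ![1, 2]) = eqtr := by
  rw [coneC, gen_smap, eqtr, ← gen_equator b true]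
  congr 1 <;> ext i <;> fin_cases i <;> simp

lemma coneC_face12 (b : Bool) : (coneC b).comp (smap ![0, 2]) = (coneC b).comp (smap ![0, 1]) := by
  rw [coneC, gen_smap, gen_smap]
  have e1 : (![1, 0, 0] : Fin 3 → ℝ) ∘ (![0, 2] : Fin 2 → Fin 3) = ![1, 0] := by
    ext i; fin_cases i <;> simp
  have e2 : (![1, 0, 0] : Fin 3 → ℝ) ∘ (![0, 1] : Fin 2 → Fin 3) = ![1, 0] := by
    ext i; fin_cases i <;> simp
  rw [e1, e2]
  apply gen_shift
  · intro j; fin_cases j <;> simp
  · intro j; fin_cases j <;> simp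

lemma coneC_d (b : Bool) : ch (X := TS2) (coneC b) ≫ (KK TS2).d 2 1 = ch (X := TS2) eqtr := by
  rw [ch_d, Fin.sum_univ_three]
  have a0 : (0 : Fin 3).succAbove = ![1, 2] := by decide
  have a1 : (1 : Fin 3).succAbove = ![0, 2] := by decide
  have a2 : (2 : Fin 3).succAbove = ![0, 1] := by decide
  rw [a0, a1, a2]
  erw [coneC_face0, coneC_face12]
  simp

lemma coneW_d (b : Bool) : ch (X := TS2) (coneW b) ≫ (KK TS2).d 3 2 =
    ch (X := TS2) (gen true (fun _ => 0) ![0, 1, 2]) + ch (X := TS2) (coneD b)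
      - (2 : ℝ) • ch (X := TS2) (coneC b) := by
  rw [ch_d, Fin.sum_univ_four]
  have f0 : (coneW b).comp (smap (0 : Fin 4).succAbove) = gen true (fun _ => 0) ![0, 1, 2] := by
    rw [coneW, gen_smap, ← gen_equator b true]
    congr 1 <;> ext i <;> fin_cases i <;> simp
  have f1 : (coneW b).comp (smap (1 : Fin 4).succAbove) = coneC b := by
    have a1 : (1 : Fin 4).succAbove = ![0, 2, 3] := by decide
    rw [coneW, gen_smap, coneC, a1]
    have e1 : (![1, 0, 0, 0] : Fin 4 → ℝ) ∘ (![0, 2, 3] : Fin 3 → Fin 4) = ![1, 0, 0] := by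
      ext i; fin_cases i <;> simp
    rw [e1]
    apply gen_shift
    · intro j; fin_cases j <;> simp
    · intro j; fin_cases j <;> simp <;> norm_num
  have f2 : (coneW b).comp (smap (2 : Fin 4).succAbove) = coneD b := by
    have a1 : (2 : Fin 4).succAbove = ![0, 1, 3] := by decide
    rw [coneW, gen_smap, coneD, a1]
    congr 1 <;> ext i <;> fin_cases i <;> simp
  have f3 : (coneW b).comp (smap (3 : Fin 4).succAbove) = coneC b := by
    have a1 : (3 : Fin 4).succAbove = ![0, 1, 2] := by decide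
    rw [coneW, gen_smap, coneC, a1]
    congr 1 <;> ext i <;> fin_cases i <;> simp
  erw [f0, f1, f2, f3]
  rw [two_smul]
  norm_num
  abel

/-- Section over the complement of the south pole. -/
def secN : C(S2, ℂ × ℂ) := ⟨fun x => (1 + hc x, pc x), by fun_prop⟩

/-- Section over the complement of the north pole. -/
def secS : C(S2, ℂ × ℂ) := ⟨fun x => (conj (pc x), 1 - hc x), by fun_prop⟩

lemma isSec_secN {K : Type} [TopologicalSpace K] (σ : C(K, S2)) (h : ∀ x, 0 ≤ hc (σ x)) :
    IsSec σ (secN.comp σ) := by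
  intro x
  refine ⟨fun h0 => ?_, ?_, ?_⟩
  · have h1 : (1 + hc (σ x) : ℂ) = 0 := congrArg Prod.fst h0
    have h2 : (1 + hc (σ x) : ℝ) = 0 := by exact_mod_cast h1
    linarith [h x]
  · change conj (pc (σ x)) * pc (σ x) = (1 - hc (σ x)) * (1 + hc (σ x))
    rw [mul_comm, pc_mul_conj]
  · change pc (σ x) * (1 + hc (σ x)) = (1 + hc (σ x)) * pc (σ x)
    ring

lemma isSec_secS {K : Type} [TopologicalSpace K] (σ : C(K, S2)) (h : ∀ x, hc (σ x) ≤ 0) :
    IsSec σ (secS.comp σ) := by
  intro x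
  refine ⟨fun h0 => ?_, ?_, ?_⟩
  · have h1 : (1 - hc (σ x) : ℂ) = 0 := congrArg Prod.snd h0
    have h2 : (1 - hc (σ x) : ℝ) = 0 := by exact_mod_cast h1
    linarith [h x]
  · change conj (pc (σ x)) * (1 - hc (σ x)) = (1 - hc (σ x)) * conj (pc (σ x))
    ring
  · change pc (σ x) * conj (pc (σ x)) = (1 + hc (σ x)) * (1 - hc (σ x))
    rw [pc_mul_conj, mul_comm]

lemma eul_cone (b : Bool) (s : C(S2, ℂ × ℂ)) (hs : IsSec (coneC b) (s.comp (coneC b))) :
    eul (coneC b) = inc (hermC (sec eqtr) (s.comp eqtr)) := by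
  rw [eul_eq hs, eulV]
  unfold edgeG
  rw [ContinuousMap.comp_assoc, ContinuousMap.comp_assoc, ContinuousMap.comp_assoc, coneC_face0,
    coneC_face12]
  ring

lemma eqtr_coords (x : Smp 1) :
    pc (eqtr x) = exp (2 * Real.pi * I * (x 1 : ℝ)) ∧ hc (eqtr x) = 0 := by
  have h0 : lin (fun _ => 0) x = 0 := by simp [lin]
  have h1 : lin ![0, 1] x = x 1 := by simp [lin, Fin.sum_univ_two]
  constructor
  · change cpp (clamp (lin (fun _ => 0) x)) (lin ![0, 1] x) = _
    rw [h0, h1]
    simp [cpp, clamp]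
  · change sgn true * clamp (lin (fun _ => 0) x) = 0
    rw [h0]
    simp [clamp]

lemma eul_diff : eul (coneC true) - eul (coneC false) = 2 * Real.pi := by
  have hN : IsSec (coneC true) (secN.comp (coneC true)) := isSec_secN _ fun x => by
    change 0 ≤ sgn true * clamp _
    simpa [sgn] using (clamp_mem _).1
  have hS : IsSec (coneC false) (secS.comp (coneC false)) := isSec_secS _ fun x => by
    change sgn false * clamp _ ≤ 0
    simpa [sgn] using (clamp_mem _).1
  rw [eul_cone true secN hN, eul_cone false secS hS]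
  have hN' : IsSec eqtr (secN.comp eqtr) := isSec_secN _ fun x => (eqtr_coords x).2.ge
  have hS' : IsSec eqtr (secS.comp eqtr) := isSec_secS _ fun x => (eqtr_coords x).2.le
  rw [inc_herm_add (isSec_sec eqtr) hN' hS']
  have hx1 : Continuous fun x : Smp 1 => x 1 := (continuous_apply 1).comp continuous_subtype_val
  let L : C(Smp 1, ℂ) := ⟨fun x => (Real.log 2 : ℝ) - 2 * Real.pi * I * (x 1 : ℝ),
    continuous_const.sub (continuous_const.mul (continuous_ofReal.comp hx1))⟩
  have hL : ∀ x, exp (L x) = hermC (secN.comp eqtr) (secS.comp eqtr) x := by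
    intro x
    obtain ⟨a, b⟩ := eqtr_coords x
    change exp ((Real.log 2 : ℝ) - 2 * Real.pi * I * (x 1 : ℝ)) =
      conj (1 + (hc (eqtr x) : ℂ)) * conj (pc (eqtr x)) + conj (pc (eqtr x)) * (1 - hc (eqtr x))
    rw [a, b, sub_eq_add_neg, exp_add, ← ofReal_exp, Real.exp_log two_pos, ← exp_conj]
    simp [map_ofNat]
    ring
  rw [inc_eq L hL]
  simp [L]

/-- A self-map of `Y` that acts on a retract two-sphere like the angle-doubling map has the
eigenvalue `2` on second real homology. -/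
theorem hasEigenvalue_two {Y : Type} [TopologicalSpace Y] (i : C(S2, Y)) (p : C(Y, S2))
    (hip : ∀ x, p (i x) = x) (f : C(Y, Y)) (H : (f.comp i).Homotopic (i.comp dblS)) :
    Module.End.HasEigenvalue
      (((singularHomologyFunctor (ModuleCat.{0} ℝ) 2).obj (ModuleCat.of ℝ ℝ)).map
        (TopCat.ofHom f)).hom (2 : ℝ) := by
  obtain ⟨H⟩ := H
  refine hasEigenvalue_of_chain (X := TS2) (Y := TopCat.of Y) (TopCat.ofHom i) (TopCat.ofHom p)
    (TopCat.hom_ext (ContinuousMap.ext hip)) (TopCat.ofHom f) (TopCat.ofHom dblS) H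
    (ch (X := TS2) (coneC true) - ch (X := TS2) (coneC false)) ?_
    (ch (X := TS2) (coneW true) - ch (X := TS2) (coneW false)) ?_ (coch (X := TS2) eul)
    (d_coch (X := TS2) eul eul_cocycle) ?_
  · rw [Preadditive.sub_comp, coneC_d, coneC_d, sub_self]
  · rw [Preadditive.sub_comp, Preadditive.sub_comp, coneW_d, coneW_d, ch_map, ch_map]
    have e : ∀ b, dblS.comp (coneC b) = coneD b := by
      intro b
      rw [coneC, dblS_gen, coneD]
      congr 1
      ext i; fin_cases i <;> simp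
    erw [e, e]
    rw [smul_sub]
    abel
  · rw [Preadditive.sub_comp, ch_coch, ch_coch, ← sub_smul]
    erw [eul_diff]
    intro h
    have := congrArg (fun φ => φ.hom (1 : ℝ)) h
    simp at this

end Crest.Agent.R123
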