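import Mathlib

/-! Changing the model space of a boundaryless manifold along a linear isomorphism. -/

set_option autoImplicit false

noncomputable section

namespace Crest.Agent.R123

open Set Filter Topology
open scoped Manifold ContDiff

variable {E H M E' : Type*} [NormedAddCommGroup E] [NormedSpace ℝ E] [TopologicalSpace H]
  (I : ModelWithCorners ℝ E H) [I.Boundaryless] [TopologicalSpace M] [ChartedSpace H M]
  [NormedAddCommGroup E'] [NormedSpace ℝ E'] (L : E ≃L[ℝ] E')

/-- The transported charts. -/
@[reducible] def transCS : ChartedSpace E' M where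
  atlas := range fun x => (chartAt H x).transHomeomorph (I.toHomeomorph.trans L.toHomeomorph)
  chartAt x := (chartAt H x).transHomeomorph (I.toHomeomorph.trans L.toHomeomorph)
  mem_chart_source x := mem_chart_source H x
  chart_mem_atlas x := mem_range_self x

theorem isManifold_transCS [IsManifold I ∞ M] :
    letI := transCS (M := M) I L
    IsManifold 𝓘(ℝ, E') ∞ M := by
  letI := transCS (M := M) I L
  refine isManifold_of_contDiffOn _ _ _ ?_
  rintro _ _ ⟨x, rfl⟩ ⟨y, rfl⟩
  have h := contDiffOn_ext_coord_change (I := I) (n := ∞) y x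
  have h2 := L.contDiff.comp_contDiffOn (h.comp (L.symm.contDiff (n := ∞)).contDiffOn
    (mapsTo_preimage L.symm _))
  refine (h2.congr fun z _ => rfl).mono ?_
  rintro z ⟨⟨h3, h4⟩, -⟩
  simp only [mfld_simps, I.range_eq_univ]
  exact ⟨h3, h4⟩

theorem contMDiff_transCS {f : M → M} (hf : ContMDiff I I 1 f) :
    letI := transCS (M := M) I L
    ContMDiff 𝓘(ℝ, E') 𝓘(ℝ, E') 1 f := by
  letI := transCS (M := M) I L
  intro x
  have h := contMDiffAt_iff.1 (hf x)
  rw [contMDiffAt_iff]
  refine ⟨h.1, ?_⟩
  have h2 := h.2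
  rw [I.range_eq_univ, contDiffWithinAt_univ] at h2
  have h3 : ContDiffAt ℝ 1 (extChartAt I (f x) ∘ f ∘ (extChartAt I x).symm)
      (L.symm (L (extChartAt I x x))) := by rwa [L.symm_apply_apply]
  exact (L.contDiff.contDiffAt.comp _ (h3.comp _ L.symm.contDiff.contDiffAt)).contDiffWithinAt

end Crest.Agent.R123
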